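import Vale.Agent.P153L.H1

/-! Heights and spins. `ph` sends the steps of `P153.Lip` to those of `TAdj`. `sp k` records `k mod 4`.
Injectivity: two Lipschitz functions equal mod 4 have equal increments, and agree far away (walk to the right).
Surjectivity: for `p ∈ cfg D D` let `a x ∈ {0, 1, 2, 3}` be the residue coded by `p` at `x`; `η x y ∈ {-1, 0, 1}` congruent to `a y - a x` mod 4
(finite check on Booleans by `Ok`), closed on triangles (sum divisible by 4 and at most 3); `poinc` over `ℤ`; the primitive `g` is congruent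
to `a` mod 4 (difference constant along edges, zero far away). `ev_iff`: `sqr_con`. -/

open Finset Filter Topology
open scoped Classical

noncomputable section

namespace Vale.Agent.P153L

open P152.GL

theorem h2_const {u : Pt → ℤ} (h : ∀ x y, TAdj x y → u x = u y) (x y : Pt) : u x = u y :=
  (poi_const (u := fun i => u (i, x.2)) (fun i => (h _ _ (poi_h i x.2)).symm) x.1 y.1).trans
    (poi_const (u := fun j => u (y.1, j)) (fun j => (h _ _ (poi_v y.1 j)).symm) x.2 y.2)

theorem h2_ph (x : Pt) : ph (ps x) = x := by simp [ps, ph]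

theorem h2_hex {c x : Pt} {n : ℕ} : x ∉ hex (ph c) n ↔ (n : ℤ) < P153.hx (ps x - c) := by
  have e1 : x.1 - x.2 - c.1 + (x.2 - c.2) = x.1 - (c.1 + c.2) := by ring
  have e2 : x.1 - (c.1 + c.2) - (x.2 - c.2) = x.1 - x.2 - c.1 := by ring
  simp only [mem_hex, ph, ps, P153.hx, Prod.fst_sub, Prod.snd_sub, e1, e2, lt_max_iff]
  omega

/-- The residue coded by two spins. -/
def h2a (r b : Bool) : ℤ := if r then (if b then 0 else 1) else (if b then 3 else 2)

theorem h2_ok {r b r' b' : Bool} (h : r = r' ∨ b = b') : (h2a r' b' - h2a r b) % 4 ≠ 2 := by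
  revert r b r' b'
  decide

theorem h2_dec (r b : Bool) (t : ℤ) (h : (t - h2a r b) % 4 = 0) :
    decide (t % 4 = 0 ∨ t % 4 = 1) = r ∧ decide (t % 4 = 0 ∨ t % 4 = 3) = b := by
  cases r <;> cases b <;>
    simp only [h2a, Bool.false_eq_true, if_true, if_false, decide_eq_false_iff_not,
      decide_eq_true_eq] at h ⊢ <;> omega

theorem sp_bij (c : Pt) (n : ℕ) :
    Set.BijOn sp (P153.Adm c n) (cfg (hex (ph c) n) (hex (ph c) n) : Set (Col × Col)) := by
  obtain ⟨z, hz⟩ := Infinite.exists_notMem_finset (hex (ph c) n)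
  refine ⟨fun k hk => mem_coe.2 (mem_cfg.2 ⟨fun x hx => ?_, fun x hx => ?_,
    fun x _ y _ e => ?_⟩), fun k hk k' hk' e => ?_, fun p hp => ?_⟩
  · exact decide_eq_true (by rw [hk.2 _ (h2_hex.1 hx)]; exact Or.inl rfl)
  · exact decide_eq_true (by rw [hk.2 _ (h2_hex.1 hx)]; exact Or.inl rfl)
  · have h1 := abs_le.1 (lip_iff.1 hk.1 x y e)
    simp only [sp, decide_eq_decide]
    omega
  · have m : ∀ y, k (ps y) % 4 = k' (ps y) % 4 := fun y => by
      have h1 := congrFun (congrArg Prod.fst e) y
      have h2 := congrFun (congrArg Prod.snd e) y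
      simp only [sp, decide_eq_decide] at h1 h2
      omega
    funext x
    have h3 := h2_const (u := fun y => k (ps y) - k' (ps y)) (fun a b e' => by
      have b1 := abs_le.1 (lip_iff.1 hk.1 _ _ e')
      have b2 := abs_le.1 (lip_iff.1 hk'.1 _ _ e')
      have b3 := m a
      have b4 := m b
      omega) (ph x) z
    rw [h1_ps, hk.2 _ (h2_hex.1 hz), hk'.2 _ (h2_hex.1 hz), sub_self] at h3
    exact sub_eq_zero.1 h3
  · obtain ⟨p1, p2, p3⟩ := mem_cfg.1 (mem_coe.1 hp)
    obtain ⟨a, ha⟩ : ∃ a : Pt → ℤ, ∀ x, a x = h2a (p.1 x) (p.2 x) := ⟨_, fun _ => rfl⟩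
    have ok : ∀ x y, TAdj x y → (a y - a x) % 4 ≠ 2 := fun x y e => by
      rw [ha, ha]
      exact h2_ok (p3 x trivial y trivial e)
    have a0 : ∀ x ∉ hex (ph c) n, a x = 0 := fun x hx => by
      rw [ha, p1 x hx, p2 x hx]
      rfl
    obtain ⟨g, g1, g2⟩ := poinc (fun x y => (a y - a x + 1) % 4 - 1) (ray_hex (ph c) n)
      (fun x y e => by
        have b1 := ok x y e
        omega)
      (fun x y w e1 e2 e3 => by
        have b1 := ok x y e1
        have b2 := ok y w e2
        have b3 := ok x w e3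
        omega)
      fun x hx y hy _ => by
        rw [a0 x hx, a0 y hy]
        rfl
    have g3 : ∀ x, (g x - a x) % 4 = 0 := fun x => by
      have h3 := h2_const (u := fun y => (g y - a y) % 4) (fun x y e => by
        have b1 := g1 x y e
        omega) x z
      rw [h3, g2 z hz, a0 z hz]
      rfl
    refine ⟨fun x => g (ph x), ⟨lip_iff.2 fun x y e => ?_, fun x hx => g2 _ (h2_hex.2 ?_)⟩,
      Prod.ext (funext fun x => ?_) (funext fun x => ?_)⟩
    · have b1 := g1 x y e
      have b2 := ok x y e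
      rw [h2_ph, h2_ph, abs_le]
      omega
    · rwa [h1_ps]
    · have b1 := g3 x
      rw [ha, ← h2_ph x] at b1
      rw [← h2_ph x]
      simpa only [sp, h2_ph] using (h2_dec _ _ _ b1).1
    · have b1 := g3 x
      rw [ha, ← h2_ph x] at b1
      rw [← h2_ph x]
      simpa only [sp, h2_ph] using (h2_dec _ _ _ b1).2

end Vale.Agent.P153L
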