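import Vale.Agent.P153L.Enc

/-! Joining inside a hexagon. `K = hex 0 (2 * n + 1)` in doubled coordinates.
`enc_off`: `lo z`, `hi z` are outside `hex 0 n` when `z ∉ K` is not even-even (omega).
`conn_false`: every site of `K` is false (an end is in `hex 0 n`), `hex_con`.
`conn_true`: call `z` odd if it is not even-even; odd sites of `hex 0 (2 * n)` are true. By induction on the radius every odd site of
`hex 0 (2 * n)` is joined to `(1, 0)` by odd sites: a site which is not a corner of its ring has two adjacent inner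
neighbours, one of them is odd; an odd corner moves first along its ring; the first ring is a cycle.
A true site `z = y + y'` of `OB K` has the two inner neighbours `y + v`, `y' + v` with `v ∈ hex 0 n` (true), one of them has an odd inner neighbour. -/

open Finset Filter Topology
open scoped Classical

noncomputable section

namespace Vale.Agent.P153L

open P152.GL

theorem cnx_symm {a c : Pt} (h : TAdj a c) : TAdj c a := by
  obtain ⟨a1, a2⟩ := a
  obtain ⟨c1, c2⟩ := c
  simp only [TAdj, Prod.mk.injEq] at h ⊢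
  omega

theorem cnx_gen {K : Finset Pt} {s : Bool} {X : Col} (h : ∀ x ∈ K, X x = s)
    (hc : ∀ x ∈ K, ∀ y ∈ K, Relation.ReflTransGen (fun a c => TAdj a c ∧ c ∈ K) x y) :
    X ∈ Conn K s := by
  rintro x ⟨hx, a, ha, hxa⟩ y ⟨hy, b, hb, hyb⟩ h1 h2
  refine ⟨Or.inr ⟨hx, a, ha, hxa⟩, h1, Relation.ReflTransGen.head ⟨hxa, Or.inl ha, h a ha⟩
    (Relation.ReflTransGen.tail ?_ ⟨cnx_symm hyb, Or.inr ⟨hy, b, hb, hyb⟩, h2⟩)⟩
  have hab := hc a ha b hb
  clear hyb hb
  induction hab with
  | refl => exact Relation.ReflTransGen.refl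
  | tail _ huv ih => exact ih.tail ⟨huv.1, Or.inl huv.2, h _ huv.2⟩

theorem sqr_hex (n : ℕ) : sqr n ⊆ hex 0 (2 * n + 1) := by
  intro x hx
  simp only [mem_sqr, mem_hex, abs_le, Prod.fst_zero, Prod.snd_zero] at hx ⊢
  push_cast
  omega

theorem enc_off {n : ℕ} {r r' : Col} (h : ∀ x ∉ hex 0 n, r x = r' x) :
    ∀ z ∉ hex 0 (2 * n + 1), enc r z = enc r' z := by
  intro z hz
  have h1 : lo z ∉ hex 0 n := by
    intro h1
    apply hz
    simp only [mem_hex, abs_le, Prod.fst_zero, Prod.snd_zero, lo] at h1 ⊢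
    push_cast
    omega
  have h2 : hi z ∉ hex 0 n := by
    intro h2
    apply hz
    simp only [mem_hex, abs_le, Prod.fst_zero, Prod.snd_zero, hi] at h2 ⊢
    push_cast
    omega
  simp only [enc, h _ h1, h _ h2]

theorem conn_false {n : ℕ} {r : Col} (h : ∀ x ∈ hex 0 n, r x = false) :
    enc r ∈ Conn (hex 0 (2 * n + 1)) false := by
  refine cnx_gen (fun z hz => ?_) fun x hx y hy => hex_con hx hy
  by_cases h0 : z.1 % 2 = 0 ∧ z.2 % 2 = 0
  · simp [enc, h0]
  · have h1 : lo z ∈ hex 0 n ∨ hi z ∈ hex 0 n := by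
      simp only [mem_hex, abs_le, Prod.fst_zero, Prod.snd_zero, lo, hi] at hz ⊢
      push_cast at hz
      omega
    rcases h1 with h1 | h1
    · simp [enc, h _ h1]
    · simp [enc, h _ h1]

theorem conn_const {n : ℕ} {s : Bool} {r : Col} (h : ∀ x ∈ sqr n, r x = s) :
    r ∈ Conn (sqr n) s :=
  cnx_gen h fun _ hx _ hy => sqr_con hx hy

end Vale.Agent.P153L
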