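import Vale.Agent.P153L.Bas

/-! Finite energy. `w_fe`: `b ↦ (b on cl K, the colouring equal to xor b b₀ flipped)`; simplest: for two
elements `b, b₀` of `cmp N univ r` that agree on `cl K`, the colouring `x ↦ (b x == b₀ x)` is true on `cl K` and
off `N`, compatible with `r'`; so each fibre of the restriction to `cl K` injects in `cmp N univ r'`
(`card_le_mul_card_image`). `ex_fe`: the map `r ↦ K.piecewise (fun _ => s) r` has fibres of size at most `2 ^ #K`. -/

open Finset Filter Topology
open scoped Classical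

noncomputable section

namespace Vale.Agent.P153L

open P152.GL

theorem w_fe {N K : Finset Pt} {r r' : Col} (h : ∀ x ∉ K, r x = r' x) :
    w N r ≤ 2 ^ (cl K).card * w N r' := by
  have key : (cmp N Set.univ r).card ≤ (cmp N Set.univ r').card * (ext (cl K) tt).card := by
    refine card_le_mul_card_image_of_maps_to
      (f := fun (b : Col) (x : Pt) => if x ∈ cl K then b x else true)
      (fun b _ => mem_ext.2 fun x hx => if_neg hx) _ fun σ _ => ?_
    rcases ((cmp N Set.univ r).filter fun b =>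
      (fun x => if x ∈ cl K then b x else true) = σ).eq_empty_or_nonempty with e | ⟨b₀, hb₀⟩
    · rw [e]
      exact Nat.zero_le _
    obtain ⟨h0, h1⟩ := mem_filter.1 hb₀
    obtain ⟨h2, h3⟩ := mem_cmp.1 h0
    refine card_le_card_of_injOn (fun b x => b x == b₀ x) (fun b hb => ?_) fun b _ b' _ e => ?_
    · obtain ⟨k0, k1⟩ := mem_filter.1 (mem_coe.1 hb)
      obtain ⟨k2, k3⟩ := mem_cmp.1 k0
      have k4 : ∀ x ∈ cl K, (b x == b₀ x) = true := fun x hx => by
        have := congrFun (k1.trans h1.symm) x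
        simpa only [if_pos hx, beq_iff_eq] using this
      refine mem_coe.2 (mem_cmp.2 ⟨fun x hx => by simp [k2 x hx, h2 x hx], fun x _ y _ a => ?_⟩)
      by_cases hx : x ∈ K
      · exact .inr ((k4 x (sub_cl hx)).trans (k4 y (mem_cl.2 (.inr ⟨x, hx, a⟩))).symm)
      by_cases hy : y ∈ K
      · exact .inr ((k4 x (mem_cl.2 (.inr ⟨y, hy, a.symm⟩))).trans (k4 y (sub_cl hy)).symm)
      rw [← h x hx, ← h y hy]
      rcases k3 x trivial y trivial a with c | c
      · exact .inl c
      rcases h3 x trivial y trivial a with d | d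
      · exact .inl d
      · exact .inr (by simp only [c, d])
    · funext x
      have : (b x == b₀ x) = (b' x == b₀ x) := congrFun e x
      revert this
      cases b x <;> cases b' x <;> cases b₀ x <;> simp
  rw [card_ext, mul_comm] at key
  unfold w
  exact_mod_cast key

theorem ex_fe {D N K : Finset Pt} (hK : K ⊆ D) (ξ : Col) (s : Bool) {E : Set Col}
    (hE : ∀ X Y : Col, (∀ x ∉ K, X x = Y x) → X ∈ E → Y ∈ E) :
    nu D N ξ E ≤ 2 ^ (K.card + (cl K).card) * nu D N ξ (E ∩ {r | ∀ x ∈ K, r x = s}) := by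
  let φ : Col → Col := fun r x => if x ∈ K then s else r x
  let G : Col → ℝ := fun r => w N r * (E ∩ {r | ∀ x ∈ K, r x = s}).indicator 1 r
  have hφ : ∀ r : Col, ∀ x ∉ K, r x = φ r x := fun r x hx => (if_neg hx).symm
  have hG : ∀ r, 0 ≤ G r := fun r =>
    mul_nonneg w_pos.le (Set.indicator_nonneg (fun _ _ => zero_le_one) r)
  have h1 : ∀ r, w N r * E.indicator 1 r ≤ 2 ^ (cl K).card * G (φ r) := fun r => by
    by_cases hr : r ∈ E
    · have h2 : φ r ∈ E ∩ {r | ∀ x ∈ K, r x = s} := ⟨hE r _ (hφ r) hr, fun x hx => if_pos hx⟩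
      simp only [G, Set.indicator_of_mem hr, Set.indicator_of_mem h2, Pi.one_apply, mul_one]
      exact w_fe (hφ r)
    · rw [Set.indicator_of_notMem hr, mul_zero]
      exact mul_nonneg (by positivity) (hG _)
  have h2 : ∑ r ∈ ext D ξ, G (φ r) ≤ 2 ^ K.card * ∑ r ∈ ext D ξ, G r := by
    rw [← sum_fiberwise_of_maps_to (s := ext D ξ) (t := ext D ξ) (g := φ) (fun r hr => mem_ext.2
      fun x hx => (hφ r x fun k => hx (hK k)).symm.trans (mem_ext.1 hr x hx)), mul_sum]
    refine sum_le_sum fun y _ => ?_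
    rw [sum_congr rfl fun r hr => congrArg G (mem_filter.1 hr).2, sum_const, nsmul_eq_mul]
    refine mul_le_mul_of_nonneg_right ?_ (hG y)
    have h3 : ((ext D ξ).filter fun r => φ r = y).card ≤ (ext K y).card :=
      card_le_card fun r hr => mem_ext.2 fun x hx => (mem_filter.1 hr).2 ▸ hφ r x hx
    rw [card_ext] at h3
    exact_mod_cast h3
  unfold nu ex
  rw [← mul_div_assoc]
  refine div_le_div_of_nonneg_right ?_ den_pos.le
  refine (sum_le_sum fun r _ => h1 r).trans ?_
  rw [← mul_sum, pow_add, mul_comm ((2 : ℝ) ^ K.card), mul_assoc]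
  exact mul_le_mul_of_nonneg_left h2 (by positivity)

end Vale.Agent.P153L
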