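import Vale.Agent.P153L.B2
import Vale.Agent.P153L.FE
import Vale.Agent.P153L.Cnx

/-! The second spin in the limit. All by `tend_lJ` along `fam_free` or `fam_sqr`. Positive association and finite energy:
`J_snd` gives `nu (cl (sqr k)) (sqr k) tt`, use `fkg (ray_sqr k)` and `ex_fe` with `K = sqr n`, `conn_const`.
Invariance: `J_add_z`, `cl_add`, `tend_add`. Symmetry: `J_flip`. -/

open Finset Filter Topology
open scoped Classical

noncomputable section

namespace Vale.Agent.P153L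

open P152.GL

theorem dep_snd {F : Finset Pt} {E : Set Col} (h : Dep F E) : Dep2 F (Prod.snd ⁻¹' E) :=
  fun p p' e hp => h p.2 p'.2 (fun x hx => (e x (mem_coe.2 hx)).2) hp

theorem B1_free (hT : NoT) {E : Set Col} (hE : Loc E) :
    Tendsto (fun D : Finset Pt => J D (cl D) (Prod.snd ⁻¹' E)) atTop
      (𝓝 (lJ (Prod.snd ⁻¹' E))) := by
  obtain ⟨F, hF⟩ := hE
  exact tend_lJ hT fam_free (dep_snd hF)

theorem B1_sqr (hT : NoT) {E : Set Col} (hE : Loc E) :
    Tendsto (fun k : ℕ => nu (cl (sqr k)) (sqr k) tt E) atTop (𝓝 (lJ (Prod.snd ⁻¹' E))) := by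
  obtain ⟨F, hF⟩ := hE
  simpa only [J_snd] using tend_lJ hT fam_sqr (dep_snd hF)

theorem B1_mono {E : Set Col} (h : IsUpperSet E) : Monotone (E.indicator (1 : Col → ℝ)) := by
  intro a b hab
  by_cases ha : a ∈ E
  · rw [Set.indicator_of_mem ha, Set.indicator_of_mem (h hab ha)]
    exact le_rfl
  · rw [Set.indicator_of_notMem ha]
    exact Set.indicator_nonneg (fun _ _ => zero_le_one) b

theorem B1_nonneg (hT : NoT) {E : Set Col} (hE : Loc E) : 0 ≤ lJ (Prod.snd ⁻¹' E) :=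
  ge_of_tendsto' (B1_sqr hT hE) fun _ => nu_nonneg E

theorem fldB (hT : NoT) : Fld0 1 fun E => lJ (Prod.snd ⁻¹' E) := by
  refine ⟨one_pos, ?_, fun E hE => B1_nonneg hT hE, fun E E' hE hE' hd => ?_,
    fun E z hE _ _ => ?_, fun E hE _ ε hε => ?_, fun E E' hE hE' hu hu' => ?_⟩
  · exact tendsto_nhds_unique (B1_sqr hT ⟨∅, fun _ _ _ h => h⟩)
      (tendsto_const_nhds.congr fun _ => nu_univ.symm)
  · exact tendsto_nhds_unique (B1_sqr hT (hE.union hE'))
      (((B1_sqr hT hE).add (B1_sqr hT hE')).congr fun _ => (nu_add hd).symm)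
  · refine tendsto_nhds_unique ((B1_free hT (hE.tr z)).comp (tend_add z))
      ((B1_free hT hE).congr fun D => ?_)
    rw [Function.comp_apply, cl_add, ← J_add_z D (cl D) z]
    rfl
  · obtain ⟨F, hF⟩ := mixB hT hE ε hε
    refine ⟨F, fun F' E' h1 h2 => (hF F' E' h1 h2).trans ?_⟩
    have := mul_nonneg hε.le (B1_nonneg hT ⟨F', h1⟩)
    linarith
  · refine le_of_tendsto_of_tendsto' ((B1_sqr hT hE).mul (B1_sqr hT hE'))
      (B1_sqr hT (hE.inter hE')) fun k => ?_
    refine (fkg (ray_sqr k) tt (B1_mono hu) (B1_mono hu')).trans (le_of_eq ?_)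
    rw [nu, Set.inter_indicator_one]
    rfl

theorem feB (hT : NoT) (s : Bool) : FE (fun E => lJ (Prod.snd ⁻¹' E)) s := by
  intro ε hε n
  have hC : (0 : ℝ) < 2 ^ ((sqr n).card + (cl (sqr n)).card) := by positivity
  refine ⟨sqr n, subset_rfl, _, inv_pos.2 hC, fun F E hE hd => ?_⟩
  have h1 : lJ (Prod.snd ⁻¹' E) ≤ 2 ^ ((sqr n).card + (cl (sqr n)).card) *
      lJ (Prod.snd ⁻¹' (E ∩ Conn (sqr n) s)) := by
    refine le_of_tendsto_of_tendsto (B1_sqr hT ⟨F, hE⟩)
      ((B1_sqr hT (Loc.inter ⟨F, hE⟩ (loc_conn (sqr n) s))).const_mul _) ?_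
    filter_upwards [fam_sqr.2.eventually_ge_atTop (sqr n)] with k hk
    refine (ex_fe hk tt s fun X Y e => hE X Y fun x hx => e x (disjoint_left.1 hd hx)).trans ?_
    exact mul_le_mul_of_nonneg_left
      (nu_mono (Set.inter_subset_inter_right _ fun r hr => conn_const hr)) hC.le
  rw [inv_mul_le_iff₀ hC]
  linarith

theorem symB (hT : NoT) {E : Set Col} (hE : Loc E) :
    lJ (Prod.snd ⁻¹' (fl ⁻¹' E)) = lJ (Prod.snd ⁻¹' E) := by
  refine tendsto_nhds_unique (B1_free hT hE.not) ((B1_free hT hE).congr' ?_)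
  obtain ⟨F, hF⟩ := hE
  filter_upwards [fam_free.2.eventually_ge_atTop F] with D hD
  exact (J_flip subset_rfl hD hF).symm

end Vale.Agent.P153L
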