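import Vale.Agent.P153L.X2

/-! Mixing of the second spin. `E` depends on `S ⊆ sqr n`; `R = sqr m` from `NoT`; `F₁ ⊆ sqr n₁` from `lex_mix` for
`f = q R R · (snd ⁻¹' E)`; `F = sqr m₁` from `NoT` for `n₁`. Given `F'` disjoint from `F`, `F' ⊆ sqr n₂`, `m₂` from `NoT`, put
`R' = sqr m₂ \\ sqr n₁`. If `r` is in none of `TArm S R`, `TArm (sqr n₁) (sqr m₁)`, `TArm (sqr n₂) (sqr m₂)` then `r ∉ TArm F' R'`
(reverse the path) and `q_prod`, `q_loc` give `q (E ∩ E') = f r * g r` with `g = q R' R' · (snd ⁻¹' E')`. Take limits along `fam_free`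
(`tend_lJ`, `tend_lex`, `J_near`). -/

open Finset Filter Topology
open scoped Classical

noncomputable section

namespace Vale.Agent.P153L

open P152.GL

theorem b2_dep {S : Finset Pt} {E : Set Col} (h : Dep S E) :
    Dep2 S (Prod.snd ⁻¹' E : Set (Col × Col)) :=
  fun p p' e hp => h p.2 p'.2 (fun x hx => (e x hx).2) hp

theorem b2_sub {n m : ℕ} (h : n ≤ m) : sqr n ⊆ sqr m := fun _ ha => a5l_sub h ha

theorem b2_loc {n m : ℕ} (h : n ≤ m) : Loc (TArm (sqr n) (sqr m)) := ⟨_, dep_tarm (b2_sub h)⟩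

theorem b2_ev (R : Finset Pt) : ∀ᶠ D : Finset Pt in atTop, R ⊆ cl D :=
  tend_cl.eventually (eventually_ge_atTop R)

theorem b2_lex {F : Finset Pt} {g : Col → ℝ} (hg : DepF F g) (h0 : ∀ r, 0 ≤ g r)
    (h1 : ∀ r, g r ≤ 1) : 0 ≤ lex F g ∧ lex F g ≤ 1 :=
  ⟨ge_of_tendsto' (tend_lex fam_free hg) fun _ => (ex_const 0).ge.trans (ex_mono fun r _ => h0 r),
    le_of_tendsto' (tend_lex fam_free hg) fun _ => (ex_mono fun r _ => h1 r).trans (ex_const 1).le⟩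

theorem b2_lJ (hT : NoT) {S : Finset Pt} {G : Set (Col × Col)} (hG : Dep2 S G) :
    0 ≤ lJ G ∧ lJ G ≤ 1 := by
  refine ⟨ge_of_tendsto' (tend_lJ hT fam_free hG) fun _ => ?_,
    le_of_tendsto' (tend_lJ hT fam_free hG) fun _ => ?_⟩
  · rw [J_q]
    exact (ex_const 0).ge.trans (ex_mono fun r _ => q_nonneg G)
  · rw [J_q]
    exact (ex_mono fun r _ => q_le_one G).trans (ex_const 1).le

theorem b2_near (hT : NoT) {S R : Finset Pt} (hS : S ⊆ R) {G : Set (Col × Col)} (hG : Dep2 S G)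
    {A B : Set Col} (hA : Loc A) (hB : Loc B) (h : TArm S R ⊆ A ∪ B) :
    lex R (fun r => q R R r G) ≤ lJ G + (lP A + lP B) := by
  refine le_of_tendsto_of_tendsto (tend_lex fam_free (q_dep hS hG))
    ((tend_lJ hT fam_free hG).add ((tend_lP hA).add (tend_lP hB))) ?_
  filter_upwards [b2_ev R] with D hD
  have h1 := (abs_le.1 (J_near (D := D) hS hD hG)).1
  have h2 := (nu_mono (D := D) (N := cl D) (ξ := tt) h).trans (nu_union_le A B)
  linarith

theorem mixB (hT : NoT) {E : Set Col} (hE : Loc E) : ∀ ε > 0, ∃ F : Finset Pt, ∀ F' E', Dep F' E' →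
    Disjoint F F' → lJ (Prod.snd ⁻¹' (E ∩ E')) ≤ lJ (Prod.snd ⁻¹' E) * lJ (Prod.snd ⁻¹' E') + ε := by
  intro ε hε
  have hδ : 0 < ε / 8 := by positivity
  obtain ⟨S, hS⟩ := hE
  obtain ⟨n, hn⟩ := ex_sqr S
  have hG := b2_dep (hS.mono hn)
  obtain ⟨m, nm, t0⟩ := hT n _ hδ
  have df := q_dep (b2_sub nm) hG
  obtain ⟨F₁, s1, hF₁⟩ := lex_mix df (fun _ => q_nonneg _) (fun _ => q_le_one _) _ hδ
  obtain ⟨n₁, hn₁⟩ := ex_sqr F₁
  obtain ⟨m₁, nm₁, t1⟩ := hT n₁ _ hδ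
  refine ⟨sqr m₁, fun F' E' hE' hd => ?_⟩
  have hG' := b2_dep hE'
  obtain ⟨n₂, hn₂⟩ := ex_sqr F'
  obtain ⟨m₂, nm₂, t2⟩ := hT n₂ _ hδ
  set R' := sqr m₂ \ sqr n₁ with hR'
  have s2 : F' ⊆ R' := fun x hx => mem_sdiff.2 ⟨b2_sub nm₂ (hn₂ hx),
    fun k => disjoint_left.1 hd (b2_sub nm₁ k) hx⟩
  have s3 : TArm F' R' ⊆ TArm (sqr n₁) (sqr m₁) ∪ TArm (sqr n₂) (sqr m₂) := by
    rintro r ⟨x, hx, y, hy, p⟩
    by_cases c : y ∈ sqr m₂
    · refine Or.inl ⟨y, by_contra fun k => hy (mem_sdiff.2 ⟨c, k⟩), x,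
        fun k => disjoint_left.1 hd k hx, ?_⟩
      clear hy c
      induction p with
      | refl => exact .refl
      | tail _ k ih => exact .head ⟨k.1.symm, k.2.symm⟩ ih
    · exact Or.inr ⟨x, hn₂ hx, y, c, p⟩
  have dg := q_dep s2 hG'
  have a1 := (abs_le.1 (hF₁ R' _ dg (disjoint_sdiff.mono_left hn₁) (fun _ => q_nonneg _)
    fun _ => q_le_one _)).2
  have a2 := b2_near hT (b2_sub nm) hG (b2_loc nm) (b2_loc nm) Set.subset_union_left
  have a3 := b2_near hT s2 hG' (b2_loc nm₁) (b2_loc nm₂) s3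
  obtain ⟨a4, a5⟩ := b2_lex dg (fun _ => q_nonneg _) fun _ => q_le_one _
  obtain ⟨a6, a7⟩ := b2_lJ hT hG
  have a8 : lJ (Prod.snd ⁻¹' (E ∩ E')) ≤ lex (sqr m ∪ R') (fun r =>
      q (sqr m) (sqr m) r (Prod.snd ⁻¹' E) * q R' R' r (Prod.snd ⁻¹' E')) +
      (lP (TArm (sqr n) (sqr m)) + (lP (TArm (sqr n₁) (sqr m₁)) + lP (TArm (sqr n₂) (sqr m₂)))) := by
    have d1 : Dep (S ∪ F') (E ∩ E') := fun X Y e hX =>
      ⟨hS.mono subset_union_left X Y e hX.1, hE'.mono subset_union_right X Y e hX.2⟩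
    refine le_of_tendsto_of_tendsto (tend_lJ hT fam_free (b2_dep d1))
      ((tend_lex fam_free fun X Y e => ?_).add ((tend_lP (b2_loc nm)).add
        ((tend_lP (b2_loc nm₁)).add (tend_lP (b2_loc nm₂))))) ?_
    · exact congrArg₂ _ (df X Y fun x hx => e x (mem_coe.2 (mem_union_left _ hx)))
        (dg X Y fun x hx => e x (mem_coe.2 (mem_union_right _ hx)))
    filter_upwards [b2_ev (sqr m), b2_ev R'] with D c1 c2
    rw [J_q, nu, nu, nu, ← ex_add, ← ex_add, ← ex_add]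
    refine ex_mono fun r _ => ?_
    have i0 : ∀ A : Set Col, (0 : ℝ) ≤ A.indicator 1 r := fun A =>
      Set.indicator_nonneg (fun _ _ => zero_le_one) r
    have i1 : ∀ A : Set Col, r ∈ A → A.indicator (1 : Col → ℝ) r = 1 := fun A h =>
      Set.indicator_of_mem h _
    have j0 := i0 (TArm (sqr n) (sqr m))
    have j1 := i0 (TArm (sqr n₁) (sqr m₁))
    have j2 := i0 (TArm (sqr n₂) (sqr m₂))
    have j3 := q_le_one (A := cl D) (T := Set.univ) (r := r) (Prod.snd ⁻¹' (E ∩ E'))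
    have j4 := mul_nonneg (q_nonneg (A := sqr m) (T := sqr m) (r := r) (Prod.snd ⁻¹' E))
      (q_nonneg (A := R') (T := R') (r := r) (Prod.snd ⁻¹' E'))
    by_cases k0 : r ∈ TArm (sqr n) (sqr m)
    · linarith [i1 _ k0]
    by_cases k1 : r ∈ TArm F' R'
    · rcases s3 k1 with k | k <;> linarith [i1 _ k]
    rw [Set.preimage_inter, q_prod (b2_sub nm) c1 k0
      (hd.mono_left (s1.trans (hn₁.trans (b2_sub nm₁)))) hG hG', q_loc s2 c2 k1 hG']
    linarith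
  have a9 := mul_le_mul_of_nonneg_right (a2.trans (add_le_add le_rfl (add_le_add t0 t0))) a4
  have a10 := mul_le_mul_of_nonneg_left (a3.trans (add_le_add le_rfl (add_le_add t1 t2))) a6
  nlinarith [mul_le_mul_of_nonneg_left a5 hδ.le, mul_le_mul_of_nonneg_left a7 hδ.le]

end Vale.Agent.P153L
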