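import Vale.Agent.P153L.Defs

/-! Basic facts. All short. `ex_*`: the denominator is positive since `w_pos` and `ext` is nonempty.
`J_fst`, `J_snd`, `J_q`: `Finset.card_eq_sum_card_fiberwise` or write the card as a double sum of
indicators (`sum_product`, `card_filter`); `Ok` is symmetric in `r`, `b`. -/

open Finset Filter Topology
open scoped Classical

noncomputable section

namespace Vale.Agent.P153L

open P152.GL

variable {A D N K : Finset Pt} {ξ r b : Col} {x y : Pt} {f g : Col → ℝ} {T : Set Pt}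

theorem mem_nb : y ∈ nb x ↔ TAdj x y := by
  simp only [nb, TAdj, mem_insert, mem_singleton]

theorem mem_cl : y ∈ cl D ↔ y ∈ D ∨ ∃ x ∈ D, TAdj x y := by
  simp only [cl, mem_union, mem_biUnion, mem_nb]

theorem sub_cl : D ⊆ cl D := by
  exact subset_union_left

theorem mem_ext : r ∈ ext A ξ ↔ ∀ x ∉ A, r x = ξ x := by
  simp only [ext, mem_image, mem_powerset]
  constructor
  · rintro ⟨S, -, rfl⟩ x hx
    exact if_neg hx
  · refine fun h => ⟨A.filter fun x => r x = true, filter_subset _ _, funext fun x => ?_⟩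
    by_cases hx : x ∈ A
    · simp [hx]
    · rw [if_neg hx, h x hx]

theorem card_ext : (ext A ξ).card = 2 ^ A.card := by
  rw [ext, card_image_of_injOn, card_powerset]
  intro S hS S' hS' e
  ext x
  by_cases hx : x ∈ A
  · simpa [hx] using congrFun e x
  · exact iff_of_false (fun k => hx (mem_powerset.1 hS k)) fun k => hx (mem_powerset.1 hS' k)

theorem mem_cmp : b ∈ cmp A T r ↔ (∀ x ∉ A, b x = true) ∧ Ok T r b := by
  rw [cmp, mem_filter, mem_ext]
  rfl

theorem mem_cfg {p : Col × Col} :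
    p ∈ cfg D N ↔ (∀ x ∉ D, p.1 x = true) ∧ (∀ x ∉ N, p.2 x = true) ∧ Ok Set.univ p.1 p.2 := by
  rw [cfg, mem_filter, mem_product, mem_ext, mem_ext, and_assoc]
  rfl

theorem cmp_pos : 0 < (cmp A T r).card := by
  exact card_pos.2 ⟨tt, mem_cmp.2 ⟨fun _ _ => rfl, fun _ _ _ _ _ => Or.inr rfl⟩⟩

theorem w_pos : 0 < w N r := by
  exact Nat.cast_pos.2 cmp_pos

theorem cfg_pos : 0 < (cfg D N).card := by
  exact card_pos.2 ⟨(tt, tt), mem_cfg.2 ⟨fun _ _ => rfl, fun _ _ => rfl, fun _ _ _ _ _ => Or.inr rfl⟩⟩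

theorem den_pos : 0 < ∑ r ∈ ext D ξ, w N r := by
  exact sum_pos (fun _ _ => w_pos) ⟨ξ, mem_ext.2 fun _ _ => rfl⟩

theorem ex_congr (h : ∀ r ∈ ext D ξ, f r = g r) : ex D N ξ f = ex D N ξ g := by
  unfold ex
  rw [sum_congr rfl fun r hr => congrArg (w N r * ·) (h r hr)]

theorem ex_mono (h : ∀ r ∈ ext D ξ, f r ≤ g r) : ex D N ξ f ≤ ex D N ξ g := by
  exact div_le_div_of_nonneg_right
    (sum_le_sum fun r hr => mul_le_mul_of_nonneg_left (h r hr) w_pos.le) den_pos.le

theorem ex_const (c : ℝ) : ex D N ξ (fun _ => c) = c := by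
  rw [ex, ← sum_mul, mul_div_cancel_left₀ _ den_pos.ne']

theorem ex_add : ex D N ξ (fun r => f r + g r) = ex D N ξ f + ex D N ξ g := by
  simp only [ex, mul_add, sum_add_distrib, add_div]

theorem ex_sub : ex D N ξ (fun r => f r - g r) = ex D N ξ f - ex D N ξ g := by
  simp only [ex, mul_sub, sum_sub_distrib, sub_div]

theorem ex_smul (c : ℝ) : ex D N ξ (fun r => c * f r) = c * ex D N ξ f := by
  simp only [ex, mul_left_comm _ c, ← mul_sum, mul_div_assoc]

theorem ex_sum {ι : Type*} (s : Finset ι) (F : ι → Col → ℝ) :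
    ex D N ξ (fun r => ∑ i ∈ s, F i r) = ∑ i ∈ s, ex D N ξ (F i) := by
  simp only [ex, mul_sum]
  rw [sum_comm, sum_div]

theorem nu_nonneg (E : Set Col) : 0 ≤ nu D N ξ E := by
  rw [← ex_const (D := D) (N := N) (ξ := ξ) 0]
  exact ex_mono fun r _ => Set.indicator_nonneg (fun _ _ => zero_le_one) r

theorem nu_univ : nu D N ξ Set.univ = 1 := by
  rw [nu, Set.indicator_univ]
  exact ex_const 1

theorem nu_mono {E E' : Set Col} (h : E ⊆ E') : nu D N ξ E ≤ nu D N ξ E' := by
  exact ex_mono fun r _ => Set.indicator_le_indicator_of_subset h (fun _ => zero_le_one) r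

theorem nu_add {E E' : Set Col} (h : Disjoint E E') :
    nu D N ξ (E ∪ E') = nu D N ξ E + nu D N ξ E' := by
  rw [nu, Set.indicator_union_of_disjoint h]
  exact ex_add

theorem nu_union_le (E E' : Set Col) : nu D N ξ (E ∪ E') ≤ nu D N ξ E + nu D N ξ E' := by
  rw [nu, nu, nu, ← ex_add]
  refine ex_mono fun r _ => ?_
  by_cases h : r ∈ E <;> by_cases h' : r ∈ E' <;> simp [h, h']

end Vale.Agent.P153L
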