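import Vale.Agent.P153L.Bas

/-! Basic facts. All short. `ex_*`: the denominator is positive since `w_pos` and `ext` is nonempty.
`J_fst`, `J_snd`, `J_q`: `Finset.card_eq_sum_card_fiberwise` or write the card as a double sum of
indicators (`sum_product`, `card_filter`); `Ok` is symmetric in `r`, `b`. -/

open Finset Filter Topology
open scoped Classical

noncomputable section

namespace Vale.Agent.P153L

open P152.GL

variable {A D N K : Finset Pt} {ξ r b : Col} {x y : Pt} {f g : Col → ℝ} {T : Set Pt}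

theorem q_nonneg (G : Set (Col × Col)) : 0 ≤ q A T r G := by
  unfold q
  positivity

theorem q_le_one (G : Set (Col × Col)) : q A T r G ≤ 1 := by
  unfold q
  exact div_le_one_of_le₀ (by exact_mod_cast card_filter_le _ _) (Nat.cast_nonneg _)

theorem q_univ : q A T r Set.univ = 1 := by
  have := (cmp_pos (A := A) (T := T) (r := r)).ne'
  simp [q, this]

theorem J_q (G : Set (Col × Col)) : J D N G = ex D N tt fun r => q N Set.univ r G := by
  have h : ∀ G : Set (Col × Col), (((cfg D N).filter (· ∈ G)).card : ℝ) =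
      ∑ r ∈ ext D tt, (((cmp N Set.univ r).filter fun b => (r, b) ∈ G).card : ℝ) := fun G => by
    rw [← Nat.cast_sum]
    congr 1
    simp only [cfg, cmp, filter_filter, card_filter]
    rw [sum_product]
  have h1 := h Set.univ
  simp only [Set.mem_univ, filter_true] at h1
  rw [J, ex, h, h1]
  congr 1
  refine sum_congr rfl fun r _ => ?_
  rw [q, ← w, mul_div_cancel₀ _ w_pos.ne']

theorem J_fst (E : Set Col) : J D N (Prod.fst ⁻¹' E) = nu D N tt E := by
  rw [J_q, nu]
  refine ex_congr fun r _ => ?_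
  have := (cmp_pos (A := N) (T := Set.univ) (r := r)).ne'
  by_cases h : r ∈ E <;> simp [q, h, this]

theorem J_snd (E : Set Col) : J D N (Prod.snd ⁻¹' E) = nu N D tt E := by
  have h : ∀ G : Set (Col × Col), ((cfg D N).filter (· ∈ G)).card =
      ((cfg N D).filter (· ∈ Prod.swap ⁻¹' G)).card := fun G => by
    refine card_nbij' Prod.swap Prod.swap (fun p hp => ?_) (fun p hp => ?_) (fun p _ => rfl)
      fun p _ => rfl
    · simp only [coe_filter, Set.mem_ofPred_eq, mem_cfg] at hp ⊢
      exact ⟨⟨hp.1.2.1, hp.1.1, fun x hx y hy e => (hp.1.2.2 x hx y hy e).symm⟩, hp.2⟩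
    · simp only [coe_filter, Set.mem_ofPred_eq, mem_cfg] at hp ⊢
      exact ⟨⟨hp.1.2.1, hp.1.1, fun x hx y hy e => (hp.1.2.2 x hx y hy e).symm⟩, hp.2⟩
  have h1 := h Set.univ
  simp only [Set.preimage_univ, Set.mem_univ, filter_true] at h1
  rw [← J_fst, J, J, h, h1]
  rfl

theorem J_mono {G G' : Set (Col × Col)} (h : ∀ p ∈ cfg D N, p ∈ G → p ∈ G') :
    J D N G ≤ J D N G' := by
  refine div_le_div_of_nonneg_right ?_ (Nat.cast_nonneg _)
  exact_mod_cast card_le_card fun p hp =>
    mem_filter.2 ⟨(mem_filter.1 hp).1, h p (mem_filter.1 hp).1 (mem_filter.1 hp).2⟩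

theorem J_add {G G' : Set (Col × Col)} (h : Disjoint G G') :
    J D N (G ∪ G') = J D N G + J D N G' := by
  rw [J, J, J, ← add_div, ← Nat.cast_add, ← card_union_of_disjoint
    (disjoint_filter.2 fun p _ h1 h2 => Set.disjoint_left.1 h h1 h2), ← filter_or]
  congr

theorem J_union_le (G G' : Set (Col × Col)) : J D N (G ∪ G') ≤ J D N G + J D N G' := by
  rw [J, J, J, ← add_div, ← Nat.cast_add]
  refine div_le_div_of_nonneg_right ?_ (Nat.cast_nonneg _)
  refine Nat.cast_le.2 (le_trans (card_le_card fun p hp => ?_) (card_union_le _ _))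
  simp only [mem_filter, mem_union, Set.mem_union] at hp ⊢
  tauto

theorem J_inj {G G' : Set (Col × Col)} (φ : Col × Col → Col × Col)
    (h1 : ∀ p ∈ cfg D N, p ∈ G → φ p ∈ cfg D N ∧ φ p ∈ G')
    (h2 : ∀ p ∈ cfg D N, p ∈ G → ∀ p' ∈ cfg D N, p' ∈ G → φ p = φ p' → p = p') :
    J D N G ≤ J D N G' := by
  refine div_le_div_of_nonneg_right ?_ (Nat.cast_nonneg _)
  refine Nat.cast_le.2 (card_le_card_of_injOn φ (fun p hp => ?_) fun p hp p' hp' e => ?_)
  · simp only [coe_filter, Set.mem_ofPred_eq] at hp ⊢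
    exact h1 p hp.1 hp.2
  · simp only [coe_filter, Set.mem_ofPred_eq] at hp hp'
    exact h2 p hp.1 hp.2 p' hp'.1 hp'.2 e

end Vale.Agent.P153L
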