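import Vale.Agent.P153L.Enc

/-! Joining inside a hexagon. `K = hex 0 (2 * n + 1)` in doubled coordinates.
`enc_off`: `lo z`, `hi z` are outside `hex 0 n` when `z ∉ K` is not even-even (omega).
`conn_false`: every site of `K` is false (an end is in `hex 0 n`), `hex_con`.
`conn_true`: call `z` odd if it is not even-even; odd sites of `hex 0 (2 * n)` are true. By induction on the radius every odd site of
`hex 0 (2 * n)` is joined to `(1, 0)` by odd sites: a site which is not a corner of its ring has two adjacent inner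
neighbours, one of them is odd; an odd corner moves first along its ring; the first ring is a cycle.
A true site `z = y + y'` of `OB K` has the two inner neighbours `y + v`, `y' + v` with `v ∈ hex 0 n` (true), one of them has an odd inner neighbour. -/

open Finset Filter Topology
open scoped Classical

noncomputable section

namespace Vale.Agent.P153L

open P152.GL

/-- Coordinates in the hexagon. -/
def cnxIn (m a b : ℤ) : Prop := -m ≤ a ∧ a ≤ m ∧ -m ≤ b ∧ b ≤ m ∧ -m ≤ a - b ∧ a - b ≤ m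

theorem cnx_hex {m : ℕ} {a b : ℤ} : (a, b) ∈ hex 0 m ↔ cnxIn m a b := by
  simp only [mem_hex, cnxIn, abs_le, Prod.fst_zero, Prod.snd_zero, sub_zero, and_assoc]

theorem cnx_symm {x y : Pt} (h : TAdj x y) : TAdj y x := by
  obtain ⟨a, b⟩ := x
  obtain ⟨c, d⟩ := y
  simp only [TAdj, Prod.mk.injEq] at h ⊢
  omega

theorem cnx_line {G : Pt → Prop} (f : ℤ → Pt) (hf : ∀ k, TAdj (f k) (f (k + 1))) {l u k₀ k : ℤ}
    (hG : ∀ j, l ≤ j → j ≤ u → G (f j)) (h0 : l ≤ k₀ ∧ k₀ ≤ u) (hk : l ≤ k ∧ k ≤ u) :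
    Relation.ReflTransGen (fun a c => TAdj a c ∧ G a ∧ G c) (f k₀) (f k) := by
  rcases le_total k₀ k with h | h
  · induction k, h using Int.le_induction with
    | base => exact .refl
    | succ j hj ih =>
      exact (ih ⟨by omega, by omega⟩).tail ⟨hf j, hG j (by omega) (by omega), hG _ hk.1 hk.2⟩
  · induction k, h using Int.le_induction_down with
    | base => exact .refl
    | pred j hj ih =>
      have := hf (j - 1)
      rw [sub_add_cancel] at this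
      exact (ih ⟨by omega, by omega⟩).tail
        ⟨cnx_symm this, hG j (by omega) (by omega), hG _ hk.1 hk.2⟩

theorem cnx_odd {G : Pt → Prop} {n : ℤ} (hn : 1 ≤ n)
    (hG : ∀ a b, cnxIn (2 * n) a b → ¬(a % 2 = 0 ∧ b % 2 = 0) → G (a, b)) {a b : ℤ}
    (h : cnxIn (2 * n) a b) (ho : ¬(a % 2 = 0 ∧ b % 2 = 0)) :
    Relation.ReflTransGen (fun a c => TAdj a c ∧ G a ∧ G c) (1, 0) (a, b) := by
  have row : ∀ a b, cnxIn (2 * n) a b → b % 2 = 1 →
      Relation.ReflTransGen (fun a c => TAdj a c ∧ G a ∧ G c) (1, 0) (a, b) := fun a b h hb => by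
    unfold cnxIn at h hG
    refine (cnx_line (fun k => (1, k)) (fun k => by simp [TAdj]) (l := 1 - 2 * n) (u := 2 * n)
      (k₀ := 0) (k := b) (fun j h1 h2 => hG 1 j (by omega) (by omega)) (by omega)
      (by omega)).trans (cnx_line (fun k => (k, b)) (fun k => by simp [TAdj])
      (l := max (-(2 * n)) (b - 2 * n)) (u := min (2 * n) (b + 2 * n)) (k₀ := 1) (k := a)
      (fun j h1 h2 => hG j b (by omega) (by omega)) (by omega) (by omega))
  rcases Int.emod_two_eq_zero_or_one b with hb | hb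
  · have k0 := hG a b h ho
    unfold cnxIn at h
    rcases le_or_gt 0 b with h0 | h0
    · have k : cnxIn (2 * n) (a - 1) (b - 1) := by unfold cnxIn; omega
      exact (row _ _ k (by omega)).tail ⟨by simp [TAdj], hG _ _ k (by omega), k0⟩
    · have k : cnxIn (2 * n) (a + 1) (b + 1) := by unfold cnxIn; omega
      exact (row _ _ k (by omega)).tail ⟨by simp [TAdj], hG _ _ k (by omega), k0⟩
  · exact row a b h hb

theorem cnx_exit {n a b : ℤ} (hn : 1 ≤ n) (h1 : ¬cnxIn (2 * n + 1) a b)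
    (h2 : cnxIn (2 * n + 2) a b) (ho : ¬(a % 2 = 0 ∧ b % 2 = 0)) : ∃ c d : ℤ,
    (c = 1 ∧ d = 0 ∨ c = -1 ∧ d = 0 ∨ c = 0 ∧ d = 1 ∨ c = 0 ∧ d = -1 ∨ c = 1 ∧ d = 1 ∨
      c = -1 ∧ d = -1) ∧
    cnxIn (2 * n) (a + c + c) (b + d + d) ∧ cnxIn (2 * n + 1) (a + c) (b + d) ∧
    ¬((a + c) % 2 = 0 ∧ (b + d) % 2 = 0) ∧
    (cnxIn n ((a + c) / 2) ((b + d) / 2) ∨ ((a + c) / 2 = a / 2 ∧ (b + d) / 2 = b / 2) ∨
      ((a + c) / 2 = (a + 1) / 2 ∧ (b + d) / 2 = (b + 1) / 2)) ∧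
    (cnxIn n ((a + c + 1) / 2) ((b + d + 1) / 2) ∨
      ((a + c + 1) / 2 = a / 2 ∧ (b + d + 1) / 2 = b / 2) ∨
      ((a + c + 1) / 2 = (a + 1) / 2 ∧ (b + d + 1) / 2 = (b + 1) / 2)) := by
  unfold cnxIn at *
  have hs : a = 2 * n + 2 ∨ a = -(2 * n + 2) ∨ b = 2 * n + 2 ∨ b = -(2 * n + 2) ∨
      a - b = 2 * n + 2 ∨ a - b = -(2 * n + 2) := by omega
  rcases hs with h | h | h | h | h | h
  · by_cases k : b = 1
    · refine ⟨-1, 0, ?_, ?_, ?_, ?_, ?_, ?_⟩ <;> omega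
    · refine ⟨-1, -1, ?_, ?_, ?_, ?_, ?_, ?_⟩ <;> omega
  · by_cases k : b = -1
    · refine ⟨1, 0, ?_, ?_, ?_, ?_, ?_, ?_⟩ <;> omega
    · refine ⟨1, 1, ?_, ?_, ?_, ?_, ?_, ?_⟩ <;> omega
  · by_cases k : a = 1
    · refine ⟨0, -1, ?_, ?_, ?_, ?_, ?_, ?_⟩ <;> omega
    · refine ⟨-1, -1, ?_, ?_, ?_, ?_, ?_, ?_⟩ <;> omega
  · by_cases k : a = -1
    · refine ⟨0, 1, ?_, ?_, ?_, ?_, ?_, ?_⟩ <;> omega
    · refine ⟨1, 1, ?_, ?_, ?_, ?_, ?_, ?_⟩ <;> omega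
  · by_cases k : a = 1
    · refine ⟨0, 1, ?_, ?_, ?_, ?_, ?_, ?_⟩ <;> omega
    · refine ⟨-1, 0, ?_, ?_, ?_, ?_, ?_, ?_⟩ <;> omega
  · by_cases k : a = -1
    · refine ⟨0, -1, ?_, ?_, ?_, ?_, ?_, ?_⟩ <;> omega
    · refine ⟨1, 0, ?_, ?_, ?_, ?_, ?_, ?_⟩ <;> omega

theorem cnx_enc {r : Col} {a b : ℤ} : enc r (a, b) = true ↔
    ¬(a % 2 = 0 ∧ b % 2 = 0) ∧ r (a / 2, b / 2) = true ∧ r ((a + 1) / 2, (b + 1) / 2) = true := by
  simp only [enc, lo, hi, Bool.and_eq_true, decide_eq_true_eq, and_assoc]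

theorem cnx_half {n a b : ℤ} (k : cnxIn (2 * n) a b) : cnxIn (2 * n + 1) a b ∧
    cnxIn n (a / 2) (b / 2) ∧ cnxIn n ((a + 1) / 2) ((b + 1) / 2) := by
  unfold cnxIn at *
  refine ⟨?_, ?_, ?_⟩ <;> omega

theorem cnx_nb {m a b a' b' : ℤ} (k : cnxIn (m + 1) a' b') (h : TAdj (a, b) (a', b')) :
    cnxIn (m + 2) a b := by
  simp only [TAdj, Prod.mk.injEq] at h
  unfold cnxIn at *
  omega

theorem cnx_dir {c d : ℤ} (h : c = 1 ∧ d = 0 ∨ c = -1 ∧ d = 0 ∨ c = 0 ∧ d = 1 ∨ c = 0 ∧ d = -1 ∨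
    c = 1 ∧ d = 1 ∨ c = -1 ∧ d = -1) (a b : ℤ) : TAdj (a + c, b + d) (a, b) := by
  simp only [TAdj, Prod.mk.injEq]
  omega

theorem cnx_par {a b c d : ℤ} (h : ¬(a % 2 = 0 ∧ b % 2 = 0)) :
    ¬((a + c + c) % 2 = 0 ∧ (b + d + d) % 2 = 0) := by
  omega

theorem conn_true {n : ℕ} (hn : 1 ≤ n) {r : Col} (h : ∀ x ∈ hex 0 n, r x = true) :
    enc r ∈ Conn (hex 0 (2 * n + 1)) true := by
  set K := hex 0 (2 * n + 1) with hK
  let G : Pt → Prop := fun z => z ∈ (K : Set Pt) ∪ OB K ∧ enc r z = true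
  have hr : ∀ a b, cnxIn n a b → r (a, b) = true := fun a b k => h _ (cnx_hex.2 k)
  have hm : ∀ {a b : ℤ}, (a, b) ∈ K ↔ cnxIn (2 * n + 1) a b := by
    intro a b
    rw [hK, cnx_hex]
    push_cast
    rfl
  have hn' : (1 : ℤ) ≤ n := by exact_mod_cast hn
  have hG : ∀ a b, cnxIn (2 * n) a b → ¬(a % 2 = 0 ∧ b % 2 = 0) → G (a, b) := fun a b k ho =>
    ⟨Or.inl (hm.2 (cnx_half k).1), cnx_enc.2 ⟨ho, hr _ _ (cnx_half k).2.1, hr _ _ (cnx_half k).2.2⟩⟩
  have key : ∀ z ∈ OB K, enc r z = true →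
      Relation.ReflTransGen (fun a c => TAdj a c ∧ G a ∧ G c) (1, 0) z := by
    rintro ⟨a, b⟩ hz he
    obtain ⟨k1, ⟨a', b'⟩, k2, k3⟩ := id hz
    obtain ⟨e1, e2, e3⟩ := cnx_enc.1 he
    have k4 := hm.1 k2
    obtain ⟨c, d, p1, p2, p3, p4, p5, p6⟩ := cnx_exit hn' (fun k => k1 (hm.2 k)) (cnx_nb k4 k3) e1
    have q1 : G (a + c, b + d) := by
      refine ⟨Or.inl (hm.2 p3), cnx_enc.2 ⟨p4, ?_, ?_⟩⟩
      · rcases p5 with p | p | p
        · exact hr _ _ p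
        · rw [p.1, p.2, e2]
        · rw [p.1, p.2, e3]
      · rcases p6 with p | p | p
        · exact hr _ _ p
        · rw [p.1, p.2, e2]
        · rw [p.1, p.2, e3]
    have q2 := cnx_par (c := c) (d := d) e1
    exact ((cnx_odd hn' hG p2 q2).tail ⟨cnx_dir p1 _ _, hG _ _ p2 q2, q1⟩).tail
      ⟨cnx_dir p1 _ _, q1, Or.inr hz, he⟩
  intro x hx y hy ex ey
  have sy : ∀ {z}, Relation.ReflTransGen (fun a c => TAdj a c ∧ G a ∧ G c) (1, 0) z →
      Relation.ReflTransGen (fun a c => TAdj a c ∧ G a ∧ G c) z (1, 0) := fun k => by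
    induction k with
    | refl => exact .refl
    | tail _ k ih => exact .head ⟨cnx_symm k.1, k.2.2, k.2.1⟩ ih
  have fin : ∀ {z z'}, Relation.ReflTransGen (fun a c => TAdj a c ∧ G a ∧ G c) z z' →
      Relation.ReflTransGen (fun a c => TAdj a c ∧ G c) z z' := fun k => by
    induction k with
    | refl => exact .refl
    | tail _ k ih => exact ih.tail ⟨k.1, k.2.2⟩
  exact ⟨Or.inr hx, ex, fin ((sy (key x hx ex)).trans (key y hy ey))⟩

end Vale.Agent.P153L
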