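import Vale.Agent.P152.A5L

/-! Two-spin representation of Lipschitz heights on the triangular lattice: definitions. -/

open Finset Filter Topology
open scoped Classical

noncomputable section

namespace Vale.Agent.P153L

open P152.GL

/-- The six neighbours. -/
def nb (x : Pt) : Finset Pt := {(x.1 + 1, x.2), (x.1 - 1, x.2), (x.1, x.2 + 1), (x.1, x.2 - 1),
  (x.1 + 1, x.2 + 1), (x.1 - 1, x.2 - 1)}

/-- A finite set with its neighbours. -/
def cl (D : Finset Pt) : Finset Pt := D ∪ D.biUnion nb

/-- Every site outside `N` escapes to infinity outside `N`. -/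
def Ray (N : Finset Pt) : Prop := ∀ x ∉ N, ∀ m : ℕ, ∃ y ∉ sqr m,
  Relation.ReflTransGen (fun a c => TAdj a c ∧ c ∉ N) x y

/-- The constant colouring. -/
def tt : Col := fun _ => true

/-- The flipped colouring. -/
def fl (r : Col) : Col := fun x => !r x

/-- Colourings equal to `ξ` outside `A`. -/
def ext (A : Finset Pt) (ξ : Col) : Finset Col :=
  A.powerset.image fun S x => if x ∈ A then decide (x ∈ S) else ξ x

/-- The two spins do not both change along an edge of `T`. -/
def Ok (T : Set Pt) (r b : Col) : Prop := ∀ x ∈ T, ∀ y ∈ T, TAdj x y → r x = r y ∨ b x = b y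

/-- Second spins supported in `A` and compatible with `r` on the edges of `T`. -/
def cmp (A : Finset Pt) (T : Set Pt) (r : Col) : Finset Col := (ext A tt).filter (Ok T r)

/-- The weight of the first spin. -/
def w (N : Finset Pt) (r : Col) : ℝ := (cmp N Set.univ r).card

/-- Expectation for the first spin, free in `D` and equal to `ξ` outside. -/
def ex (D N : Finset Pt) (ξ : Col) (f : Col → ℝ) : ℝ :=
  (∑ r ∈ ext D ξ, w N r * f r) / ∑ r ∈ ext D ξ, w N r

/-- Probability for the first spin. -/
def nu (D N : Finset Pt) (ξ : Col) (E : Set Col) : ℝ := ex D N ξ (E.indicator 1)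

/-- Compatible pairs. -/
def cfg (D N : Finset Pt) : Finset (Col × Col) :=
  (ext D tt ×ˢ ext N tt).filter fun p => Ok Set.univ p.1 p.2

/-- The uniform probability on compatible pairs. -/
def J (D N : Finset Pt) (G : Set (Col × Col)) : ℝ :=
  (((cfg D N).filter (· ∈ G)).card : ℝ) / (cfg D N).card

/-- Conditional probability given the first spin. -/
def q (A : Finset Pt) (T : Set Pt) (r : Col) (G : Set (Col × Col)) : ℝ :=
  (((cmp A T r).filter fun b => (r, b) ∈ G).card : ℝ) / (cmp A T r).card

/-- The function depends only on the sites of `F`. -/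
def DepF (F : Set Pt) (f : Col → ℝ) : Prop := ∀ X Y : Col, (∀ x ∈ F, X x = Y x) → f X = f Y

/-- The joint event depends only on the sites of `F`. -/
def Dep2 (F : Set Pt) (G : Set (Col × Col)) : Prop :=
  ∀ p p' : Col × Col, (∀ x ∈ F, p.1 x = p'.1 x ∧ p.2 x = p'.2 x) → p ∈ G → p' ∈ G

/-- A path along which the spin changes at each step joins `S` to the outside of `R`. -/
def TArm (S R : Finset Pt) : Set Col :=
  {r | ∃ x ∈ S, ∃ y ∉ R, Relation.ReflTransGen (fun a c => TAdj a c ∧ r a ≠ r c) x y}

/-- Sites joined to the outside of `D` by a path on which both spins are constant. -/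
def Wd (D : Finset Pt) (p : Col × Col) : Set Pt :=
  {x | ∃ y ∉ D, Relation.ReflTransGen (fun a c => TAdj a c ∧ p.1 a = p.1 c ∧ p.2 a = p.2 c) y x}

/-- `s` is the parity field of the reflection inside `U`. -/
def Par (U : Finset Pt) (p : Col × Col) (s : Col) : Prop :=
  (∀ x ∉ U, s x = xor (p.1 x) (p.2 x)) ∧ ∀ x y, TAdj x y → x ∈ U → s x = s y

/-- The reflected pair. -/
def rf (s : Col) (p : Col × Col) : Col × Col :=
  (fun x => xor (s x) (p.2 x), fun x => xor (s x) (p.1 x))

/-- Lower end of the edge with middle `z` (doubled coordinates). -/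
def lo (z : Pt) : Pt := (z.1 / 2, z.2 / 2)

/-- Upper end of the edge with middle `z`. -/
def hi (z : Pt) : Pt := ((z.1 + 1) / 2, (z.2 + 1) / 2)

/-- The field on the doubled lattice: middles of edges with two true ends. -/
def enc (r : Col) : Col := fun z => decide (¬(z.1 % 2 = 0 ∧ z.2 % 2 = 0)) && r (lo z) && r (hi z)

/-- The limit law of the first spin. -/
def lP (E : Set Col) : ℝ := limUnder atTop fun D : Finset Pt => nu D (cl D) tt E

/-- The limit law of the pair. -/
def lJ (G : Set (Col × Col)) : ℝ := limUnder atTop fun D : Finset Pt => J D (cl D) G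

/-- The limit expectation of a function depending on `F`. -/
def lex (F : Finset Pt) (f : Col → ℝ) : ℝ := ∑ σ ∈ ext F tt, f σ * lP {r | ∀ x ∈ F, r x = σ x}

/-- Along the family the first spin converges to the limit law and the regions grow. -/
def Fam {ι : Type} (𝓕 : Filter ι) (D N : ι → Finset Pt) : Prop :=
  (∀ E, Loc E → Tendsto (fun i => nu (D i) (N i) tt E) 𝓕 (𝓝 (lP E))) ∧ Tendsto N 𝓕 atTop

/-- Long alternating paths are unlikely. -/
def NoT : Prop := ∀ (n : ℕ), ∀ ε > 0, ∃ m : ℕ, n ≤ m ∧ lP (TArm (sqr n) (sqr m)) ≤ ε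

end Vale.Agent.P153L
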