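import Vale.Agent.P153L.Bas

/-! Symmetries and consistency of the finite volume laws.
`dlr`: fibre `ext D ξ` by the restriction outside `D₀` (the map `r ↦ D₀.piecewise tt r`); on a fibre `ext D₀ ζ` is the fibre.
`w_indep`: for `r` constant outside `D` and `cl D ⊆ N`, `b ↦ (b on cl D, b off cl D)` is a bijection
`cmp N univ r ≃ cmp (cl D) univ r × ext (N \\ cl D) tt`; the same bijection gives `J_indep` through `J_q`.
`J_flip`: flip `b` on `N`. `J_add_z`: the bijection `tr z`. -/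

open Finset Filter Topology
open scoped Classical

noncomputable section

namespace Vale.Agent.P153L

open P152.GL

theorem dlr {D₀ D N : Finset Pt} (h : D₀ ⊆ D) (ξ : Col) (f : Col → ℝ) {g : Col → ℝ}
    (hg : DepF (D₀ : Set Pt)ᶜ g) :
    ex D N ξ (fun r => f r * g r) = ex D N ξ fun ζ => ex D₀ N ζ f * g ζ := by
  have e1 : ∀ r ζ : Col, ζ ∈ ext D₀ r → ext D₀ ζ = ext D₀ r := fun r ζ hz => by
    ext s
    rw [mem_ext, mem_ext]
    exact forall₂_congr fun x hx => by rw [mem_ext.1 hz x hx]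
  have key : ∑ ζ ∈ ext D ξ, w N ζ * (ex D₀ N ζ f * g ζ) = ∑ r ∈ ext D ξ, w N r * (f r * g r) := by
    have e2 : ∀ ζ : Col, w N ζ * (ex D₀ N ζ f * g ζ) = ∑ r ∈ ext D₀ ζ,
        w N ζ * (w N r * f r * g ζ / ∑ s ∈ ext D₀ ζ, w N s) := fun ζ => by
      rw [← mul_sum, ← sum_div, ← sum_mul, ex, div_mul_eq_mul_div]
    simp only [e2]
    rw [sum_comm' (s' := fun r => ext D₀ r) (t' := ext D ξ)]
    · refine sum_congr rfl fun r _ => ?_
      rw [sum_congr rfl fun ζ hz => by
        rw [e1 r ζ hz, hg ζ r fun x hx => mem_ext.1 hz x hx], ← sum_mul,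
        mul_div_cancel₀ _ den_pos.ne', mul_assoc]
    · intro ζ r
      simp only [mem_ext]
      constructor
      · rintro ⟨h1, h2⟩
        exact ⟨fun x hx => (h2 x hx).symm, fun x hx => (h2 x fun a => hx (h a)).trans (h1 x hx)⟩
      · rintro ⟨h1, h2⟩
        exact ⟨fun x hx => (h1 x fun a => hx (h a)).trans (h2 x hx), fun x hx => (h1 x hx).symm⟩
  exact congrArg (· / ∑ r ∈ ext D ξ, w N r) key.symm

theorem w_fl (N : Finset Pt) (r : Col) : w N (fl r) = w N r := by
  unfold w cmp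
  congr 2
  refine filter_congr fun b _ => ?_
  simp only [Ok, fl, Bool.not_inj_iff]

theorem dlr_fl (r : Col) : fl (fl r) = r := by
  funext x
  simp [fl]

theorem dlr_sum (D : Finset Pt) (ξ : Col) (F : Col → ℝ) :
    ∑ r ∈ ext D (fl ξ), F r = ∑ r ∈ ext D ξ, F (fl r) := by
  refine sum_nbij' fl fl (fun r hr => ?_) (fun r hr => ?_) (fun r _ => dlr_fl r)
    (fun r _ => dlr_fl r) fun r _ => by rw [dlr_fl]
  · refine mem_ext.2 fun x hx => ?_
    simp [fl, mem_ext.1 hr x hx]
  · refine mem_ext.2 fun x hx => ?_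
    simp [fl, mem_ext.1 hr x hx]

theorem ex_fl (D N : Finset Pt) (ξ : Col) (f : Col → ℝ) :
    ex D N (fl ξ) f = ex D N ξ fun r => f (fl r) := by
  unfold ex
  rw [dlr_sum, dlr_sum]
  simp only [w_fl]

end Vale.Agent.P153L
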