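import Vale.Agent.P153.Stmt

/-! From limits of cylinder probabilities to a measure. The laws `P n` of `k - k 0` under the uniform
measure on the finite nonempty set `Adm 0 n` (finite is given) live on the compact space
`Π x, Set.Icc (-(|x.1| + |x.2|)) (|x.1| + |x.2|)` (or `Finset.Icc` subtypes); `ProbabilityMeasure` of a
compact metrizable space is compact (see the construction of the measure in P152/A9 or A6Br
`Fld0.meas`), take a cluster point; cylinder sets are clopen so their probabilities converge along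
the ultrafilter (`ProbabilityMeasure.tendsto_measure_of_isClopen_of_tendsto`); push forward. -/

open MeasureTheory Filter Topology

noncomputable section

namespace Vale.Agent.P153L

open P153

lemma e1_line (g : ℤ → ℤ) (hg : ∀ i, |g (i + 1) - g i| ≤ 1) (m : ℤ) : |g m - g 0| ≤ |m| := by
  induction m using Int.induction_on with
  | zero => simp
  | succ i ih =>
    have h1 := hg i
    rw [abs_of_nonneg (show (0 : ℤ) ≤ i by positivity)] at ih
    rw [abs_of_nonneg (show (0 : ℤ) ≤ i + 1 by positivity)]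
    rw [abs_le] at h1 ih ⊢
    omega
  | pred i ih =>
    have h1 := hg (-(i : ℤ) - 1)
    rw [sub_add_cancel] at h1
    rw [abs_of_nonpos (show -(i : ℤ) ≤ 0 by omega)] at ih
    rw [abs_of_nonpos (show -(i : ℤ) - 1 ≤ 0 by omega)]
    rw [abs_le] at h1 ih ⊢
    omega

lemma e1_bd {k : Cfg} (hk : Lip k) (x : ℤ × ℤ) : |k x - k 0| ≤ |x.1| + |x.2| := by
  obtain ⟨a, b⟩ := x
  have h1 := e1_line (fun i => k (i, 0)) (fun i => by simpa using (hk (i, 0)).1) a
  have h2 := e1_line (fun i => k (a, i)) (fun i => by simpa using (hk (a, i)).2.1) b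
  have h3 := abs_sub_le (k (a, b)) (k (a, 0)) (k (0, 0))
  change |k (a, b) - k (0, 0)| ≤ |a| + |b|
  linarith

lemma e1_clopen (S : Finset (ℤ × ℤ)) (η : Cfg) : IsClopen {k : Cfg | ∀ x ∈ S, k x = η x} := by
  have e : {k : Cfg | ∀ x ∈ S, k x = η x} = ⋂ x ∈ S, (fun k : Cfg => k x) ⁻¹' {η x} := by
    ext k; simp
  rw [e]
  exact isClopen_biInter_finset fun x _ => (isClopen_discrete _).preimage (continuous_apply x)

theorem meas_ex (hf : ∀ n, (Adm 0 n).Finite) (a : Finset (ℤ × ℤ) → Cfg → ℝ)
    (h : ∀ c S η, Tendsto (fun n => hexP c n S η) atTop (𝓝 (a S η))) :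
    ∃ P : Measure Cfg, IsProbabilityMeasure P ∧ IsLimit P := by
  let g : Cfg → Cfg := fun k x => k x - k 0
  have hg : Measurable g := measurable_pi_lambda _ fun x =>
    (measurable_pi_apply x).sub (measurable_pi_apply 0)
  have hne : ∀ n, (Adm 0 n).Nonempty := fun n => ⟨0, fun x => by simp, fun _ _ => rfl⟩
  let ν : ℕ → ProbabilityMeasure Cfg := fun n =>
    ⟨(ProbabilityTheory.uniformOn (Adm 0 n)).map g,
      have := ProbabilityTheory.isProbabilityMeasure_uniformOn (hf n) (hne n)
      Measure.isProbabilityMeasure_map hg.aemeasurable⟩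
  let K : Set Cfg := Set.pi Set.univ fun x : ℤ × ℤ => Set.Icc (-(|x.1| + |x.2|)) (|x.1| + |x.2|)
  have hK : IsCompact K := isCompact_univ_pi fun x => (Set.finite_Icc _ _).isCompact
  have ht : IsTightMeasureSet {((m : ProbabilityMeasure Cfg) : Measure Cfg) | m ∈ Set.range ν} := by
    refine isTightMeasureSet_iff_exists_isCompact_measure_compl_le.2 fun ε _ => ⟨K, hK, ?_⟩
    rintro _ ⟨_, ⟨j, rfl⟩, rfl⟩
    refine le_trans (le_of_eq ?_) zero_le
    change ((ProbabilityTheory.uniformOn (Adm 0 j)).map g) Kᶜ = 0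
    rw [Measure.map_apply hg hK.isClosed.measurableSet.compl,
      ProbabilityTheory.uniformOn_eq_zero_iff (hf j), Set.eq_empty_iff_forall_notMem]
    exact fun k hk => hk.2 fun x _ => abs_le.1 (e1_bd hk.1.1 x)
  obtain ⟨P, -, φ, hφ, hl⟩ := (isCompact_closure_of_isTightMeasureSet ht).tendsto_subseq (x := ν)
    fun j => subset_closure ⟨j, rfl⟩
  refine ⟨P, inferInstance, fun c S η => ?_⟩
  have h1 := (NNReal.continuous_coe.tendsto _).comp
    (ProbabilityMeasure.tendsto_measure_of_isClopen_of_tendsto hl (e1_clopen S η))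
  have h2 : ∀ n, ((ν n {k | ∀ x ∈ S, k x = η x} : NNReal) : ℝ) = hexP 0 n S η := fun n => by
    change (((ProbabilityTheory.uniformOn (Adm 0 n)).map g) {k | ∀ x ∈ S, k x = η x}).toReal = _
    rw [Measure.map_apply hg (e1_clopen S η).isOpen.measurableSet, ProbabilityTheory.uniformOn,
      ProbabilityTheory.cond_apply (hf n).measurableSet, Measure.count_apply_finite _ (hf n),
      Measure.count_apply_finite _ ((hf n).inter_of_left _), ← Set.ncard_eq_toFinset_card _ (hf n),
      ← Set.ncard_eq_toFinset_card _ ((hf n).inter_of_left _), ENNReal.toReal_mul,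
      ENNReal.toReal_inv, ENNReal.toReal_natCast, ENNReal.toReal_natCast, mul_comm]
    rfl
  have h3 : a S η = (P : Measure Cfg).real {k | ∀ x ∈ S, k x = η x} :=
    tendsto_nhds_unique ((h 0 S η).comp hφ.tendsto_atTop) (h1.congr fun n => h2 (φ n))
  exact h3 ▸ h c S η

end Vale.Agent.P153L
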