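import Vale.Agent.P153L.Geo

/-! Paths in doubled coordinates. For adjacent `a, c` the middle is `a + c`, with `{lo, hi} (a + c) = {a, c}`, it is not
even-even and it is adjacent to `a + a`; middles of two edges of a triangle are adjacent. Use `arm_of_cn`.
`arm_false`: the sites `a + a` and the middles of alternating edges are false.
`arm_true`: along a path where `b` alternates `r` is constant; at an inner site `v` with path neighbours `u, u'`
(`b u = b u' ≠ b v`) turn around `v` along the shorter arc: each neighbour `t` of `v` on it is `u`, `u'` or adjacent to one of them,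
so `r t = r v` (else `b t = b v` and `b t = b u`). Prove a lemma for `v = (i, j)` by 36 cases.
Stop at the first exit from `sqr m`: then the last middle is outside `sqr (2 * m)`. -/

open Finset Filter Topology
open scoped Classical

noncomputable section

namespace Vale.Agent.P153L

open P152.GL

theorem enc_key {a c : Pt} (h : TAdj a c) :
    (¬((a + c).1 % 2 = 0 ∧ (a + c).2 % 2 = 0)) ∧
      ((lo (a + c) = a ∧ hi (a + c) = c) ∨ (lo (a + c) = c ∧ hi (a + c) = a)) := by
  obtain ⟨a1, a2⟩ := a
  obtain ⟨c1, c2⟩ := c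
  simp only [TAdj, Prod.mk.injEq, lo, hi, Prod.mk_add_mk] at h ⊢
  omega

theorem enc_mid {r : Col} {a c : Pt} (h : TAdj a c) : enc r (a + c) = (r a && r c) := by
  obtain ⟨h1, h2⟩ := enc_key h
  unfold enc
  rw [decide_eq_true h1, Bool.true_and]
  rcases h2 with ⟨e1, e2⟩ | ⟨e1, e2⟩
  · rw [e1, e2]
  · rw [e1, e2, Bool.and_comm]

theorem enc_two (r : Col) (a : Pt) : enc r (a + a) = false := by
  have h : ¬¬((a + a).1 % 2 = 0 ∧ (a + a).2 % 2 = 0) := by
    obtain ⟨a1, a2⟩ := a
    simp only [Prod.mk_add_mk]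
    omega
  unfold enc
  rw [decide_eq_false h, Bool.false_and, Bool.false_and]

theorem enc_adj1 {a c : Pt} (h : TAdj a c) : TAdj (a + a) (a + c) := by
  obtain ⟨a1, a2⟩ := a
  obtain ⟨c1, c2⟩ := c
  simp only [TAdj, Prod.mk.injEq, Prod.mk_add_mk] at h ⊢
  omega

theorem enc_adj2 {a c : Pt} (h : TAdj a c) : TAdj (a + c) (c + c) := by
  obtain ⟨a1, a2⟩ := a
  obtain ⟨c1, c2⟩ := c
  simp only [TAdj, Prod.mk.injEq, Prod.mk_add_mk] at h ⊢
  omega

theorem enc_sqr {n : ℕ} {a : Pt} : a + a ∈ sqr (2 * n) ↔ a ∈ sqr n := by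
  obtain ⟨a1, a2⟩ := a
  simp only [mem_sqr, abs_le, Prod.mk_add_mk]
  push_cast
  omega

theorem arm_false {r : Col} {n m : ℕ} (h : n ≤ m) (hr : r ∈ TArm (sqr n) (sqr m)) :
    enc r ∈ Arm false (2 * n) (2 * m) := by
  obtain ⟨x, hx, y, hy, hp⟩ := hr
  have key : Cn Set.univ false (enc r) (x + x) (y + y) := by
    refine ⟨Set.mem_univ _, enc_two r x, ?_⟩
    clear hy
    induction hp with
    | refl => exact .refl
    | @tail a c _ hb ih =>
      have e : enc r (a + c) = false := by
        rw [enc_mid hb.1]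
        have h2 := hb.2
        revert h2
        cases r a <;> cases r c <;> simp
      exact (ih.tail ⟨enc_adj1 hb.1, Set.mem_univ _, e⟩).tail
        ⟨enc_adj2 hb.1, Set.mem_univ _, enc_two r c⟩
  exact arm_of_cn (by omega) (enc_sqr.2 hx) (fun e => hy (enc_sqr.1 e)) key

end Vale.Agent.P153L
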