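import Vale.Agent.P153L.Enc

/-! Paths in doubled coordinates. For adjacent `a, c` the middle is `a + c`, with `{lo, hi} (a + c) = {a, c}`, it is not
even-even and it is adjacent to `a + a`; middles of two edges of a triangle are adjacent. Use `arm_of_cn`.
`arm_false`: the sites `a + a` and the middles of alternating edges are false.
`arm_true`: along a path where `b` alternates `r` is constant; at an inner site `v` with path neighbours `u, u'`
(`b u = b u' ≠ b v`) turn around `v` along the shorter arc: each neighbour `t` of `v` on it is `u`, `u'` or adjacent to one of them,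
so `r t = r v` (else `b t = b v` and `b t = b u`). Prove a lemma for `v = (i, j)` by 36 cases.
Stop at the first exit from `sqr m`: then the last middle is outside `sqr (2 * m)`. -/

open Finset Filter Topology
open scoped Classical

noncomputable section

namespace Vale.Agent.P153L

open P152.GL

theorem enct_add {v a c : Pt} (h : TAdj a c) : TAdj (v + a) (v + c) := by
  obtain ⟨a1, a2⟩ := a
  obtain ⟨c1, c2⟩ := c
  obtain ⟨v1, v2⟩ := v
  simp only [TAdj, Prod.mk.injEq, Prod.mk_add_mk] at h ⊢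
  omega

theorem enct_geo0 {u u' : Pt} (h : TAdj 0 u) (h' : TAdj 0 u') :
    u = u' ∨ TAdj u u' ∨ (TAdj 0 (u + u') ∧ TAdj u (u + u') ∧ TAdj (u + u') u') ∨
      (TAdj 0 (u.1 - u.2, u.1) ∧ TAdj 0 (-u.2, u.1 - u.2) ∧ TAdj u (u.1 - u.2, u.1) ∧
        TAdj (u.1 - u.2, u.1) (-u.2, u.1 - u.2) ∧ TAdj (-u.2, u.1 - u.2) u') := by
  rcases h with rfl | rfl | rfl | rfl | rfl | rfl <;>
    rcases h' with rfl | rfl | rfl | rfl | rfl | rfl <;> simp [TAdj]

theorem enct_geo {v u u' : Pt} (h : TAdj v u) (h' : TAdj v u') :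
    u = u' ∨ TAdj u u' ∨ (∃ t, TAdj v t ∧ TAdj u t ∧ TAdj t u') ∨
      ∃ t t', TAdj v t ∧ TAdj v t' ∧ TAdj u t ∧ TAdj t t' ∧ TAdj t' u' := by
  obtain ⟨d, rfl⟩ : ∃ d, u = v + d := ⟨-v + u, by abel⟩
  obtain ⟨d', rfl⟩ : ∃ d', u' = v + d' := ⟨-v + u', by abel⟩
  have g : ∀ {e : Pt}, TAdj v (v + e) → TAdj 0 e := fun {e} he => by
    simpa using enct_add (v := -v) he
  have g' : ∀ {e : Pt}, TAdj 0 e → TAdj v (v + e) := fun {e} he => by
    simpa using enct_add (v := v) he
  rcases enct_geo0 (g h) (g h') with e | e | ⟨h1, h2, h3⟩ | ⟨h1, h2, h3, h4, h5⟩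
  · exact .inl (by rw [e])
  · exact .inr (.inl (enct_add e))
  · exact .inr (.inr (.inl ⟨_, g' h1, enct_add h2, enct_add h3⟩))
  · exact .inr (.inr (.inr ⟨_, _, g' h1, g' h2, enct_add h3, enct_add h4, enct_add h5⟩))

theorem enct_near {r b : Col} (hO : Ok Set.univ r b) {v u t : Pt} (hv : r v = true)
    (h : TAdj v u) (hb : b v ≠ b u) (ht : TAdj v t) (htu : TAdj t u) : r t = true := by
  have hu : r v = r u := (hO v trivial u trivial h).resolve_right hb
  rcases hO v trivial t trivial ht with e | e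
  · rw [← e, hv]
  · rcases hO t trivial u trivial htu with e' | e'
    · rw [e', ← hu, hv]
    · exact absurd (e.trans e') hb

theorem enct_turn {r b : Col} (hO : Ok Set.univ r b) {v u u' : Pt} (hv : r v = true)
    (h : TAdj v u) (h' : TAdj v u') (hb : b v ≠ b u) (hb' : b v ≠ b u') :
    Relation.ReflTransGen (fun a c => TAdj a c ∧ c ∈ (Set.univ : Set Pt) ∧ enc r c = true)
      (v + u) (v + u') := by
  have hu' : r u' = true := ((hO v trivial u' trivial h').resolve_right hb').symm.trans hv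
  have st : ∀ {a c : Pt}, TAdj a c → TAdj v c → r c = true →
      TAdj (v + a) (v + c) ∧ v + c ∈ (Set.univ : Set Pt) ∧ enc r (v + c) = true := by
    intro a c hac hc hr
    refine ⟨enct_add hac, trivial, ?_⟩
    rw [enc_mid hc, hv, hr]
    rfl
  rcases enct_geo h h' with rfl | e | ⟨t, h1, h2, h3⟩ | ⟨t, t', h1, h2, h3, h4, h5⟩
  · exact .refl
  · exact .single (st e h' hu')
  · refine .tail (b := v + t) (.single ?_) (st h3 h' hu')
    exact st h2 h1 (enct_near hO hv h hb h1 h2.symm)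
  · refine .tail (b := v + t') (.tail (b := v + t) (.single ?_) ?_) (st h5 h' hu')
    · exact st h3 h1 (enct_near hO hv h hb h1 h3.symm)
    · exact st h4 h2 (enct_near hO hv h' hb' h2 h5)

theorem enct_in {n : ℕ} {a c : Pt} (ha : a ∈ sqr n) (h : TAdj a c) : a + c ∈ sqr (2 * n + 1) := by
  obtain ⟨a1, a2⟩ := a
  obtain ⟨c1, c2⟩ := c
  simp only [mem_sqr, abs_le, TAdj, Prod.mk.injEq, Prod.mk_add_mk] at ha h ⊢
  push_cast
  omega

theorem enct_out {m : ℕ} {a c : Pt} (ha : c ∉ sqr m) (h : TAdj c a) : c + a ∉ sqr (2 * m) := by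
  obtain ⟨a1, a2⟩ := a
  obtain ⟨c1, c2⟩ := c
  simp only [mem_sqr, abs_le, TAdj, Prod.mk.injEq, Prod.mk_add_mk] at ha h ⊢
  push_cast
  omega

theorem enct_main {r b : Col} (hO : Ok Set.univ r b) {n m : ℕ} (h : n < m) {x y : Pt}
    (hx : x ∈ sqr n) (hy : y ∉ sqr m) (hr : r x = true)
    (hp : Relation.ReflTransGen (fun a c => TAdj a c ∧ b a ≠ b c) x y) :
    enc r ∈ Arm true (2 * n + 1) (2 * m) := by
  have key : r y = true ∧ (y = x ∨ ∃ a, TAdj y a ∧ b y ≠ b a ∧
      ∃ z ∈ sqr (2 * n + 1), Cn Set.univ true (enc r) z (y + a)) := by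
    clear hy
    induction hp with
    | refl => exact ⟨hr, .inl rfl⟩
    | @tail a c _ hb ih =>
      have hc : r c = true := ((hO a trivial c trivial hb.1).resolve_right hb.2).symm.trans ih.1
      refine ⟨hc, .inr ⟨a, hb.1.symm, hb.2.symm, ?_⟩⟩
      rw [add_comm c a]
      rcases ih.2 with rfl | ⟨u, h1, h2, z, hz, h3⟩
      · refine ⟨a + c, enct_in hx hb.1, trivial, ?_, .refl⟩
        rw [enc_mid hb.1, hr, hc]
        rfl
      · exact ⟨z, hz, h3.1, h3.2.1, h3.2.2.trans (enct_turn hO ih.1 h1 hb.1 h2 hb.2)⟩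
  rcases key.2 with rfl | ⟨a, h1, -, z, hz, h3⟩
  · exact absurd (a5l_sub h.le hx) hy
  · exact arm_of_cn (by omega) hz (enct_out hy h1) h3

theorem arm_true {r b : Col} (hO : Ok Set.univ r b) {n m : ℕ} (h : n < m)
    (hb : b ∈ TArm (sqr n) (sqr m)) :
    enc r ∈ Arm true (2 * n + 1) (2 * m) ∨ enc (fl r) ∈ Arm true (2 * n + 1) (2 * m) := by
  obtain ⟨x, hx, y, hy, hp⟩ := hb
  by_cases hr : r x = true
  · exact .inl (enct_main hO h hx hy hr hp)
  · refine .inr (enct_main (r := fl r) ?_ h hx hy ?_ hp)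
    · intro a ha c hc hac
      refine (hO a ha c hc hac).imp_left fun e => ?_
      simp only [fl, e]
    · simpa [fl] using hr

end Vale.Agent.P153L
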