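import Vale.Agent.P153L.BasJ

/-! Factorisation of conditional probabilities over a set `C` closed under alternating edges.
`fac`: `b ↦ (C.piecewise b tt, C.piecewise tt b)` is a bijection from `cmp A T r` to
`cmp C C r × {b ∈ cmp A T r | b = true on C}` (edges between `C` and its complement have equal `r`); count the four sets.
`q_loc`: `C` = the sites of `R` joined to `S` by alternating paths, closed since `r ∉ TArm S R`; `fac` with `G' = univ`
for `(A, T)` and for `(R, R)`. `q_prod`: same `C`, it avoids `S'`. -/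

open Finset Filter Topology
open scoped Classical

noncomputable section

namespace Vale.Agent.P153L

open P152.GL

theorem Fac_card {A C : Finset Pt} {T : Set Pt} {r : Col} (hA : C ⊆ A) (hT : (C : Set Pt) ⊆ T)
    (hC : ∀ x ∈ C, ∀ y, TAdj x y → r x ≠ r y → y ∈ C) {G G' H : Set (Col × Col)}
    (hG : Dep2 C G) (hG' : Dep2 (C : Set Pt)ᶜ G') (hH : H = G ∩ G') :
    ((cmp A T r).filter fun b => (r, b) ∈ H).card =
      ((cmp C C r).filter fun b => (r, b) ∈ G).card *
        ((cmp A T r).filter fun b => (∀ x ∈ C, b x = true) ∧ (r, b) ∈ G').card := by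
  have mix : ∀ x y, TAdj x y → x ∈ C → y ∉ C → r x = r y := fun x y h hx hy => by
    by_contra e
    exact hy (hC x hx y h e)
  have ok : ∀ u v : Col, Ok C r u → Ok T r v → Ok T r (fun x => if x ∈ C then u x else v x) := by
    intro u v hu hv x hx y hy h
    by_cases cx : x ∈ C <;> by_cases cy : y ∈ C
    · simpa [cx, cy] using hu x cx y cy h
    · exact .inl (mix x y h cx cy)
    · exact .inl (mix y x h.symm cy cx).symm
    · simpa [cx, cy] using hv x hx y hy h
  rw [← card_product]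
  refine card_nbij' (fun b => (fun x => if x ∈ C then b x else true,
    fun x => if x ∈ C then true else b x)) (fun p x => if x ∈ C then p.1 x else p.2 x) ?_ ?_ ?_ ?_
  · intro b hb
    obtain ⟨hb, g⟩ := mem_filter.1 (mem_coe.1 hb)
    obtain ⟨g, g'⟩ : (r, b) ∈ G ∩ G' := hH ▸ g
    obtain ⟨b0, b1⟩ := mem_cmp.1 hb
    refine mem_coe.2 (mem_product.2 ⟨mem_filter.2 ⟨mem_cmp.2 ⟨fun x hx => by simp [hx],
      fun x hx y hy h => ?_⟩, hG _ _ (fun x hx => ?_) g⟩, mem_filter.2 ⟨mem_cmp.2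
        ⟨fun x hx => ?_, ok (fun _ => true) b (fun _ _ _ _ _ => .inr rfl) b1⟩,
        fun x hx => by simp [hx], hG' _ _ (fun x hx => ?_) g'⟩⟩)
    · simpa [mem_coe.1 hx, mem_coe.1 hy] using b1 x (hT hx) y (hT hy) h
    · simp [mem_coe.1 hx]
    · simp [b0 x hx]
    · have : x ∉ C := hx
      simp [this]
  · rintro ⟨u, v⟩ hp
    obtain ⟨hu, hv⟩ := mem_product.1 (mem_coe.1 hp)
    obtain ⟨hu, g⟩ := mem_filter.1 hu
    obtain ⟨hv, -, g'⟩ := mem_filter.1 hv
    obtain ⟨-, u1⟩ := mem_cmp.1 hu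
    obtain ⟨v0, v1⟩ := mem_cmp.1 hv
    refine mem_coe.2 (mem_filter.2 ⟨mem_cmp.2 ⟨fun x hx => ?_, ok u v u1 v1⟩,
      hH.ge ⟨hG _ _ (fun x hx => ?_) g, hG' _ _ (fun x hx => ?_) g'⟩⟩)
    · have : x ∉ C := fun e => hx (hA e)
      simpa [this] using v0 x hx
    · simp [mem_coe.1 hx]
    · have : x ∉ C := hx
      simp [this]
  · intro b _
    funext x
    by_cases h : x ∈ C <;> simp [h]
  · rintro ⟨u, v⟩ hp
    obtain ⟨hu, hv⟩ := mem_product.1 (mem_coe.1 hp)
    obtain ⟨u0, -⟩ := mem_cmp.1 (mem_filter.1 hu).1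
    have v0 := (mem_filter.1 hv).2.1
    refine Prod.ext (funext fun x => ?_) (funext fun x => ?_)
    · by_cases h : x ∈ C
      · simp [h]
      · simpa [h] using u0 x h
    · by_cases h : x ∈ C
      · simpa [h] using v0 x h
      · simp [h]

theorem Fac_univ (F : Set Pt) : Dep2 F Set.univ := fun _ _ _ _ => trivial

theorem Fac_mono {F F' : Set Pt} (h : F ⊆ F') {G : Set (Col × Col)} (hG : Dep2 F G) : Dep2 F' G :=
  fun p p' e => hG p p' fun x hx => e x (h hx)

theorem fac {A C : Finset Pt} {T : Set Pt} {r : Col} (hA : C ⊆ A) (hT : (C : Set Pt) ⊆ T)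
    (hC : ∀ x ∈ C, ∀ y, TAdj x y → r x ≠ r y → y ∈ C) {G G' : Set (Col × Col)}
    (hG : Dep2 C G) (hG' : Dep2 (C : Set Pt)ᶜ G') :
    q A T r (G ∩ G') = q C C r G * q A T r G' := by
  have e1 := Fac_card hA hT hC hG hG' rfl
  have e2 := Fac_card hA hT hC (Fac_univ _) hG' (Set.univ_inter _).symm
  simp only [Set.mem_univ, filter_true] at e2
  have p1 : (0 : ℝ) < (cmp C C r).card := Nat.cast_pos.2 cmp_pos
  have p2 : (0 : ℝ) < (cmp A T r).card := Nat.cast_pos.2 cmp_pos
  unfold q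
  rw [e1, e2]
  push_cast
  field_simp

theorem Fac_one {A : Finset Pt} {T : Set Pt} {r : Col} : q A T r Set.univ = 1 := by
  have p : (0 : ℝ) < (cmp A T r).card := Nat.cast_pos.2 cmp_pos
  simp only [q, Set.mem_univ, filter_true]
  exact div_self p.ne'

theorem Fac_ex {S R : Finset Pt} (hS : S ⊆ R) {r : Col} (hr : r ∉ TArm S R) :
    ∃ C : Finset Pt, S ⊆ C ∧ C ⊆ R ∧ ∀ x ∈ C, ∀ y, TAdj x y → r x ≠ r y → y ∈ C := by
  refine ⟨R.filter fun y => ∃ x ∈ S,
    Relation.ReflTransGen (fun a c => TAdj a c ∧ r a ≠ r c) x y,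
    fun x hx => mem_filter.2 ⟨hS hx, x, hx, .refl⟩, filter_subset _ _, fun x hx y h e => ?_⟩
  obtain ⟨-, z, hz, p⟩ := mem_filter.1 hx
  refine mem_filter.2 ⟨?_, z, hz, p.tail ⟨h, e⟩⟩
  by_contra hy
  exact hr ⟨z, hz, y, hy, p.tail ⟨h, e⟩⟩

theorem q_prod {N S R S' : Finset Pt} (hS : S ⊆ R) (hR : R ⊆ N) {r : Col} (hr : r ∉ TArm S R)
    (hd : Disjoint R S') {G G' : Set (Col × Col)} (hG : Dep2 S G) (hG' : Dep2 S' G') :
    q N Set.univ r (G ∩ G') = q R R r G * q N Set.univ r G' := by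
  obtain ⟨C, h1, h2, h3⟩ := Fac_ex hS hr
  have g : Dep2 C G := Fac_mono (coe_subset.2 h1) hG
  have e := fac (T := R) h2 (coe_subset.2 h2) h3 g (Fac_univ _)
  rw [Set.inter_univ, Fac_one, mul_one] at e
  rw [e]
  exact fac (h2.trans hR) (Set.subset_univ _) h3 g
    (Fac_mono (fun x hx c => disjoint_left.1 hd (h2 c) hx) hG')

theorem q_loc {N S R : Finset Pt} (hS : S ⊆ R) (hR : R ⊆ N) {r : Col} (hr : r ∉ TArm S R)
    {G : Set (Col × Col)} (hG : Dep2 S G) : q N Set.univ r G = q R R r G := by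
  have e := q_prod hS hR hr (disjoint_empty_right R) hG (Fac_univ _)
  rwa [Set.inter_univ, Fac_one, mul_one] at e

theorem q_dep {S R : Finset Pt} (hS : S ⊆ R) {G : Set (Col × Col)} (hG : Dep2 S G) :
    DepF R fun r => q R R r G := by
  intro X Y e
  have c : cmp R R X = cmp R R Y := by
    ext b
    simp only [mem_cmp, Ok]
    refine and_congr_right fun _ => forall₂_congr fun x hx => forall₂_congr fun y hy => ?_
    rw [e x hx, e y hy]
  simp only [q, c]
  rw [filter_congr (p := fun b => (X, b) ∈ G) (q := fun b => (Y, b) ∈ G) fun b _ =>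
    ⟨hG (X, b) (Y, b) fun x hx => ⟨e x (hS hx), rfl⟩,
      hG (Y, b) (X, b) fun x hx => ⟨(e x (hS hx)).symm, rfl⟩⟩]

end Vale.Agent.P153L
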