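import Vale.Agent.P153L.Defs

/-! Geometry (no probability). `ray_*`: walk in a direction that increases the largest of the
defining linear forms (induction on the number of steps). `dep_tarm`, `tarm_mono`: stop the path at
its first exit from `R` (see `arm_of_cn` in P152/A5L). `tend_*`: `tendsto_atTop` on `Finset`,
every finite set is inside a square. -/

open Finset Filter Topology
open scoped Classical

noncomputable section

namespace Vale.Agent.P153L

open P152.GL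

/-- The hexagon of centre `c` and radius `n` for the adjacency `TAdj`. -/
def hex (c : Pt) (n : ℕ) : Finset Pt :=
  (Icc (c.1 - n) (c.1 + n) ×ˢ Icc (c.2 - n) (c.2 + n)).filter
    fun x => |x.1 - c.1 - (x.2 - c.2)| ≤ n

theorem mem_hex {c x : Pt} {n : ℕ} :
    x ∈ hex c n ↔ |x.1 - c.1| ≤ n ∧ |x.2 - c.2| ≤ n ∧ |x.1 - c.1 - (x.2 - c.2)| ≤ n := by
  simp only [hex, mem_filter, mem_product, mem_Icc, abs_le]
  omega

theorem geo_walk {N : Finset Pt} {x : Pt} {s : ℤ} (hs : s = 1 ∨ s = -1)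
    (hN : ∀ k : ℕ, (x.1 + s * k, x.2) ∉ N) (m : ℕ) : ∃ y ∉ sqr m,
    Relation.ReflTransGen (fun a c => TAdj a c ∧ c ∉ N) x y := by
  have h : ∀ k : ℕ, Relation.ReflTransGen (fun a c => TAdj a c ∧ c ∉ N) x (x.1 + s * k, x.2) := by
    intro k
    induction k with
    | zero => simpa using Relation.ReflTransGen.refl
    | succ k ih =>
      refine ih.tail ⟨?_, hN (k + 1)⟩
      rcases hs with rfl | rfl
      · exact Or.inl (Prod.ext (by simp only; omega) rfl)
      · exact Or.inr (Or.inl (Prod.ext (by simp only; omega) rfl))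
  refine ⟨_, ?_, h (m + 1 + x.1.natAbs)⟩
  simp only [mem_sqr, abs_le]
  rcases hs with rfl | rfl <;> omega

theorem ray_sqr (n : ℕ) : Ray (sqr n) := by
  intro x hx m
  by_cases h : x.1 < -n
  · refine geo_walk (Or.inr rfl) (fun k => ?_) m
    simp only [mem_sqr, abs_le]
    omega
  · refine geo_walk (Or.inl rfl) (fun k => ?_) m
    simp only [mem_sqr, abs_le] at hx ⊢
    omega

theorem ray_hex (c : Pt) (n : ℕ) : Ray (hex c n) := by
  intro x hx m
  by_cases h : x.1 - c.1 < -n ∨ x.1 - c.1 - (x.2 - c.2) < -n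
  · refine geo_walk (Or.inr rfl) (fun k => ?_) m
    simp only [mem_hex, abs_le]
    omega
  · refine geo_walk (Or.inl rfl) (fun k => ?_) m
    simp only [mem_hex, abs_le] at hx ⊢
    omega

theorem ex_sqr (F : Finset Pt) : ∃ n : ℕ, F ⊆ sqr n := by
  refine ⟨F.sup fun x => x.1.natAbs + x.2.natAbs, fun x hx => ?_⟩
  have h := le_sup (f := fun x : Pt => x.1.natAbs + x.2.natAbs) hx
  generalize (F.sup fun x => x.1.natAbs + x.2.natAbs) = n at h ⊢
  simp only [mem_sqr, abs_le] at h ⊢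
  omega

theorem geo_cl {D : Finset Pt} {x : Pt} : x ∈ cl D ↔ x ∈ D ∨ ∃ a ∈ D, TAdj a x := by
  simp only [cl, mem_union, mem_biUnion, nb, mem_insert, mem_singleton, TAdj]

theorem cl_sqr (n : ℕ) : cl (sqr n) ⊆ sqr (n + 1) := by
  intro x hx
  rcases geo_cl.1 hx with h | ⟨a, ha, h⟩
  · exact a5l_sub (Nat.le_succ n) h
  · exact a5l_step ha h

theorem tend_sqr : Tendsto sqr atTop atTop := by
  refine tendsto_atTop.2 fun F => ?_
  obtain ⟨n, hn⟩ := ex_sqr F
  filter_upwards [eventually_ge_atTop n] with m hm x hx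
  exact a5l_sub hm (hn hx)

theorem tend_hex (c : Pt) : Tendsto (hex c) atTop atTop := by
  refine tendsto_atTop.2 fun F => ?_
  obtain ⟨n, hn⟩ := ex_sqr F
  filter_upwards [eventually_ge_atTop (2 * n + c.1.natAbs + c.2.natAbs)] with m hm x hx
  have h := hn hx
  simp only [mem_sqr, mem_hex, abs_le] at h ⊢
  omega

theorem tend_cl : Tendsto cl atTop atTop := by
  exact tendsto_atTop_mono (fun _ => subset_union_left) tendsto_id

theorem tend_add (z : Pt) : Tendsto (fun V : Finset Pt => V.image (· + z)) atTop atTop := by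
  refine tendsto_atTop.2 fun F => ?_
  filter_upwards [eventually_ge_atTop (F.image (· - z))] with V hV x hx
  exact mem_image.2 ⟨x - z, hV (mem_image_of_mem _ hx), sub_add_cancel x z⟩

theorem geo_adj {a b : Pt} (z : Pt) : TAdj (a + z) (b + z) ↔ TAdj a b := by
  obtain ⟨a1, a2⟩ := a
  obtain ⟨b1, b2⟩ := b
  obtain ⟨z1, z2⟩ := z
  simp only [TAdj, Prod.mk_add_mk, Prod.mk.injEq]
  omega

theorem cl_add (D : Finset Pt) (z : Pt) : cl (D.image (· + z)) = (cl D).image (· + z) := by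
  ext x
  constructor
  · intro hx
    rcases geo_cl.1 hx with h | ⟨a, ha, h⟩
    · exact image_subset_image subset_union_left h
    · obtain ⟨b, hb, rfl⟩ := mem_image.1 ha
      refine mem_image.2 ⟨x - z, geo_cl.2 (Or.inr ⟨b, hb, (geo_adj z).1 ?_⟩), sub_add_cancel x z⟩
      rwa [sub_add_cancel]
  · intro hx
    obtain ⟨b, hb, rfl⟩ := mem_image.1 hx
    rcases geo_cl.1 hb with h | ⟨a, ha, h⟩
    · exact geo_cl.2 (Or.inl (mem_image_of_mem _ h))
    · exact geo_cl.2 (Or.inr ⟨a + z, mem_image_of_mem _ ha, (geo_adj z).2 h⟩)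

theorem geo_exit {P : Pt → Pt → Prop} {R : Finset Pt} {x y : Pt} (hy : y ∉ R)
    (h : Relation.ReflTransGen P x y) :
    ∃ y' ∉ R, Relation.ReflTransGen (fun a c => P a c ∧ a ∈ R) x y' := by
  induction h using Relation.ReflTransGen.head_induction_on with
  | refl => exact ⟨y, hy, .refl⟩
  | @head a b hab _ ih =>
    by_cases ha : a ∈ R
    · obtain ⟨y', h1, h2⟩ := ih
      exact ⟨y', h1, .head ⟨hab, ha⟩ h2⟩
    · exact ⟨a, ha, .refl⟩

theorem dep_tarm {S R : Finset Pt} (h : S ⊆ R) : Dep (cl R) (TArm S R) := by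
  rintro X Y e ⟨x, hx, y, hy, hp⟩
  obtain ⟨y', h1, h2⟩ := geo_exit hy hp
  refine ⟨x, hx, y', h1, Relation.ReflTransGen.mono (fun a c hb => ⟨hb.1.1, ?_⟩) _ _ h2⟩
  rw [← e a (geo_cl.2 (Or.inl hb.2)), ← e c (geo_cl.2 (Or.inr ⟨a, hb.2, hb.1.1⟩))]
  exact hb.1.2

theorem tarm_mono {S S' R R' : Finset Pt} (h : S ⊆ S') (h' : R' ⊆ R) (h'' : S' ⊆ R') :
    TArm S R ⊆ TArm S' R' := by
  rintro r ⟨x, hx, y, hy, hp⟩
  exact ⟨x, h hx, y, fun e => hy (h' e), hp⟩

theorem geo_con {A : Finset Pt} {c : Pt}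
    (h : ∀ x ∈ A, x ≠ c → ∃ y ∈ A, TAdj x y ∧ (y.1 - c.1).natAbs + (y.2 - c.2).natAbs <
      (x.1 - c.1).natAbs + (x.2 - c.2).natAbs) {x y : Pt} (hx : x ∈ A) (hy : y ∈ A) :
    Relation.ReflTransGen (fun a d => TAdj a d ∧ d ∈ A) x y := by
  have key : ∀ (k : ℕ), ∀ x ∈ A, (x.1 - c.1).natAbs + (x.2 - c.2).natAbs < k →
      Relation.ReflTransGen (fun a d => TAdj a d ∧ d ∈ A) x c ∧
        Relation.ReflTransGen (fun a d => TAdj a d ∧ d ∈ A) c x := by
    intro k
    induction k with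
    | zero => exact fun _ _ h => absurd h (Nat.not_lt_zero _)
    | succ k ih =>
      intro x hx hk
      by_cases e : x = c
      · subst e
        exact ⟨.refl, .refl⟩
      · obtain ⟨y, h1, h2, h3⟩ := h x hx e
        obtain ⟨a, b⟩ := ih y h1 (by omega)
        exact ⟨.head ⟨h2, h1⟩ a, b.tail ⟨h2.symm, hx⟩⟩
  exact (key _ x hx (Nat.lt_succ_self _)).1.trans (key _ y hy (Nat.lt_succ_self _)).2

theorem geo_step {c x : Pt} (h : x ≠ c) : ∃ y, TAdj x y ∧
    (y.1 - c.1).natAbs + (y.2 - c.2).natAbs < (x.1 - c.1).natAbs + (x.2 - c.2).natAbs ∧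
    (y.1 - c.1).natAbs ≤ (x.1 - c.1).natAbs ∧ (y.2 - c.2).natAbs ≤ (x.2 - c.2).natAbs ∧
    (y.1 - c.1 - (y.2 - c.2)).natAbs ≤ (x.1 - c.1 - (x.2 - c.2)).natAbs := by
  obtain ⟨a, b⟩ := x
  obtain ⟨c1, c2⟩ := c
  have h' : a ≠ c1 ∨ b ≠ c2 := by
    by_contra e
    exact h (Prod.ext (by simp only; omega) (by simp only; omega))
  by_cases h1 : c1 < a ∧ c2 < b
  · exact ⟨(a - 1, b - 1), by simp [TAdj], by simp only; omega⟩
  by_cases h2 : a < c1 ∧ b < c2
  · exact ⟨(a + 1, b + 1), by simp [TAdj], by simp only; omega⟩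
  by_cases h3 : c1 < a
  · exact ⟨(a - 1, b), by simp [TAdj], by simp only; omega⟩
  by_cases h4 : a < c1
  · exact ⟨(a + 1, b), by simp [TAdj], by simp only; omega⟩
  by_cases h5 : c2 < b
  · exact ⟨(a, b - 1), by simp [TAdj], by simp only; omega⟩
  · exact ⟨(a, b + 1), by simp [TAdj], by simp only; omega⟩

/-- Any two sites of a square are joined inside the square. -/
theorem sqr_con {n : ℕ} {x y : Pt} (hx : x ∈ sqr n) (hy : y ∈ sqr n) :
    Relation.ReflTransGen (fun a c => TAdj a c ∧ c ∈ sqr n) x y := by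
  refine geo_con (c := (0, 0)) (fun x hx e => ?_) hx hy
  obtain ⟨y, h1, h2, h3⟩ := geo_step e
  refine ⟨y, ?_, h1, h2⟩
  simp only [mem_sqr, abs_le] at hx h3 ⊢
  omega

/-- Any two sites of a hexagon are joined inside the hexagon. -/
theorem hex_con {c : Pt} {n : ℕ} {x y : Pt} (hx : x ∈ hex c n) (hy : y ∈ hex c n) :
    Relation.ReflTransGen (fun a d => TAdj a d ∧ d ∈ hex c n) x y := by
  refine geo_con (c := c) (fun x hx e => ?_) hx hy
  obtain ⟨y, h1, h2, h3⟩ := geo_step e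
  refine ⟨y, ?_, h1, h2⟩
  simp only [mem_hex, abs_le] at hx ⊢
  omega

end Vale.Agent.P153L
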