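import Vale.Agent.P153L.Geo

/-! Closed forms are exact. Take `m` with `N ⊆ sqr m`; base point `o = (-m-1, -m-1)`; define `g` by
summing along the column of `o`, then along rows (for integers use `Int.induction_on` or a primitive
`P f : ℤ → G` with `P f (n+1) - P f n = f n`, `P f a = 0`). The two triangles of a square give
`h x + v (x + e1) = d x = v x + h (x + e2)`. Then `g` is constant on the complement of `sqr m`
(connected: rows and columns outside the square), so zero there, and `Ray` carries this to the complement of `N`. -/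

open Finset Filter Topology
open scoped Classical

noncomputable section

namespace Vale.Agent.P153L

open P152.GL

theorem poi_prim {G : Type*} [AddCommGroup G] (f : ℤ → G) :
    ∃ P : ℤ → G, P 0 = 0 ∧ ∀ n, P (n + 1) - P n = f n := by
  refine ⟨fun n => ∑ i ∈ range n.toNat, f i - ∑ i ∈ range (-n).toNat, f (-(i + 1)), by simp,
    fun n => ?_⟩
  dsimp only
  rcases le_or_gt 0 n with h | h
  · lift n to ℕ using h
    rw [show ((n : ℤ) + 1).toNat = n + 1 by omega, show (-((n : ℤ) + 1)).toNat = 0 by omega,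
      show (-(n : ℤ)).toNat = 0 by omega, Int.toNat_natCast, sum_range_succ]
    abel
  · obtain ⟨k, rfl⟩ : ∃ k : ℕ, n = -((k : ℤ) + 1) := ⟨(-n - 1).toNat, by omega⟩
    rw [show (-((k : ℤ) + 1) + 1).toNat = 0 by omega, show (-((k : ℤ) + 1)).toNat = 0 by omega,
      show (-(-((k : ℤ) + 1) + 1)).toNat = k by omega, show (-(-((k : ℤ) + 1))).toNat = k + 1 by omega,
      sum_range_succ]
    abel

theorem poi_const {α : Type*} {u : ℤ → α} (h : ∀ n, u (n + 1) = u n) (a b : ℤ) : u a = u b := by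
  have k : ∀ a, u a = u 0 := fun a => by
    induction a using Int.induction_on with
    | zero => rfl
    | succ i ih => rw [h, ih]
    | pred i ih => rw [← ih, ← h, sub_add_cancel]
  rw [k a, k b]

theorem poi_h (i j : ℤ) : TAdj (i, j) (i + 1, j) := Or.inl rfl

theorem poi_v (i j : ℤ) : TAdj (i, j) (i, j + 1) := Or.inr (Or.inr (Or.inl rfl))

theorem poi_d (i j : ℤ) : TAdj (i, j) (i + 1, j + 1) :=
  Or.inr (Or.inr (Or.inr (Or.inr (Or.inl rfl))))

theorem poi_ex {G : Type*} [AddCommGroup G] (η : Pt → Pt → G)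
    (h1 : ∀ x y, TAdj x y → η y x = -η x y)
    (h2 : ∀ x y z, TAdj x y → TAdj y z → TAdj x z → η x y + η y z = η x z) :
    ∃ g : Pt → G, ∀ x y, TAdj x y → g y - g x = η x y := by
  obtain ⟨V, -, hV⟩ := poi_prim fun j => η (0, j) (0, j + 1)
  choose H H0 hH using fun j => poi_prim fun i => η (i, j) (i + 1, j)
  obtain ⟨g, hg⟩ : ∃ g : Pt → G, ∀ i j, g (i, j) = V j + H j i := ⟨fun x => V x.2 + H x.2 x.1,
    fun _ _ => rfl⟩
  have a1 : ∀ i j, g (i + 1, j) - g (i, j) = η (i, j) (i + 1, j) := fun i j => by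
    rw [hg, hg, add_sub_add_left_eq_sub, hH]
  have a2 : ∀ i j, g (i, j + 1) - g (i, j) = η (i, j) (i, j + 1) := fun i j => by
    have k := poi_const (u := fun i => g (i, j + 1) - g (i, j) - η (i, j) (i, j + 1))
      (fun i => by
        have k1 := h2 _ _ _ (poi_h i j) (poi_v (i + 1) j) (poi_d i j)
        have k2 := h2 _ _ _ (poi_v i j) (poi_h i (j + 1)) (poi_d i j)
        rw [eq_add_of_sub_eq (a1 i (j + 1)), eq_add_of_sub_eq (a1 i j), eq_sub_of_add_eq' k1, ← k2]
        abel) i 0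
    rwa [hg 0, hg 0, H0, H0, add_zero, add_zero, hV, sub_self, sub_eq_zero] at k
  have a3 : ∀ i j, g (i + 1, j + 1) - g (i, j) = η (i, j) (i + 1, j + 1) := fun i j => by
    rw [← h2 _ _ _ (poi_h i j) (poi_v (i + 1) j) (poi_d i j), ← a1, ← a2]
    abel
  have a4 : ∀ x y, TAdj x y → g y - g x = η x y → g x - g y = η y x := fun x y h k => by
    rw [h1 x y h, ← k, neg_sub]
  refine ⟨g, ?_⟩
  rintro ⟨i, j⟩ y (rfl | rfl | rfl | rfl | rfl | rfl)
  · exact a1 i j
  · simpa using a4 _ _ (poi_h (i - 1) j) (a1 _ _)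
  · exact a2 i j
  · simpa using a4 _ _ (poi_v i (j - 1)) (a2 _ _)
  · exact a3 i j
  · simpa using a4 _ _ (poi_d (i - 1) (j - 1)) (a3 _ _)

theorem poinc {G : Type*} [AddCommGroup G] (η : Pt → Pt → G) {N : Finset Pt} (hN : Ray N)
    (h1 : ∀ x y, TAdj x y → η y x = -η x y)
    (h2 : ∀ x y z, TAdj x y → TAdj y z → TAdj x z → η x y + η y z = η x z)
    (h3 : ∀ x ∉ N, ∀ y ∉ N, TAdj x y → η x y = 0) :
    ∃ g : Pt → G, (∀ x y, TAdj x y → g y - g x = η x y) ∧ ∀ x ∉ N, g x = 0 := by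
  obtain ⟨g, hg⟩ := poi_ex η h1 h2
  obtain ⟨m, hm⟩ := ex_sqr N
  have b0 : ∀ x ∉ N, ∀ y ∉ N, TAdj x y → g y = g x := fun x hx y hy h =>
    sub_eq_zero.1 ((hg x y h).trans (h3 x hx y hy h))
  have b1 : ∀ j : ℤ, (m : ℤ) < |j| → ∀ a b, g (a, j) = g (b, j) := fun j hj =>
    poi_const (u := fun i => g (i, j)) fun i => b0 _ (fun k => hj.not_ge (mem_sqr.1 (hm k)).2) _
      (fun k => hj.not_ge (mem_sqr.1 (hm k)).2) (poi_h i j)
  have b2 : ∀ i : ℤ, (m : ℤ) < |i| → ∀ a b, g (i, a) = g (i, b) := fun i hi =>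
    poi_const (u := fun j => g (i, j)) fun j => b0 _ (fun k => hi.not_ge (mem_sqr.1 (hm k)).1) _
      (fun k => hi.not_ge (mem_sqr.1 (hm k)).1) (poi_v i j)
  have b3 : (m : ℤ) < |(m : ℤ) + 1| := (lt_add_one _).trans_le (le_abs_self _)
  have b4 : ∀ y ∉ sqr m, g y = g (m + 1, m + 1) := by
    rintro ⟨i, j⟩ hy
    rcases not_and_or.1 (mt mem_sqr.2 hy) with k | k
    · exact (b2 i (not_le.1 k) j (m + 1)).trans (b1 _ b3 _ _)
    · exact (b1 j (not_le.1 k) i (m + 1)).trans (b2 _ b3 _ _)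
  refine ⟨fun x => g x - g (m + 1, m + 1), fun x y h => by rw [sub_sub_sub_cancel_right, hg x y h],
    fun x hx => ?_⟩
  obtain ⟨y, hy, hp⟩ := hN x hx m
  have b5 : y ∉ N ∧ g y = g x := by
    clear hy
    induction hp with
    | refl => exact ⟨hx, rfl⟩
    | tail _ k ih => exact ⟨k.2, (b0 _ ih.1 _ k.2 k.1).trans ih.2⟩
  exact sub_eq_zero.2 (b5.2.symm.trans (b4 y hy))

end Vale.Agent.P153L
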