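import Vale.Agent.P153L.BasJ
import Vale.Agent.P153L.Poi
import Vale.Agent.P153.Stmt

/-! Heights and spins. `ph` sends the steps of `P153.Lip` to those of `TAdj`. `sp k` records `k mod 4`.
Injectivity: two Lipschitz functions equal mod 4 have equal increments, and agree far away (walk to the right).
Surjectivity: for `p ∈ cfg D D` let `a x ∈ {0, 1, 2, 3}` be the residue coded by `p` at `x`; `η x y ∈ {-1, 0, 1}` congruent to `a y - a x` mod 4
(finite check on Booleans by `Ok`), closed on triangles (sum divisible by 4 and at most 3); `poinc` over `ℤ`; the primitive `g` is congruent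
to `a` mod 4 (difference constant along edges, zero far away). `ev_iff`: `sqr_con`. -/

open Finset Filter Topology
open scoped Classical

noncomputable section

namespace Vale.Agent.P153L

open P152.GL

/-- Change of coordinates. -/
def ph (x : Pt) : Pt := (x.1 + x.2, x.2)

/-- The inverse change of coordinates. -/
def ps (x : Pt) : Pt := (x.1 - x.2, x.2)

/-- The two spins of a height function. -/
def sp (k : Pt → ℤ) : Col × Col :=
  (fun x => decide (k (ps x) % 4 = 0 ∨ k (ps x) % 4 = 1),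
    fun x => decide (k (ps x) % 4 = 0 ∨ k (ps x) % 4 = 3))

/-- The local event in terms of spins. -/
def Ev (M : ℕ) (S : Finset Pt) (η : Pt → ℤ) : Set (Col × Col) :=
  {p | ∃ k : Pt → ℤ, (∀ x ∈ sqr M, ∀ y ∈ sqr M, TAdj x y → |k (ps x) - k (ps y)| ≤ 1) ∧
    (∀ x ∈ sqr M, p.1 x = (sp k).1 x ∧ p.2 x = (sp k).2 x) ∧ ∀ x ∈ S, k x - k 0 = η x}

theorem h1_ps (x : Pt) : ps (ph x) = x := by simp [ps, ph]

theorem h1_step {k : Pt → ℤ} (h : P153.Lip k) {a b : Pt}
    (e : b = a + (1, 0) ∨ b = a + (0, 1) ∨ b = a + (-1, 1)) : |k b - k a| ≤ 1 := by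
  rcases e with rfl | rfl | rfl
  exacts [(h a).1, (h a).2.1, (h a).2.2]

theorem lip_iff {k : Pt → ℤ} :
    P153.Lip k ↔ ∀ x y, TAdj x y → |k (ps x) - k (ps y)| ≤ 1 := by
  constructor
  · intro h x y e
    by_cases c : ps x = ps y + (1, 0) ∨ ps x = ps y + (0, 1) ∨ ps x = ps y + (-1, 1)
    · exact h1_step h c
    · rw [abs_sub_comm]
      refine h1_step h ?_
      simp only [TAdj, ps, Prod.ext_iff, Prod.fst_add, Prod.snd_add] at e c ⊢
      omega
  · intro h x
    refine ⟨?_, ?_, ?_⟩ <;> rw [← h1_ps (x + _)] <;> nth_rw 2 [← h1_ps x] <;> refine h _ _ ?_ <;>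
      simp only [TAdj, ph, Prod.ext_iff, Prod.fst_add, Prod.snd_add] <;> omega

theorem dep_ev (M : ℕ) (S : Finset Pt) (η : Pt → ℤ) : Dep2 (sqr M) (Ev M S η) := by
  rintro p p' h ⟨k, h1, h2, h3⟩
  exact ⟨k, h1, fun x hx => ⟨(h x hx).1 ▸ (h2 x hx).1, (h x hx).2 ▸ (h2 x hx).2⟩, h3⟩

theorem ev_iff {M : ℕ} {S : Finset Pt} (hS : ∀ x ∈ S, ph x ∈ sqr M) (η : Pt → ℤ) {k : Pt → ℤ}
    (hk : P153.Lip k) : sp k ∈ Ev M S η ↔ ∀ x ∈ S, k x - k 0 = η x := by
  refine ⟨?_, fun h => ⟨k, fun x _ y _ => lip_iff.1 hk x y, fun _ _ => ⟨rfl, rfl⟩, h⟩⟩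
  rintro ⟨g, h1, h2, h3⟩ x hx
  have z : (0 : Pt) ∈ sqr M := by simp [mem_sqr]
  have m : ∀ y ∈ sqr M, k (ps y) % 4 = g (ps y) % 4 := fun y hy => by
    have := h2 y hy
    simp only [sp, decide_eq_decide] at this
    omega
  have a : ∀ y, Relation.ReflTransGen (fun a c => TAdj a c ∧ c ∈ sqr M) 0 y →
      y ∈ sqr M ∧ k (ps y) - k 0 = g (ps y) - g 0 := fun y hy => by
    induction hy with
    | refl => exact ⟨z, by simp [show ps 0 = 0 from rfl]⟩
    | tail _ e ih =>
      have b1 := abs_le.1 (h1 _ ih.1 _ e.2 e.1)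
      have b2 := abs_le.1 (lip_iff.1 hk _ _ e.1)
      have b3 := m _ ih.1
      have b4 := m _ e.2
      exact ⟨e.2, by omega⟩
  rw [← h3 x hx, ← h1_ps x]
  exact (a _ (sqr_con z (hS x hx))).2

end Vale.Agent.P153L
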