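import Vale.Agent.P153L.H2

/-! Heights and spins. `ph` sends the steps of `P153.Lip` to those of `TAdj`. `sp k` records `k mod 4`.
Injectivity: two Lipschitz functions equal mod 4 have equal increments, and agree far away (walk to the right).
Surjectivity: for `p ∈ cfg D D` let `a x ∈ {0, 1, 2, 3}` be the residue coded by `p` at `x`; `η x y ∈ {-1, 0, 1}` congruent to `a y - a x` mod 4
(finite check on Booleans by `Ok`), closed on triangles (sum divisible by 4 and at most 3); `poinc` over `ℤ`; the primitive `g` is congruent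
to `a` mod 4 (difference constant along edges, zero far away). `ev_iff`: `sqr_con`. -/

open Finset Filter Topology
open scoped Classical

noncomputable section

namespace Vale.Agent.P153L

open P152.GL

theorem hexP_eq {M : ℕ} {S : Finset Pt} (hS : ∀ x ∈ S, ph x ∈ sqr M) (c : Pt) (n : ℕ) (η : Pt → ℤ) :
    P153.hexP c n S η = J (hex (ph c) n) (hex (ph c) n) (Ev M S η) := by
  have h := sp_bij c n
  have h2 : Set.BijOn sp {k ∈ P153.Adm c n | ∀ x ∈ S, k x - k 0 = η x}
      ((cfg (hex (ph c) n) (hex (ph c) n)).filter (· ∈ Ev M S η) : Finset (Col × Col)) := by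
    refine ⟨fun k hk => ?_, h.injOn.mono fun k hk => hk.1, fun p hp => ?_⟩
    · exact mem_coe.2 (mem_filter.2 ⟨mem_coe.1 (h.mapsTo hk.1), (ev_iff hS η hk.1.1).2 hk.2⟩)
    · obtain ⟨h3, h4⟩ := mem_filter.1 (mem_coe.1 hp)
      obtain ⟨k, hk, rfl⟩ := h.surjOn (mem_coe.2 h3)
      exact ⟨k, ⟨hk, (ev_iff hS η hk.1).1 h4⟩, rfl⟩
  rw [P153.hexP, J, h.ncard_eq, h2.ncard_eq, Set.ncard_coe_finset, Set.ncard_coe_finset]

end Vale.Agent.P153L
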