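import Vale.Agent.P153L.BasJ
import Vale.Agent.P153L.Geo

/-! Independence of the outer region. -/

open Finset Filter Topology
open scoped Classical

noncomputable section

namespace Vale.Agent.P153L

open P152.GL

theorem sym_adj {x y : Pt} (h : TAdj x y) : TAdj y x := by
  obtain ⟨a, b⟩ := x
  obtain ⟨c, d⟩ := y
  simp only [TAdj, Prod.mk.injEq] at h ⊢
  omega

theorem sym_ok {D : Finset Pt} {r b b' : Col} {s : Bool} (hr : ∀ x ∉ D, r x = s)
    (hb : ∀ x ∈ cl D, b x = b' x) (h : Ok Set.univ r b) : Ok Set.univ r b' := by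
  intro x _ y _ hxy
  by_cases hx : x ∈ D
  · rw [← hb x (sub_cl hx), ← hb y (mem_cl.2 (Or.inr ⟨x, hx, hxy⟩))]
    exact h x trivial y trivial hxy
  · by_cases hy : y ∈ D
    · rw [← hb y (sub_cl hy), ← hb x (mem_cl.2 (Or.inr ⟨y, hy, sym_adj hxy⟩))]
      exact h x trivial y trivial hxy
    · exact Or.inl ((hr x hx).trans (hr y hy).symm)

theorem w_indep {D N : Finset Pt} (h : cl D ⊆ N) {r : Col} {s : Bool} (hr : ∀ x ∉ D, r x = s) :
    w N r = 2 ^ (N \ cl D).card * w (cl D) r := by
  have key : (cmp N Set.univ r).card = (ext (N \ cl D) tt ×ˢ cmp (cl D) Set.univ r).card := by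
    refine card_nbij'
      (fun b => (fun x => if x ∈ cl D then true else b x, fun x => if x ∈ cl D then b x else true))
      (fun p x => if x ∈ cl D then p.2 x else p.1 x) ?_ ?_ ?_ ?_
    · intro b hb
      obtain ⟨h1, h2⟩ := mem_cmp.1 (mem_coe.1 hb)
      refine mem_coe.2 (mem_product.2 ⟨mem_ext.2 fun x hx => ?_, mem_cmp.2 ⟨fun x hx => ?_, ?_⟩⟩)
      · by_cases hc : x ∈ cl D
        · exact if_pos hc
        · exact (if_neg hc).trans (h1 x fun hN => hx (mem_sdiff.2 ⟨hN, hc⟩))
      · exact if_neg hx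
      · exact sym_ok hr (fun x hx => (if_pos hx).symm) h2
    · intro p hp
      obtain ⟨h1, h2⟩ := mem_product.1 (mem_coe.1 hp)
      obtain ⟨h3, h4⟩ := mem_cmp.1 h2
      refine mem_coe.2 (mem_cmp.2 ⟨fun x hx => ?_, sym_ok hr (fun x hx => (if_pos hx).symm) h4⟩)
      exact (if_neg fun hc => hx (h hc)).trans (mem_ext.1 h1 x fun hc => hx (mem_sdiff.1 hc).1)
    · intro b _
      funext x
      by_cases hc : x ∈ cl D <;> simp [hc]
    · intro p hp
      obtain ⟨h1, h2⟩ := mem_product.1 (mem_coe.1 hp)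
      obtain ⟨h3, -⟩ := mem_cmp.1 h2
      refine Prod.ext (funext fun x => ?_) (funext fun x => ?_)
      · by_cases hc : x ∈ cl D
        · have := mem_ext.1 h1 x fun hx => (mem_sdiff.1 hx).2 hc
          simp [hc, this, tt]
        · simp [hc]
      · by_cases hc : x ∈ cl D
        · simp [hc]
        · simp [hc, h3 x hc]
  unfold w
  rw [key, card_product, card_ext]
  push_cast
  rfl

theorem ex_indep {D N : Finset Pt} (h : cl D ⊆ N) (s : Bool) (f : Col → ℝ) :
    ex D N (fun _ => s) f = ex D (cl D) (fun _ => s) f := by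
  have e : ∀ r ∈ ext D (fun _ => s), w N r = 2 ^ (N \ cl D).card * w (cl D) r :=
    fun r hr => w_indep h (mem_ext.1 hr)
  unfold ex
  rw [sum_congr rfl e, sum_congr rfl fun r hr => congrArg (· * f r) (e r hr)]
  simp only [mul_assoc, ← mul_sum]
  exact mul_div_mul_left _ _ (by positivity)

end Vale.Agent.P153L
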