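import Vale.Agent.P153L.BasJ

/-! Symmetries and consistency of the finite volume laws.
`dlr`: fibre `ext D ξ` by the restriction outside `D₀` (the map `r ↦ D₀.piecewise tt r`); on a fibre `ext D₀ ζ` is the fibre.
`w_indep`: for `r` constant outside `D` and `cl D ⊆ N`, `b ↦ (b on cl D, b off cl D)` is a bijection
`cmp N univ r ≃ cmp (cl D) univ r × ext (N \\ cl D) tt`; the same bijection gives `J_indep` through `J_q`.
`J_flip`: flip `b` on `N`. `J_add_z`: the bijection `tr z`. -/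

open Finset Filter Topology
open scoped Classical

noncomputable section

namespace Vale.Agent.P153L

open P152.GL

/-- The second spin flipped on `N`. -/
def symj_f (N : Finset Pt) (p : Col × Col) : Col × Col :=
  (p.1, fun x => if x ∈ N then !p.2 x else p.2 x)

theorem symj_ff (N : Finset Pt) (p : Col × Col) : symj_f N (symj_f N p) = p := by
  refine Prod.ext rfl (funext fun x => ?_)
  by_cases h : x ∈ N <;> simp [symj_f, h]

theorem symj_mem {D N : Finset Pt} (h : cl D ⊆ N) {p : Col × Col} (hp : p ∈ cfg D N) :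
    symj_f N p ∈ cfg D N := by
  obtain ⟨h1, h2, h3⟩ := mem_cfg.1 hp
  have key : ∀ x y, TAdj x y → y ∉ N → p.1 x = p.1 y := fun x y a hy => by
    rw [h1 y fun c => hy (h (sub_cl c)), h1 x fun c => hy (h (mem_cl.2 (.inr ⟨x, c, a⟩)))]
  refine mem_cfg.2 ⟨h1, fun x hx => ?_, fun x _ y _ a => ?_⟩
  · simp only [symj_f, if_neg hx]
    exact h2 x hx
  · by_cases hy : y ∈ N
    · by_cases hx : x ∈ N
      · rcases h3 x trivial y trivial a with e | e
        · exact .inl e
        · refine .inr ?_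
          simp only [symj_f, if_pos hx, if_pos hy, e]
      · exact .inl (key y x a.symm hx).symm
    · exact .inl (key x y a hy)

theorem J_flip {D N F : Finset Pt} (h : cl D ⊆ N) (hF : F ⊆ N) {E : Set Col} (hE : Dep F E) :
    J D N (Prod.snd ⁻¹' (fl ⁻¹' E)) = J D N (Prod.snd ⁻¹' E) := by
  have inj : ∀ p p' : Col × Col, symj_f N p = symj_f N p' → p = p' := fun p p' e => by
    rw [← symj_ff N p, e, symj_ff]
  refine le_antisymm
    (J_inj (symj_f N) (fun p hp hG => ⟨symj_mem h hp, ?_⟩) fun p _ _ p' _ _ e => inj p p' e)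
    (J_inj (symj_f N) (fun p hp hG => ⟨symj_mem h hp, ?_⟩) fun p _ _ p' _ _ e => inj p p' e)
  · refine hE (fl p.2) _ (fun x hx => ?_) hG
    simp only [symj_f, fl, if_pos (hF hx)]
  · refine hE p.2 (fl (symj_f N p).2) (fun x hx => ?_) hG
    simp only [symj_f, fl, if_pos (hF hx), Bool.not_not]

theorem symj_adj {x y : Pt} (z : Pt) (a : TAdj x y) : TAdj (x + z) (y + z) := by
  obtain ⟨x1, x2⟩ := x
  obtain ⟨y1, y2⟩ := y
  obtain ⟨z1, z2⟩ := z
  simp only [TAdj, Prod.mk.injEq, Prod.mk_add_mk] at a ⊢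
  omega

theorem symj_tr {D N D' N' : Finset Pt} {z : Pt} (hD : ∀ x, x + z ∈ D' → x ∈ D)
    (hN : ∀ x, x + z ∈ N' → x ∈ N) {p : Col × Col} (hp : p ∈ cfg D' N') :
    (tr z p.1, tr z p.2) ∈ cfg D N := by
  obtain ⟨h1, h2, h3⟩ := mem_cfg.1 hp
  exact mem_cfg.2 ⟨fun x hx => h1 _ fun c => hx (hD x c), fun x hx => h2 _ fun c => hx (hN x c),
    fun x _ y _ a => h3 _ trivial _ trivial (symj_adj z a)⟩

theorem symj_card (D N : Finset Pt) (z : Pt) (G : Set (Col × Col)) :
    ((cfg (D.image (· + z)) (N.image (· + z))).filter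
      (· ∈ (fun p : Col × Col => (tr z p.1, tr z p.2)) ⁻¹' G)).card =
      ((cfg D N).filter (· ∈ G)).card := by
  have a : ∀ (S : Finset Pt) (x : Pt), x + z ∈ S.image (· + z) → x ∈ S := fun S x c => by
    obtain ⟨y, hy, e⟩ := mem_image.1 c
    rwa [← add_right_cancel e]
  have b : ∀ (S : Finset Pt) (x : Pt), x + -z ∈ S → x ∈ S.image (· + z) := fun S x c =>
    mem_image.2 ⟨_, c, by simp⟩
  have c : ∀ X : Col, tr z (tr (-z) X) = X := fun X => funext fun x => by simp [tr]
  have d : ∀ X : Col, tr (-z) (tr z X) = X := fun X => funext fun x => by simp [tr]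
  refine card_nbij' (fun p => (tr z p.1, tr z p.2)) (fun p => (tr (-z) p.1, tr (-z) p.2))
    (fun p hp => ?_) (fun p hp => ?_) (fun p _ => ?_) fun p _ => ?_
  · obtain ⟨h1, h2⟩ := mem_filter.1 (mem_coe.1 hp)
    exact mem_coe.2 (mem_filter.2 ⟨symj_tr (a D) (a N) h1, h2⟩)
  · obtain ⟨h1, h2⟩ := mem_filter.1 (mem_coe.1 hp)
    refine mem_coe.2 (mem_filter.2 ⟨symj_tr (b D) (b N) h1, ?_⟩)
    show (tr z (tr (-z) p.1), tr z (tr (-z) p.2)) ∈ G
    rw [c, c]
    exact h2
  · show (tr (-z) (tr z p.1), tr (-z) (tr z p.2)) = p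
    rw [d, d]
  · show (tr z (tr (-z) p.1), tr z (tr (-z) p.2)) = p
    rw [c, c]

theorem J_add_z (D N : Finset Pt) (z : Pt) (G : Set (Col × Col)) :
    J (D.image (· + z)) (N.image (· + z)) ((fun p => (tr z p.1, tr z p.2)) ⁻¹' G) = J D N G := by
  have h1 := symj_card D N z G
  have h2 := symj_card D N z Set.univ
  simp only [Set.preimage_univ, Set.mem_univ, filter_true] at h2
  unfold J
  rw [h2]
  congr 2

end Vale.Agent.P153L
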