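import Vale.Agent.P153L.W3
import Vale.Agent.P153L.Sym
import Vale.Agent.P153L.Dlr
import Vale.Agent.P153L.SymJ

/-! The limit law of the first spin (model: `fld1` in P152/A5X). `key`: take a square `N ⊇ cl D` (`ex_indep` twice,
`cl D₀ ⊆ N`), `dlr`, and `holley` with `w_lat` for `ζ ≤ tt`. With `E' = univ` the map `D ↦ nu D (cl D) tt E` is antitone
for every upper set `E`; `loc_tendsto`. Invariance: `J_add_z`, `J_fst`, `cl_add`, `tend_add`.
`lP_fl`: `ex_fl` and `holley` with `fl tt ≤ tt`. -/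

open Finset Filter Topology
open scoped Classical

noncomputable section

namespace Vale.Agent.P153L

open P152.GL

theorem L1_mono {E : Set Col} (hu : IsUpperSet E) : Monotone (E.indicator (1 : Col → ℝ)) := by
  intro X Y h
  by_cases k : X ∈ E
  · rw [Set.indicator_of_mem k, Set.indicator_of_mem (hu h k)]
    exact le_rfl
  · rw [Set.indicator_of_notMem k]
    exact Set.indicator_nonneg (fun _ _ => zero_le_one) _

theorem L1_ind {D N : Finset Pt} (h : cl D ⊆ N) (E : Set Col) :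
    nu D (cl D) tt E = ex D N tt (E.indicator 1) := (ex_indep h true _).symm

theorem L1_inter {D N : Finset Pt} (h : cl D ⊆ N) (E E' : Set Col) :
    nu D (cl D) tt (E ∩ E') = ex D N tt fun r => E.indicator 1 r * E'.indicator 1 r := by
  rw [L1_ind h, Set.inter_indicator_one]
  rfl

theorem L1_le (ζ : Col) : ζ ≤ tt := fun _ => Bool.le_true _

theorem key {D₀ D : Finset Pt} (h : D₀ ⊆ D) {E E' : Set Col} (hu : IsUpperSet E)
    (hE' : ∀ X Y : Col, (∀ x ∉ D₀, X x = Y x) → X ∈ E' → Y ∈ E') :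
    nu D (cl D) tt (E ∩ E') ≤ nu D₀ (cl D₀) tt E * nu D (cl D) tt E' := by
  obtain ⟨n, hn⟩ := ex_sqr (cl D)
  have h0 : cl D₀ ⊆ sqr n := fun y hy => hn (mem_cl.2 ((mem_cl.1 hy).imp (fun k => h k)
    fun ⟨x, hx, k⟩ => ⟨x, h hx, k⟩))
  have hd : DepF (D₀ : Set Pt)ᶜ (E'.indicator 1) := fun X Y e => by
    by_cases k : X ∈ E'
    · rw [Set.indicator_of_mem k, Set.indicator_of_mem (hE' X Y e k)]
      rfl
    · rw [Set.indicator_of_notMem k,
        Set.indicator_of_notMem fun k' => k (hE' Y X (fun x hx => (e x hx).symm) k')]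
  rw [L1_inter hn, L1_ind h0, L1_ind hn, dlr h tt _ hd, ← ex_smul]
  refine ex_mono fun ζ _ => mul_le_mul_of_nonneg_right ?_
    (Set.indicator_nonneg (fun _ _ => zero_le_one) _)
  exact holley (L1_le ζ) (fun r _ r' _ => w_lat (ray_sqr n) r r') (L1_mono hu)

theorem tend_lP {E : Set Col} (hE : Loc E) :
    Tendsto (fun D => nu D (cl D) tt E) atTop (𝓝 (lP E)) := by
  refine tendsto_nhds_limUnder (loc_tendsto atTop (fun D E => nu D (cl D) tt E)
    (fun D E E' h => nu_add h) (fun E _ hu => ⟨_, tendsto_atTop_ciInf (fun D₀ D h => ?_)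
      ⟨0, ?_⟩⟩) hE)
  · have := key h hu (E' := Set.univ) fun _ _ _ _ => trivial
    rwa [Set.inter_univ, nu_univ, mul_one] at this
  · rintro _ ⟨D, rfl⟩
    exact nu_nonneg E

theorem fld_lP : Fld0 1 lP := by
  refine ⟨one_pos, ?_, fun E hE => ge_of_tendsto' (tend_lP hE) fun D => nu_nonneg E,
    fun E E' hE hE' h => ?_, fun E z hE _ _ => ?_, fun E hE hu ε hε => ?_,
    fun E E' hE hE' hu hu' => ?_⟩
  · refine tendsto_nhds_unique (tend_lP loc_univ) ?_
    simp only [nu_univ]
    exact tendsto_const_nhds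
  · exact tendsto_nhds_unique (tend_lP (hE.union hE'))
      (((tend_lP hE).add (tend_lP hE')).congr fun D => (nu_add h).symm)
  · refine tendsto_nhds_unique ((tend_lP (hE.tr z)).comp (tend_add z))
      ((tend_lP hE).congr fun D => ?_)
    simp only [Function.comp]
    rw [← J_fst, ← J_fst, cl_add, ← J_add_z D (cl D) z]
    rfl
  · obtain ⟨D, h2⟩ := ((tend_lP hE).eventually (gt_mem_nhds (lt_add_of_pos_right _ hε))).exists
    refine ⟨D, fun F' E' hE' hd => le_add_of_le_of_nonneg ?_ hε.le⟩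
    refine le_of_tendsto_of_tendsto (tend_lP (hE.inter ⟨F', hE'⟩))
      ((tend_lP ⟨F', hE'⟩).const_mul _) ?_
    filter_upwards [eventually_ge_atTop D] with V hV
    exact (key hV hu fun X Y e => hE' X Y fun x hx => e x (disjoint_right.1 hd hx)).trans
      (mul_le_mul_of_nonneg_right h2.le (nu_nonneg _))
  · refine le_of_tendsto_of_tendsto' ((tend_lP hE).mul (tend_lP hE')) (tend_lP (hE.inter hE'))
      fun D => ?_
    obtain ⟨n, hn⟩ := ex_sqr (cl D)
    rw [L1_inter hn, L1_ind hn, L1_ind hn]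
    exact fkg (ray_sqr n) tt (L1_mono hu) (L1_mono hu')

theorem lP_fl {E : Set Col} (hE : Loc E) (hu : IsUpperSet E) : lP (fl ⁻¹' E) ≤ lP E := by
  refine le_of_tendsto_of_tendsto' (tend_lP hE.not) (tend_lP hE) fun D => ?_
  obtain ⟨n, hn⟩ := ex_sqr (cl D)
  rw [L1_ind hn, L1_ind hn]
  refine le_trans (le_of_eq ?_)
    (holley (L1_le (fl tt)) (fun r _ r' _ => w_lat (ray_sqr n) r r') (L1_mono hu))
  rw [ex_fl]
  rfl

theorem fam_free : Fam atTop (fun D : Finset Pt => D) cl := by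
  exact ⟨fun E hE => tend_lP hE, tend_cl⟩

theorem fam_sqr : Fam atTop sqr fun n => cl (sqr n) := by
  exact ⟨fun E hE => (tend_lP hE).comp tend_sqr, tend_cl.comp tend_sqr⟩

end Vale.Agent.P153L
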