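import Vale.Agent.P153L.Ref

/-! The local reflection. For `p ∈ cfg D N` with `x ∉ Wd D p` let `S` be the set of sites joined to `x` by constant paths
(`S ⊆ D`), `O` the sites `y ∉ S` that escape to infinity (`∀ m, ∃ z ∉ sqr m`) by paths avoiding `S`, `U = D.filter (· ∉ O)`
(sites off `D` are in `O` by `Ray D`). `Ray U`: the sites of a path from `y ∈ O` avoiding `S` are in `O`.
A site of `U` adjacent to `O` is in `S`; its neighbours off `S` differ from it in exactly one spin, two adjacent such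
neighbours are equal. A site of `S` with maximal first coordinate has its right neighbour in `O`, so `s = !(xor r b)` on `S`
and the reflection flips `p.1 x`; it preserves `S` (edges touching `U` stay constant or not), hence `U` and `x ∉ Wd`
(`x ∈ Wd` iff `S` meets the outside of `D`). So `J_inj` both ways: `J {x ∉ Wd, r x} = J {x ∉ Wd, !r x}`; on `Wd`, `r` is true. -/

open Finset Filter Topology
open scoped Classical

noncomputable section

namespace Vale.Agent.P153L

open P152.GL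

/-- Edges along which both spins are constant. -/
def ri_C (p : Col × Col) (a c : Pt) : Prop := TAdj a c ∧ p.1 a = p.1 c ∧ p.2 a = p.2 c

/-- The sites that escape to infinity outside `S`. -/
def ri_O (S : Set Pt) : Set Pt := {y | y ∉ S ∧ ∀ m : ℕ, ∃ z ∉ sqr m,
  Relation.ReflTransGen (fun a c => TAdj a c ∧ c ∉ S) y z}

/-- The region of the reflection. -/
def ri_U (D : Finset Pt) (C : Pt → Pt → Prop) (x : Pt) : Finset Pt :=
  D.filter (· ∉ ri_O {y | Relation.ReflTransGen C y x})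

theorem ri_step {S : Set Pt} {y c : Pt} (hy : y ∈ ri_O S) (h : TAdj y c) (hc : c ∉ S) :
    c ∈ ri_O S :=
  ⟨hc, fun m => let ⟨z, h1, h2⟩ := hy.2 m; ⟨z, h1, .head ⟨h.symm, hy.1⟩ h2⟩⟩

theorem ri_val {p : Col × Col} {x y : Pt} (h : Relation.ReflTransGen (ri_C p) y x) :
    p.1 y = p.1 x ∧ p.2 y = p.2 x := by
  induction h with
  | refl => exact ⟨rfl, rfl⟩
  | tail _ h ih => exact ⟨ih.1.trans h.2.1, ih.2.trans h.2.2⟩

theorem ri_rf {U : Finset Pt} {p : Col × Col} {s : Col} (h : Par U p s) :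
    ri_C (rf s p) = ri_C p := by
  funext a c
  refine propext (and_congr_right fun ha => ?_)
  by_cases k : a ∈ U ∨ c ∈ U
  · simp only [rf, par_edge h ha k, Bool.xor_right_inj]
    exact and_comm
  · rw [not_or] at k
    rw [(rf_off h k.1).1, (rf_off h k.1).2, (rf_off h k.2).1, (rf_off h k.2).2]

theorem ri_main {D N : Finset Pt} (hD : Ray D) {x : Pt} {p : Col × Col} (hp : p ∈ cfg D N)
    (hx : x ∉ Wd D p) : (∃ s, Par (ri_U D (ri_C p) x) p s) ∧
      ∀ s, Par (ri_U D (ri_C p) x) p s → (rf s p).1 x = !p.1 x := by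
  set S : Set Pt := {y | Relation.ReflTransGen (ri_C p) y x} with hS
  set U := ri_U D (ri_C p) x with hU
  have ok : ∀ a c, TAdj a c → p.1 a = p.1 c ∨ p.2 a = p.2 c := fun a c h =>
    (mem_cfg.1 hp).2.2 a trivial c trivial h
  have f0 : ∀ y ∈ S, y ∈ D := fun y hy => by_contra fun k => hx ⟨y, k, hy⟩
  have f2 : ∀ y, y ∉ U ↔ y ∈ ri_O S := fun y => by
    rw [hU, ri_U, mem_filter, not_and, not_not]
    refine ⟨fun k => by_contra fun k' => k' ⟨fun k1 => k' (k (f0 y k1)), fun m => ?_⟩,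
      fun k _ => k⟩
    obtain ⟨z, h1, h2⟩ := hD y (fun k1 => k' (k k1)) m
    refine ⟨z, h1, ?_⟩
    clear h1
    induction h2 with
    | refl => exact .refl
    | tail _ h3 ih => exact .tail ih ⟨h3.1, fun k1 => h3.2 (f0 _ k1)⟩
  have f3 : ∀ y ∈ S, y ∈ U := fun y hy => by_contra fun k => ((f2 y).1 k).1 hy
  have f4 : Ray U := fun y hy m => by
    obtain ⟨z, h1, h2⟩ := ((f2 y).1 hy).2 m
    refine ⟨z, h1, ?_⟩
    have : z ∉ U ∧ Relation.ReflTransGen (fun a c => TAdj a c ∧ c ∉ U) y z := by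
      clear h1
      induction h2 with
      | refl => exact ⟨hy, .refl⟩
      | tail _ h ih =>
        have k := (f2 _).2 (ri_step ((f2 _).1 ih.1) h.1 h.2)
        exact ⟨k, .tail ih.2 ⟨h.1, k⟩⟩
    exact this.2
  have f5 : ∀ y ∈ U, ∀ o ∉ U, TAdj y o → y ∈ S ∧ ¬ (p.1 o = p.1 y ∧ p.2 o = p.2 y) :=
    fun y hy o ho h => by
      have k : y ∈ S := by_contra fun k => (f2 y).2 (ri_step ((f2 o).1 ho) h.symm k) hy
      exact ⟨k, fun k' => ho (f3 o (.head ⟨h.symm, k'⟩ k))⟩
  refine ⟨par_ex f4 fun y hy o ho o' ho' h1 h2 h3 => ?_, fun s hs => ?_⟩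
  · have a1 := (f5 y hy o ho h1).2
    have a2 := (f5 y hy o' ho' h2).2
    have a3 := ok y o h1
    have a4 := ok y o' h2
    have a5 := ok o o' h3
    revert a1 a2 a3 a4 a5
    generalize p.1 y = b1, p.2 y = b2, p.1 o = b3, p.2 o = b4, p.1 o' = b5, p.2 o' = b6
    revert b1 b2 b3 b4 b5 b6
    decide
  · obtain ⟨y, hy, hm⟩ := U.exists_max_image Prod.fst ⟨x, f3 x .refl⟩
    have ha : TAdj y (y.1 + 1, y.2) := .inl rfl
    have ho : (y.1 + 1, y.2) ∉ U := fun k => by
      have := hm _ k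
      simp only at this
      omega
    obtain ⟨a1, a2⟩ := f5 y hy _ ho ha
    have a3 := ok _ _ ha
    have a4 := (hs.2 _ _ ha hy).trans (hs.1 _ ho)
    have a5 : ∀ z, Relation.ReflTransGen (ri_C p) z x → s z = s x := fun z hz => by
      induction hz using Relation.ReflTransGen.head_induction_on with
      | refl => rfl
      | head h1 h2 ih => exact (par_edge hs h1.1 (.inr (f3 _ h2))).trans ih
    rw [a5 y a1] at a4
    rw [(ri_val a1).1, (ri_val a1).2] at a2 a3
    change xor (s x) (p.2 x) = _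
    rw [a4]
    revert a2 a3
    generalize p.1 x = b1, p.2 x = b2, p.1 (y.1 + 1, y.2) = b3, p.2 (y.1 + 1, y.2) = b4
    revert b1 b2 b3 b4
    decide

theorem ri_le {D N : Finset Pt} (hD : Ray D) (h : D ⊆ N) (x : Pt) (b : Bool) :
    J D N {p | x ∉ Wd D p ∧ p.1 x = b} ≤ J D N {p | x ∉ Wd D p ∧ p.1 x = !b} := by
  let φ : Col × Col → Col × Col := fun p =>
    if k : ∃ s, Par (ri_U D (ri_C p) x) p s then rf k.choose p else p
  have key : ∀ p ∈ cfg D N, x ∉ Wd D p → ∃ s, Par (ri_U D (ri_C p) x) p s ∧ φ p = rf s p :=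
    fun p hp hx => ⟨_, (ri_main hD hp hx).1.choose_spec, dif_pos (ri_main hD hp hx).1⟩
  refine J_inj φ (fun p hp hG => ?_) fun p hp hG p' hp' hG' e => ?_
  · obtain ⟨s, hs, e⟩ := key p hp hG.1
    rw [e]
    refine ⟨rf_cfg (filter_subset _ _) ((filter_subset _ _).trans h) hs hp, ?_,
      ((ri_main hD hp hG.1).2 s hs).trans (congrArg _ hG.2)⟩
    rintro ⟨y, h1, h2⟩
    change Relation.ReflTransGen (ri_C (rf s p)) y x at h2
    rw [ri_rf hs] at h2
    exact hG.1 ⟨y, h1, h2⟩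
  · obtain ⟨s, hs, e1⟩ := key p hp hG.1
    obtain ⟨s', hs', e2⟩ := key p' hp' hG'.1
    rw [e1, e2] at e
    have e3 : ri_C p = ri_C p' := by rw [← ri_rf hs, e, ri_rf hs']
    rw [← e3] at hs'
    exact rf_inj hs hs' e

theorem meanI {D N : Finset Pt} (hD : Ray D) (h : D ⊆ N) (x : Pt) :
    J D N {p | p.1 x = true} - J D N {p | p.1 x = false} = J D N {p | x ∈ Wd D p} := by
  have hW : ∀ p ∈ cfg D N, x ∈ Wd D p → p.1 x = true := fun p hp ⟨y, h1, h2⟩ =>
    (ri_val (p := p) h2).1.symm.trans ((mem_cfg.1 hp).1 y h1)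
  have e1 : J D N {p | p.1 x = true} =
      J D N ({p | x ∈ Wd D p} ∪ {p | x ∉ Wd D p ∧ p.1 x = true}) :=
    le_antisymm (J_mono fun p _ k => (em (x ∈ Wd D p)).imp id fun k' => ⟨k', k⟩)
      (J_mono fun p hp k => k.elim (hW p hp) fun k' => k'.2)
  have e2 : J D N {p | p.1 x = false} = J D N {p | x ∉ Wd D p ∧ p.1 x = false} :=
    le_antisymm (J_mono fun p hp k => ⟨fun k' => Bool.noConfusion ((hW p hp k').symm.trans k), k⟩)
      (J_mono fun p _ k => k.2)
  have e3 : J D N {p | x ∉ Wd D p ∧ p.1 x = true} = J D N {p | x ∉ Wd D p ∧ p.1 x = false} :=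
    le_antisymm (ri_le hD h x true) (ri_le hD h x false)
  rw [e1, e2, J_add (Set.disjoint_left.2 fun p k k' => k'.1 k), e3]
  ring

end Vale.Agent.P153L
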