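import Vale.Agent.P153L.Ref

/-! The global reflection. For `p ∈ cfg D N` let `U p = D.filter (· ∉ Wd D p)`; sites off `D` are in `Wd`; `p.1` is true on `Wd`.
`Ray (U p)`: follow the constant path back to the outside of `D`, then `Ray D`. `hU`: if `p.2 o ≠ p.2 o'` then either
`p.1 y` is true and `y` joins `Wd` through `o` or `o'`, or `p.1 y` is false and `p.2 y` equals both.
`Wd D (rf s p) = Wd D p` (an edge from `Wd` to `U` is not constant after the reflection; paths of `Wd` stay in `Wd`), so with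
`φ p = rf (choose s) p`, `φ p = φ p'` gives `U p = U p'` and `rf_inj`. An edge with different `p.1` has an end in `U`,
so `(φ p).2` differs on it. Use `J_inj`. -/

open Finset Filter Topology
open scoped Classical

noncomputable section

namespace Vale.Agent.P153L

open P152.GL

/-- The region which is reflected. -/
def rjU (D : Finset Pt) (p : Col × Col) : Finset Pt := D.filter (· ∉ Wd D p)

variable {D N : Finset Pt} {p : Col × Col} {s : Col} {x : Pt}

theorem rj_mono {r r' : Pt → Pt → Prop} (h : ∀ a c, r a c → r' a c) {x y : Pt}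
    (hr : Relation.ReflTransGen r x y) : Relation.ReflTransGen r' x y := by
  induction hr with
  | refl => exact .refl
  | tail _ h2 ih => exact ih.tail (h _ _ h2)

theorem rj_out (h : x ∉ D) : x ∈ Wd D p := ⟨x, h, .refl⟩

theorem rj_mem : x ∉ rjU D p ↔ x ∈ Wd D p := by
  rw [rjU, mem_filter]
  exact ⟨fun h => not_not.1 fun h1 => h ⟨not_not.1 fun h2 => h1 (rj_out h2), h1⟩,
    fun h h1 => h1.2 h⟩

theorem rj_step {c : Pt} (h : x ∈ Wd D p) (ha : TAdj x c) (h1 : p.1 x = p.1 c)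
    (h2 : p.2 x = p.2 c) : c ∈ Wd D p := by
  obtain ⟨y, hy, hp⟩ := h
  exact ⟨y, hy, hp.tail ⟨ha, h1, h2⟩⟩

theorem rj_true (hp : p ∈ cfg D N) (h : x ∈ Wd D p) : p.1 x = true := by
  obtain ⟨y, hy, hr⟩ := h
  induction hr with
  | refl => exact (mem_cfg.1 hp).1 y hy
  | tail _ h2 ih => exact h2.2.1 ▸ ih

theorem rj_ray (hD : Ray D) (p : Col × Col) : Ray (rjU D p) := by
  intro x hx m
  obtain ⟨y, hy, hr⟩ := rj_mem.1 hx
  obtain ⟨z, hz, hr'⟩ := hD y hy m
  refine ⟨z, hz, Relation.ReflTransGen.trans (b := y) ?_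
    (rj_mono (fun a c h => ⟨h.1, fun h1 => h.2 (mem_filter.1 h1).1⟩) hr')⟩
  clear hx
  induction hr with
  | refl => exact .refl
  | tail h1 h2 ih => exact .head ⟨h2.1.symm, rj_mem.2 ⟨y, hy, h1⟩⟩ ih

theorem rj_par (hD : Ray D) (hp : p ∈ cfg D N) : ∃ s, Par (rjU D p) p s := by
  refine par_ex (rj_ray hD p) fun y hy o ho o' ho' a1 a2 _ => ?_
  have b1 := rj_true hp (rj_mem.1 ho)
  have b2 := rj_true hp (rj_mem.1 ho')
  refine ⟨b1.trans b2.symm, ?_⟩
  have c1 : ¬(p.1 o = p.1 y ∧ p.2 o = p.2 y) := fun h =>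
    rj_mem.2 (rj_step (rj_mem.1 ho) a1.symm h.1 h.2) hy
  have c2 : ¬(p.1 o' = p.1 y ∧ p.2 o' = p.2 y) := fun h =>
    rj_mem.2 (rj_step (rj_mem.1 ho') a2.symm h.1 h.2) hy
  have d1 := (mem_cfg.1 hp).2.2 y trivial o trivial a1
  have d2 := (mem_cfg.1 hp).2.2 y trivial o' trivial a2
  rw [b1] at c1 d1
  rw [b2] at c2 d2
  revert c1 c2 d1 d2
  cases p.1 y <;> cases p.2 y <;> cases p.2 o <;> cases p.2 o' <;> simp

theorem rj_wd (h : Par (rjU D p) p s) : Wd D (rf s p) = Wd D p := by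
  ext x
  constructor
  · rintro ⟨y, hy, hr⟩
    induction hr with
    | refl => exact rj_out hy
    | @tail a c _ h2 ih =>
      by_cases hc : c ∈ rjU D p
      · have e := par_edge h h2.1 (.inr hc)
        have a1 := h2.2.1
        have a2 := h2.2.2
        simp only [rf, e, Bool.xor_right_inj] at a1 a2
        exact rj_step ih h2.1 a2 a1
      · exact rj_mem.1 hc
  · rintro ⟨y, hy, hr⟩
    induction hr with
    | refl => exact rj_out hy
    | @tail a c h1 h2 ih =>
      have ha : a ∈ Wd D p := ⟨y, hy, h1⟩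
      have a1 := rf_off h (rj_mem.2 ha)
      have a2 := rf_off h (rj_mem.2 (rj_step ha h2.1 h2.2.1 h2.2.2))
      exact rj_step ih h2.1 (a1.1.trans (h2.2.1.trans a2.1.symm))
        (a1.2.trans (h2.2.2.trans a2.2.symm))

theorem armJ {D N : Finset Pt} (hD : Ray D) (h : D ⊆ N) (S R : Finset Pt) :
    J D N (Prod.fst ⁻¹' TArm S R) ≤ J D N (Prod.snd ⁻¹' TArm S R) := by
  have key : ∀ p : Col × Col, ∃ s, p ∈ cfg D N → Par (rjU D p) p s := fun p => by
    by_cases hp : p ∈ cfg D N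
    · exact (rj_par hD hp).imp fun _ a _ => a
    · exact ⟨tt, fun a => absurd a hp⟩
  choose σ hσ using key
  refine J_inj (fun p => rf (σ p) p) (fun p hp hG => ⟨?_, ?_⟩) fun p hp _ p' hp' _ e => ?_
  · exact rf_cfg (filter_subset _ _) ((filter_subset _ _).trans h) (hσ p hp) hp
  · obtain ⟨x, hx, y, hy, hr⟩ := hG
    refine ⟨x, hx, y, hy, rj_mono (fun a c hac => ⟨hac.1, fun e => hac.2 ?_⟩) hr⟩
    have h1 : a ∈ rjU D p ∨ c ∈ rjU D p := by
      by_contra h2
      rw [not_or] at h2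
      exact hac.2 ((rj_true hp (rj_mem.1 h2.1)).trans (rj_true hp (rj_mem.1 h2.2)).symm)
    simpa only [rf, par_edge (hσ p hp) hac.1 h1, Bool.xor_right_inj] using e
  · have e1 : rjU D p = rjU D p' := by
      have e' : rf (σ p) p = rf (σ p') p' := e
      rw [rjU, rjU, ← rj_wd (hσ p hp), ← rj_wd (hσ p' hp'), e']
    exact rf_inj (hσ p hp) (e1 ▸ hσ p' hp') e

end Vale.Agent.P153L
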