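import Vale.Agent.P153L.BasJ
import Vale.Agent.P153L.Poi

/-! Reflections. `par_ex`: `poinc` over `ZMod 2` with `π x = xor r b` (as 0, 1) and
`η x y = 0` if `x, y ∉ U`, else `π x - π y`; closedness in a triangle with exactly one end in `U` is `hU`;
put `s = π + g`. `par_uq`: walk to the right from `x ∈ U` until the exit (induction on the number of steps,
`U` is finite). -/

open Finset Filter Topology
open scoped Classical

noncomputable section

namespace Vale.Agent.P153L

open P152.GL

variable {U : Finset Pt} {p : Col × Col} {s s' : Col}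

theorem par_ex (hR : Ray U)
    (hU : ∀ y ∈ U, ∀ o ∉ U, ∀ o' ∉ U, TAdj y o → TAdj y o' → TAdj o o' →
      p.1 o = p.1 o' ∧ p.2 o = p.2 o') : ∃ s, Par U p s := by
  obtain ⟨π, hπ⟩ : ∃ π : Pt → ZMod 2, π = fun x => if xor (p.1 x) (p.2 x) = true then 1 else 0 :=
    ⟨_, rfl⟩
  have h0 : ∀ y ∈ U, ∀ o ∉ U, ∀ o' ∉ U, TAdj y o → TAdj y o' → TAdj o o' → π o = π o' :=
    fun y a o b o' c d e f => by
      simp only [hπ, (hU y a o b o' c d e f).1, (hU y a o b o' c d e f).2]
  obtain ⟨g, h1, h2⟩ := poinc (fun x y => if x ∉ U ∧ y ∉ U then 0 else π x - π y) hR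
    (fun x y _ => by
      by_cases a : x ∈ U <;> by_cases b : y ∈ U <;> simp [a, b])
    (fun x y z a b c => by
      by_cases hx : x ∈ U <;> by_cases hy : y ∈ U <;> by_cases hz : z ∈ U <;>
        simp only [hx, hy, hz, not_true, not_false_eq_true, and_self, and_true, and_false,
          if_true, if_false, sub_add_sub_cancel, add_zero, zero_add]
      · rw [h0 x hx y hy z hz a c b]
      · rw [h0 y hy x hx z hz a.symm b c, sub_self]
      · rw [h0 z hz x hx y hy c.symm b.symm a])
    fun x a y b _ => if_pos ⟨a, b⟩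
  refine ⟨fun x => decide (π x + g x = 1), fun x hx => ?_, fun x y a hx => ?_⟩
  · simp only [h2 x hx, hπ, add_zero]
    cases xor (p.1 x) (p.2 x) <;> simp
  · have h3 := h1 x y a
    rw [if_neg fun h => h.1 hx] at h3
    simp only [show π x + g x = π y + g y by linear_combination -h3]

theorem par_uq (h : Par U p s) (h' : Par U p s') : s = s' := by
  obtain ⟨m, hm⟩ := (U.image Prod.fst).bddAbove
  have h1 : ∀ n : ℕ, ∀ x : Pt, m - x.1 < n → s x = s' x := by
    intro n
    induction n with
    | zero =>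
      intro x hx
      have a : x ∉ U := fun a => by
        have := hm (mem_coe.2 (mem_image_of_mem Prod.fst a))
        omega
      rw [h.1 x a, h'.1 x a]
    | succ n ih =>
      intro x hx
      by_cases a : x ∈ U
      · rw [h.2 x _ (Or.inl rfl) a, h'.2 x _ (Or.inl rfl) a]
        exact ih _ (by simp only []; omega)
      · rw [h.1 x a, h'.1 x a]
  exact funext fun x => h1 ((m - x.1).toNat + 1) x (by omega)

theorem par_edge (h : Par U p s) {x y : Pt} (ha : TAdj x y) (hx : x ∈ U ∨ y ∈ U) : s x = s y := by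
  exact hx.elim (h.2 x y ha) fun hy => (h.2 y x ha.symm hy).symm

theorem rf_off (h : Par U p s) {x : Pt} (hx : x ∉ U) :
    (rf s p).1 x = p.1 x ∧ (rf s p).2 x = p.2 x := by
  simp only [rf, h.1 x hx]
  cases p.1 x <;> cases p.2 x <;> simp

theorem rf_rf (s : Col) (p : Col × Col) : rf s (rf s p) = p := by
  refine Prod.ext (funext fun x => ?_) (funext fun x => ?_) <;> simp [rf]

theorem par_rf (h : Par U p s) : Par U (rf s p) s := by
  exact ⟨fun x hx => by rw [(rf_off h hx).1, (rf_off h hx).2, h.1 x hx], h.2⟩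

theorem rf_cfg {D N : Finset Pt} (hD : U ⊆ D) (hN : U ⊆ N) (h : Par U p s) (hp : p ∈ cfg D N) :
    rf s p ∈ cfg D N := by
  obtain ⟨h1, h2, h3⟩ := mem_cfg.1 hp
  refine mem_cfg.2 ⟨fun x hx => (rf_off h fun a => hx (hD a)).1.trans (h1 x hx),
    fun x hx => (rf_off h fun a => hx (hN a)).2.trans (h2 x hx), fun x _ y _ a => ?_⟩
  have h4 := h3 x trivial y trivial a
  by_cases b : x ∈ U ∨ y ∈ U
  · simp only [rf, par_edge h a b]
    exact h4.symm.imp (congrArg _) (congrArg _)
  · rw [not_or] at b
    rw [(rf_off h b.1).1, (rf_off h b.1).2, (rf_off h b.2).1, (rf_off h b.2).2]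
    exact h4

/-- Injectivity of a reflection whose region is preserved. -/
theorem rf_inj {p' : Col × Col} (h : Par U p s) (h' : Par U p' s') (e : rf s p = rf s' p') :
    p = p' := by
  have h1 := par_uq (e ▸ par_rf h) (par_rf h')
  rw [← rf_rf s p, e, h1, rf_rf]

end Vale.Agent.P153L
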