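import Vale.Agent.P153L.W1

/-! The weight is a product of two cardinalities of subspaces. Map `b` to `g x = if b x then 0 else 1`.
A compatible `g` (changes only along edges with equal `r`) splits: the form `η x y = g y - g x` if
`r x = r y = true`, else `0`, is closed (in a triangle with two true ends `x, y` and a false end `z`, `g x = g z = g y`),
`poinc` gives `g₁ ∈ sub N true r`, and `g - g₁ ∈ sub N false r`. The sum is direct: an element of both has
no change along any edge, so (`Ray`, or just walk to the right) it vanishes.
`sub_card`: `Submodule.finrank_sup_add_finrank_inf_eq` and `Nat.card = 2 ^ finrank`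
(`Module.natCard_eq_pow_finrank`), or a counting of the map `U × U' → U ⊔ U'`. -/

open Finset Filter Topology
open scoped Classical

noncomputable section

namespace Vale.Agent.P153L

open P152.GL

theorem W0_dec (a b : ZMod 2) : (decide (a = 0) = decide (b = 0)) ↔ a = b := by
  revert a b; decide

theorem W0_ite (c : Bool) : decide ((if c = true then (0 : ZMod 2) else 1) = 0) = c := by
  cases c <;> decide

theorem W0_zero {N : Finset Pt} {g : Pt → ZMod 2} (h0 : ∀ x ∉ N, g x = 0)
    (h : ∀ x y, TAdj x y → g x = g y) : g = 0 := by
  funext x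
  by_contra hx
  have hk : ∀ k : ℕ, g (x.1 + k, x.2) = g x := by
    intro k
    induction k with
    | zero => simp
    | succ k ih =>
      rw [← ih]
      refine (h _ _ (Or.inl ?_)).symm
      ext <;> simp [add_assoc]
  have hm : ∀ k : ℕ, ((x.1 + k, x.2) : Pt) ∈ (N : Set Pt) := by
    intro k
    by_contra hn
    exact hx ((hk k).symm.trans (h0 _ hn))
  refine Set.infinite_of_injective_forall_mem (f := fun k : ℕ => ((x.1 + k, x.2) : Pt)) ?_ hm
    N.finite_toSet
  intro a b hab
  have := congrArg Prod.fst hab
  simpa using this

theorem W0_mem {N : Finset Pt} {r : Col} (p : sub N true r × sub N false r) :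
    (fun x => decide (p.1.1 x + p.2.1 x = 0) : Col) ∈ cmp N Set.univ r := by
  obtain ⟨⟨a, ha⟩, ⟨b, hb⟩⟩ := p
  refine mem_cmp.2 ⟨fun x hx => ?_, fun x _ y _ hxy => ?_⟩
  · simp [ha.1 x hx, hb.1 x hx]
  · rcases ha.2 x y hxy with h | h
    · exact .inl (h.1.trans h.2.symm)
    · rcases hb.2 x y hxy with h' | h'
      · exact .inl (h'.1.trans h'.2.symm)
      · exact .inr (by simp only [h, h'])

theorem W0_split {N : Finset Pt} (hN : Ray N) {r : Col} {g : Pt → ZMod 2}
    (h0 : ∀ x ∉ N, g x = 0) (h : ∀ x y, TAdj x y → r x = r y ∨ g x = g y) :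
    ∃ a ∈ sub N true r, ∃ b ∈ sub N false r, g = a + b := by
  obtain ⟨a, ha, ha0⟩ := poinc
    (fun x y => if r x = true ∧ r y = true then g y - g x else 0) hN
    (fun x y _ => by
      by_cases hx : r x = true <;> by_cases hy : r y = true <;> simp [hx, hy])
    (fun x y z hxy hyz hxz => by
      have e1 := h x y hxy
      have e2 := h y z hyz
      have e3 := h x z hxz
      cases hx : r x <;> cases hy : r y <;> cases hz : r z <;>
        simp only [hx, hy, hz] at e1 e2 e3 <;> simp_all)
    (fun x hx y hy _ => by simp [h0 x hx, h0 y hy])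
  refine ⟨a, ⟨ha0, fun x y hxy => ?_⟩, g - a, ⟨fun x hx => ?_, fun x y hxy => ?_⟩, by simp⟩
  · by_cases hc : r x = true ∧ r y = true
    · exact .inl hc
    · have := ha x y hxy
      simp only [hc, if_false] at this
      exact .inr (sub_eq_zero.1 this).symm
  · simp [h0 x hx, ha0 x hx]
  · have e := ha x y hxy
    have e1 := h x y hxy
    by_cases hc : r x = true ∧ r y = true
    · simp only [hc, and_self, if_true] at e
      refine .inr ?_
      simp only [Pi.sub_apply]
      linear_combination e
    · simp only [hc, if_false] at e
      rcases e1 with e1 | e1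
      · left
        cases hx : r x
        · exact ⟨rfl, by rw [← e1, hx]⟩
        · exact absurd ⟨hx, by rw [← e1, hx]⟩ hc
      · refine .inr ?_
        simp only [Pi.sub_apply]
        linear_combination e + e1

theorem w_eq {N : Finset Pt} (hN : Ray N) (r : Col) :
    w N r = Nat.card (sub N true r) * Nat.card (sub N false r) := by
  let F : sub N true r × sub N false r → cmp N Set.univ r := fun p => ⟨_, W0_mem p⟩
  have hF : Function.Bijective F := by
    constructor
    · rintro ⟨⟨a, ha⟩, ⟨b, hb⟩⟩ ⟨⟨a', ha'⟩, ⟨b', hb'⟩⟩ hp
      have e : ∀ x, a x + b x = a' x + b' x := fun x =>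
        (W0_dec _ _).1 (congrFun (congrArg Subtype.val hp) x)
      have hd := (sub N true r).sub_mem ha ha'
      have hd' := (sub N false r).sub_mem hb' hb
      have e' : a - a' = b' - b := by
        funext x
        simp only [Pi.sub_apply]
        linear_combination e x
      have hz : a - a' = 0 := by
        refine W0_zero hd.1 fun x y hxy => ?_
        rcases hd.2 x y hxy with h | h
        · rcases hd'.2 x y hxy with h' | h'
          · exact absurd (h.1.symm.trans h'.1) (by decide)
          · rw [e']; exact h'
        · exact h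
      have h1 : a = a' := sub_eq_zero.1 hz
      have h2 : b' = b := sub_eq_zero.1 (e'.symm.trans hz)
      subst h1 h2
      rfl
    · rintro ⟨c, hc⟩
      obtain ⟨hc0, hc1⟩ := mem_cmp.1 hc
      obtain ⟨a, ha, b, hb, e⟩ := W0_split hN (r := r)
        (g := fun x => if c x = true then (0 : ZMod 2) else 1)
        (fun x hx => by simp [hc0 x hx])
        (fun x y hxy => (hc1 x trivial y trivial hxy).imp_right fun h => by simp only [h])
      refine ⟨(⟨a, ha⟩, ⟨b, hb⟩), Subtype.ext (funext fun x => ?_)⟩
      have := congrFun e x
      simp only [Pi.add_apply] at this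
      change decide (a x + b x = 0) = c x
      rw [← this]
      exact W0_ite _
  have hc := Nat.card_eq_of_bijective F hF
  rw [Nat.card_prod, Nat.card_eq_finsetCard] at hc
  unfold w
  rw [← hc]
  push_cast
  rfl

end Vale.Agent.P153L
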