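import Vale.Agent.P153L.Bas
import Vale.Agent.P153L.Poi

/-! The weight is a product of two cardinalities of subspaces. Map `b` to `g x = if b x then 0 else 1`.
A compatible `g` (changes only along edges with equal `r`) splits: the form `η x y = g y - g x` if
`r x = r y = true`, else `0`, is closed (in a triangle with two true ends `x, y` and a false end `z`, `g x = g z = g y`),
`poinc` gives `g₁ ∈ sub N true r`, and `g - g₁ ∈ sub N false r`. The sum is direct: an element of both has
no change along any edge, so (`Ray`, or just walk to the right) it vanishes.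
`sub_card`: `Submodule.finrank_sup_add_finrank_inf_eq` and `Nat.card = 2 ^ finrank`
(`Module.natCard_eq_pow_finrank`), or a counting of the map `U × U' → U ⊔ U'`. -/

open Finset Filter Topology
open scoped Classical

noncomputable section

namespace Vale.Agent.P153L

open P152.GL

/-- Functions supported in `N` changing only along edges with two ends of colour `s`. -/
def sub (N : Finset Pt) (s : Bool) (r : Col) : Submodule (ZMod 2) (Pt → ZMod 2) where
  carrier := {g | (∀ x ∉ N, g x = 0) ∧ ∀ x y, TAdj x y → (r x = s ∧ r y = s) ∨ g x = g y}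
  add_mem' := fun {a b} ha hb => ⟨fun x hx => by simp [ha.1 x hx, hb.1 x hx], fun x y h =>
    (ha.2 x y h).elim .inl fun e => (hb.2 x y h).imp_right fun e' => by simp [e, e']⟩
  zero_mem' := ⟨fun _ _ => rfl, fun _ _ _ => .inr rfl⟩
  smul_mem' := fun c a ha => ⟨fun x hx => by simp [ha.1 x hx], fun x y h =>
    (ha.2 x y h).imp_right fun e => by simp [e]⟩

theorem sub_fin (N : Finset Pt) (s : Bool) (r : Col) : Finite (sub N s r) := by
  refine Finite.of_injective (fun g : sub N s r => fun x : N => g.1 x.1) fun g g' h => ?_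
  refine Subtype.ext (funext fun x => ?_)
  by_cases hx : x ∈ N
  · exact congrFun h ⟨x, hx⟩
  · rw [g.2.1 x hx, g'.2.1 x hx]

theorem W1_fin {U B : Submodule (ZMod 2) (Pt → ZMod 2)} [Finite B] (h : U ≤ B) : Finite U :=
  Finite.of_injective _ (Submodule.inclusion_injective h)

theorem W1_le {U B : Submodule (ZMod 2) (Pt → ZMod 2)} [Finite B] (h : U ≤ B) :
    Nat.card U ≤ Nat.card B :=
  Nat.card_le_card_of_injective _ (Submodule.inclusion_injective h)

theorem sub_card {U U' A B : Submodule (ZMod 2) (Pt → ZMod 2)} [Finite A] [Finite B]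
    (h1 : U ⊓ U' ≤ A) (h2 : U ⊔ U' ≤ B) :
    Nat.card U * Nat.card U' ≤ Nat.card A * Nat.card B := by
  have := W1_fin (le_sup_left.trans h2)
  have := W1_fin (le_sup_right.trans h2)
  have := W1_fin h1
  have := W1_fin h2
  refine le_trans (le_of_eq ?_) (Nat.mul_le_mul (W1_le h1) (W1_le h2))
  rw [Module.natCard_eq_pow_finrank (K := ZMod 2) (V := U),
    Module.natCard_eq_pow_finrank (K := ZMod 2) (V := U'),
    Module.natCard_eq_pow_finrank (K := ZMod 2) (V := ↥(U ⊓ U')),
    Module.natCard_eq_pow_finrank (K := ZMod 2) (V := ↥(U ⊔ U')), ← pow_add, ← pow_add,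
    ← Submodule.finrank_sup_add_finrank_inf_eq, add_comm]

end Vale.Agent.P153L
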