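import Vale.Agent.P153L.W0

/-! Lattice conditions and positive association. `w_lat`: `sub_card` for the true parts (inf in `r ⊓ r'`, sup in
`r ⊔ r'`) and for the false parts (the other way). `w_lat'`: if `r'` is true outside `M` then
`sub N false r' = sub M false r'` by `Ray M` (walk to infinity outside `M`, beyond `N`), same for `r ⊔ r'`.
`holley`, `fkg`: Mathlib `four_functions_theorem` on the lattice `Col` with the finsets `ext D ξ`, `ext D ξ'`
(`ext D ξ ⊼ ext D ξ' ⊆ ext D ξ`, `⊻ ⊆ ext D ξ'`); put indicators of the finsets in the functions; first shift `f`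
by a constant to make it nonnegative on the finsets, or use `max (f + c) 0`. -/

open Finset Filter Topology
open scoped Classical

noncomputable section

namespace Vale.Agent.P153L

open P152.GL

theorem w2_mono {M N : Finset Pt} (h : M ⊆ N) {s : Bool} {r r' : Col}
    (hr : ∀ x, r x = s → r' x = s) : sub M s r ≤ sub N s r' := fun _ hg =>
  ⟨fun x hx => hg.1 x fun c => hx (h c), fun x y e =>
    (hg.2 x y e).imp_left fun c => ⟨hr x c.1, hr y c.2⟩⟩

theorem w2_inf {M N K : Finset Pt} (h : M ⊆ K) {s : Bool} {r r' t : Col}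
    (hr : ∀ x, r x = s → r' x = s → t x = s) : sub M s r ⊓ sub N s r' ≤ sub K s t := fun _ hg =>
  ⟨fun x hx => hg.1.1 x fun c => hx (h c), fun x y e =>
    (hg.1.2 x y e).elim (fun c => (hg.2.2 x y e).imp_left fun c' =>
      ⟨hr x c.1 c'.1, hr y c.2 c'.2⟩) .inr⟩

theorem w2_gen {M N : Finset Pt} (hM : Ray M) (hN : Ray N) (h : M ⊆ N) {r r' : Col}
    (hk : sub N false r' ≤ sub M false r') :
    w M r * w N r' ≤ w M (r ⊓ r') * w N (r ⊔ r') := by
  have := sub_fin M true (r ⊓ r')
  have := sub_fin M false (r ⊓ r')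
  have := sub_fin N true (r ⊔ r')
  have := sub_fin N false (r ⊔ r')
  have h1 := sub_card (U := sub M true r) (U' := sub N true r') (A := sub M true (r ⊓ r'))
    (B := sub N true (r ⊔ r')) (w2_inf Subset.rfl fun x a b => by simp [a, b])
    (sup_le (w2_mono h fun x a => by simp [a]) (w2_mono Subset.rfl fun x a => by simp [a]))
  have h2 := sub_card (U := sub M false r) (U' := sub N false r') (A := sub N false (r ⊔ r'))
    (B := sub M false (r ⊓ r')) (w2_inf h fun x a b => by simp [a, b])
    (sup_le (w2_mono Subset.rfl fun x a => by simp [a])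
      (hk.trans (w2_mono Subset.rfl fun x a => by simp [a])))
  have h3 := Nat.mul_le_mul h1 h2
  rw [w_eq hM, w_eq hN, w_eq hM, w_eq hN]
  norm_cast
  refine le_of_eq_of_le ?_ (le_of_le_of_eq h3 ?_) <;> ring

theorem w_lat {N : Finset Pt} (hN : Ray N) (r r' : Col) :
    w N r * w N r' ≤ w N (r ⊓ r') * w N (r ⊔ r') := by

  exact w2_gen hN hN Subset.rfl le_rfl

theorem w_lat' {M N : Finset Pt} (hM : Ray M) (hN : Ray N) (h : M ⊆ N) {r r' : Col}
    (hr : ∀ x ∉ M, r x = true) (hr' : ∀ x ∉ M, r' x = true) :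
    w M r * w N r' ≤ w M (r ⊓ r') * w N (r ⊔ r') := by

  have _ := hr
  refine w2_gen hM hN h fun g hg => ⟨fun x hx => ?_, hg.2⟩
  obtain ⟨y, hy, hp⟩ := hM x hx (N.sup fun z => z.1.natAbs + z.2.natAbs)
  have e : g x = g y := by
    clear hy
    induction hp with
    | refl => rfl
    | tail _ hc ih =>
      refine ih.trans ((hg.2 _ _ hc.1).resolve_left fun c => ?_)
      have := hr' _ hc.2
      rw [c.2] at this
      exact Bool.false_ne_true this
  rw [e]
  refine hg.1 y fun c => hy (mem_sqr.2 ?_)
  have := le_sup (f := fun z : Pt => z.1.natAbs + z.2.natAbs) c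
  simp only [abs_le]
  omega

end Vale.Agent.P153L
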