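import Vale.Agent.P153L.W2

/-! Lattice conditions and positive association. `w_lat`: `sub_card` for the true parts (inf in `r ⊓ r'`, sup in
`r ⊔ r'`) and for the false parts (the other way). `w_lat'`: if `r'` is true outside `M` then
`sub N false r' = sub M false r'` by `Ray M` (walk to infinity outside `M`, beyond `N`), same for `r ⊔ r'`.
`holley`, `fkg`: Mathlib `four_functions_theorem` on the lattice `Col` with the finsets `ext D ξ`, `ext D ξ'`
(`ext D ξ ⊼ ext D ξ' ⊆ ext D ξ`, `⊻ ⊆ ext D ξ'`); put indicators of the finsets in the functions; first shift `f`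
by a constant to make it nonnegative on the finsets, or use `max (f + c) 0`. -/

open Finset Filter Topology
open scoped Classical

noncomputable section

namespace Vale.Agent.P153L

open P152.GL

theorem W3_inf {D : Finset Pt} {ξ ξ' r r' : Col} (hξ : ξ ≤ ξ') (h : r ∈ ext D ξ) (h' : r' ∈ ext D ξ') :
    r ⊓ r' ∈ ext D ξ ∧ r ⊔ r' ∈ ext D ξ' := by
  rw [mem_ext] at h h'
  refine ⟨mem_ext.2 fun x hx => ?_, mem_ext.2 fun x hx => ?_⟩
  · rw [Pi.inf_apply, h x hx, h' x hx, inf_eq_left.2 (hξ x)]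
  · rw [Pi.sup_apply, h x hx, h' x hx, sup_eq_right.2 (hξ x)]

theorem W3_four {D : Finset Pt} {ξ ξ' : Col} (hξ : ξ ≤ ξ') {f₁ f₂ f₃ f₄ : Col → ℝ}
    (h₁ : ∀ r ∈ ext D ξ, 0 ≤ f₁ r) (h₂ : ∀ r ∈ ext D ξ', 0 ≤ f₂ r) (h₃ : ∀ r ∈ ext D ξ, 0 ≤ f₃ r)
    (h₄ : ∀ r ∈ ext D ξ', 0 ≤ f₄ r)
    (h : ∀ r ∈ ext D ξ, ∀ r' ∈ ext D ξ', f₁ r * f₂ r' ≤ f₃ (r ⊓ r') * f₄ (r ⊔ r')) :
    (∑ r ∈ ext D ξ, f₁ r) * ∑ r ∈ ext D ξ', f₂ r ≤ (∑ r ∈ ext D ξ, f₃ r) * ∑ r ∈ ext D ξ', f₄ r := by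
  have k : ∀ {s : Finset Col} {f : Col → ℝ}, (∀ r ∈ s, 0 ≤ f r) →
      ∀ r, 0 ≤ (if r ∈ s then f r else 0) := fun hf r => by
    split_ifs with hr
    exacts [hf r hr, le_rfl]
  have e : ∀ (s : Finset Col) (f : Col → ℝ), ∑ r ∈ s, (if r ∈ s then f r else 0) = ∑ r ∈ s, f r :=
    fun s f => sum_congr rfl fun r hr => if_pos hr
  have H := four_functions_theorem (fun r => if r ∈ ext D ξ then f₁ r else 0)
    (fun r => if r ∈ ext D ξ' then f₂ r else 0) (fun r => if r ∈ ext D ξ then f₃ r else 0)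
    (fun r => if r ∈ ext D ξ' then f₄ r else 0) (k h₁) (k h₂) (k h₃) (k h₄)
    (fun a b => by
      by_cases ha : a ∈ ext D ξ
      · by_cases hb : b ∈ ext D ξ'
        · rw [if_pos ha, if_pos hb, if_pos (W3_inf hξ ha hb).1, if_pos (W3_inf hξ ha hb).2]
          exact h a ha b hb
        · rw [if_neg hb, mul_zero]
          exact mul_nonneg (k h₃ _) (k h₄ _)
      · rw [if_neg ha, zero_mul]
        exact mul_nonneg (k h₃ _) (k h₄ _)) (ext D ξ) (ext D ξ')
  rw [e, e] at H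
  refine H.trans (mul_le_mul ?_ ?_ (sum_nonneg fun r _ => k h₄ r) (sum_nonneg h₃))
  · rw [← e (ext D ξ) f₃]
    refine sum_le_sum_of_subset_of_nonneg (fun r hr => ?_) fun r _ _ => k h₃ r
    obtain ⟨a, ha, b, hb, rfl⟩ := mem_infs.1 hr
    exact (W3_inf hξ ha hb).1
  · rw [← e (ext D ξ') f₄]
    refine sum_le_sum_of_subset_of_nonneg (fun r hr => ?_) fun r _ _ => k h₄ r
    obtain ⟨a, ha, b, hb, rfl⟩ := mem_sups.1 hr
    exact (W3_inf hξ ha hb).2

theorem W3_shift {f : Col → ℝ} (hf : Monotone f) (r : Col) : 0 ≤ f r + -f ⊥ := by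
  have := hf (bot_le (a := r))
  linarith

theorem holley {D M N : Finset Pt} {ξ ξ' : Col} (hξ : ξ ≤ ξ')
    (h : ∀ r ∈ ext D ξ, ∀ r' ∈ ext D ξ', w M r * w N r' ≤ w M (r ⊓ r') * w N (r ⊔ r'))
    {f : Col → ℝ} (hf : Monotone f) : ex D M ξ f ≤ ex D N ξ' f := by
  have H := W3_four (D := D) hξ (f₁ := fun r => w M r * (f r + -f ⊥)) (f₂ := w N) (f₃ := w M)
    (f₄ := fun r => w N r * (f r + -f ⊥)) (fun r _ => mul_nonneg w_pos.le (W3_shift hf r))
    (fun _ _ => w_pos.le) (fun _ _ => w_pos.le) (fun r _ => mul_nonneg w_pos.le (W3_shift hf r))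
    fun r hr r' hr' => by
      rw [mul_right_comm, ← mul_assoc]
      exact mul_le_mul (h r hr r' hr') (by linarith [hf (le_sup_left (a := r) (b := r'))]) (W3_shift hf r)
        (mul_nonneg w_pos.le w_pos.le)
  have H2 : ex D M ξ (fun r => f r + -f ⊥) ≤ ex D N ξ' fun r => f r + -f ⊥ := by
    unfold ex
    rw [div_le_div_iff₀ den_pos den_pos]
    linarith
  rw [ex_add, ex_add, ex_const, ex_const] at H2
  linarith

theorem fkg {D N : Finset Pt} (hN : Ray N) (ξ : Col) {f g : Col → ℝ} (hf : Monotone f)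
    (hg : Monotone g) : ex D N ξ f * ex D N ξ g ≤ ex D N ξ fun r => f r * g r := by
  have H := W3_four (D := D) (le_refl ξ) (f₁ := fun r => w N r * (f r + -f ⊥))
    (f₂ := fun r => w N r * (g r + -g ⊥)) (f₃ := w N)
    (f₄ := fun r => w N r * ((f r + -f ⊥) * (g r + -g ⊥)))
    (fun r _ => mul_nonneg w_pos.le (W3_shift hf r)) (fun r _ => mul_nonneg w_pos.le (W3_shift hg r))
    (fun _ _ => w_pos.le)
    (fun r _ => mul_nonneg w_pos.le (mul_nonneg (W3_shift hf r) (W3_shift hg r)))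
    fun r _ r' _ => by
      rw [mul_mul_mul_comm, ← mul_assoc (w N (r ⊓ r'))]
      exact mul_le_mul (w_lat hN r r')
        (mul_le_mul (by linarith [hf (le_sup_left (a := r) (b := r'))])
          (by linarith [hg (le_sup_right (a := r) (b := r'))]) (W3_shift hg r') (W3_shift hf _))
        (mul_nonneg (W3_shift hf r) (W3_shift hg r')) (mul_nonneg w_pos.le w_pos.le)
  have H2 : ex D N ξ (fun r => f r + -f ⊥) * ex D N ξ (fun r => g r + -g ⊥) ≤
      ex D N ξ fun r => (f r + -f ⊥) * (g r + -g ⊥) := by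
    unfold ex
    rw [div_mul_div_comm, div_le_div_iff₀ (mul_pos den_pos den_pos) den_pos]
    have := mul_le_mul_of_nonneg_right H (den_pos (D := D) (N := N) (ξ := ξ)).le
    linarith
  have e : (fun r => (f r + -f ⊥) * (g r + -g ⊥)) =
      fun r => (f r * g r + -g ⊥ * f r) + (-f ⊥ * g r + f ⊥ * g ⊥) := by
    funext r
    ring
  rw [e, ex_add, ex_add, ex_add, ex_add, ex_add, ex_smul, ex_smul, ex_const, ex_const, ex_const] at H2
  linarith

end Vale.Agent.P153L
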