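import Vale.Agent.P153L.L1
import Vale.Agent.P153L.Fac
import Vale.Agent.P152.A6Br

/-! Limits of expectations and of joint probabilities.
`tend_lex`: `f r = ∑ σ ∈ ext F tt, f σ * 1[r = σ on F]`, `ex_sum`.
`J_near`: `J_q`, `q_loc`, values in `[0, 1]`. `tend_lJ`: for `ε` take `S ⊆ sqr n`, `m` from `NoT`; along any family `J` is eventually within
`2 ε` of `lex (sqr m) (q ..)` (`dep_tarm`, `tarm_mono`); so along `fam_free` it is Cauchy (limit `lJ G`), and along any family it has the same limit.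
`lex_mix`: write `f` as a sum over `ext F tt` of indicators, `fld_lP.mix2` for each with `ε / 2 ^ #F / 2`; for `g` with values in `[0, 1]` and
an event `E`, `ex (1_E g) - lP E * ex g = ∑ σ, g σ * c σ` is bounded by the sum of the positive `c σ` (an event `E'`) and of the negative ones. -/

open Finset Filter Topology
open scoped Classical

noncomputable section

namespace Vale.Agent.P153L

open P152.GL

theorem x1_pt {F : Finset Pt} {f : Col → ℝ} (hf : DepF F f) (r : Col) :
    f r = ∑ σ ∈ ext F tt, f σ * Set.indicator {r : Col | ∀ x ∈ F, r x = σ x} 1 r := by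
  rw [sum_eq_single (fun x => if x ∈ F then r x else true)]
  · rw [Set.indicator_of_mem (by intro x hx; simp [hx]), Pi.one_apply, mul_one]
    exact hf _ _ fun x hx => by simp [mem_coe.1 hx]
  · intro σ hσ hne
    rw [Set.indicator_of_notMem, mul_zero]
    intro h
    refine hne (funext fun x => ?_)
    by_cases hx : x ∈ F
    · simp [hx, h x hx]
    · simp [hx, mem_ext.1 hσ x hx, tt]
  · intro h
    exact absurd (mem_ext.2 fun x hx => by simp [hx, tt]) h

theorem tend_lex {ι : Type} {𝓕 : Filter ι} {D N : ι → Finset Pt} (h : Fam 𝓕 D N) {F : Finset Pt}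
    {f : Col → ℝ} (hf : DepF F f) :
    Tendsto (fun i => ex (D i) (N i) tt f) 𝓕 (𝓝 (lex F f)) := by
  have e : ∀ i, ex (D i) (N i) tt f =
      ∑ σ ∈ ext F tt, f σ * nu (D i) (N i) tt {r : Col | ∀ x ∈ F, r x = σ x} := by
    intro i
    rw [ex_congr fun r _ => x1_pt hf r, ex_sum]
    exact sum_congr rfl fun σ _ => ex_smul _
  simp only [e]
  refine tendsto_finset_sum _ fun σ _ => (h.1 _ ⟨F, ?_⟩).const_mul _
  exact fun X Y e hX x hx => (e x hx).symm.trans (hX x hx)

theorem J_near {D N S R : Finset Pt} (hS : S ⊆ R) (hR : R ⊆ N) {G : Set (Col × Col)}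
    (hG : Dep2 S G) :
    |J D N G - ex D N tt fun r => q R R r G| ≤ nu D N tt (TArm S R) := by
  have key : ∀ r : Col, |q N Set.univ r G - q R R r G| ≤ (TArm S R).indicator 1 r := by
    intro r
    by_cases hr : r ∈ TArm S R
    · rw [Set.indicator_of_mem hr, Pi.one_apply, abs_le]
      have h1 := q_nonneg (A := N) (T := Set.univ) (r := r) G
      have h2 := q_le_one (A := N) (T := Set.univ) (r := r) G
      have h3 := q_nonneg (A := R) (T := R) (r := r) G
      have h4 := q_le_one (A := R) (T := R) (r := r) G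
      constructor <;> linarith
    · rw [Set.indicator_of_notMem hr, q_loc hS hR hr hG, sub_self, abs_zero]
  rw [J_q, abs_sub_le_iff, ← ex_sub, ← ex_sub]
  exact ⟨ex_mono fun r _ => (abs_sub_le_iff.1 (key r)).1,
    ex_mono fun r _ => (abs_sub_le_iff.1 (key r)).2⟩

theorem x1_key (hT : NoT) {S : Finset Pt} {G : Set (Col × Col)} (hG : Dep2 S G) {ε : ℝ}
    (hε : 0 < ε) : ∃ L : ℝ, ∀ (ι : Type) (𝓕 : Filter ι) (D N : ι → Finset Pt), Fam 𝓕 D N →
      ∀ᶠ i in 𝓕, |J (D i) (N i) G - L| ≤ ε := by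
  obtain ⟨n, hn⟩ := ex_sqr S
  obtain ⟨m, hm, h⟩ := hT n (ε / 4) (by positivity)
  have hs : sqr n ⊆ sqr m := fun _ e => a5l_sub hm e
  have hG' : Dep2 (sqr n) G := fun p p' e => hG p p' fun x hx => e x (hn hx)
  refine ⟨lex (sqr m) fun r => q (sqr m) (sqr m) r G, fun ι 𝓕 D N hF => ?_⟩
  have h1 := (hF.1 _ ⟨_, dep_tarm hs⟩).eventually (gt_mem_nhds (a := ε / 2) (by linarith))
  have h2 := Metric.tendsto_nhds.1 (tend_lex hF (q_dep hs hG')) (ε / 2) (half_pos hε)
  filter_upwards [h1, h2, hF.2.eventually_ge_atTop (sqr m)] with i a b c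
  have h3 := J_near (D := D i) hs c hG'
  rw [Real.dist_eq] at b
  have h4 := abs_sub_le (J (D i) (N i) G) (ex (D i) (N i) tt fun r => q (sqr m) (sqr m) r G)
    (lex (sqr m) fun r => q (sqr m) (sqr m) r G)
  linarith

theorem tend_lJ (hT : NoT) {ι : Type} {𝓕 : Filter ι} {D N : ι → Finset Pt} (h : Fam 𝓕 D N)
    {S : Finset Pt} {G : Set (Col × Col)} (hG : Dep2 S G) :
    Tendsto (fun i => J (D i) (N i) G) 𝓕 (𝓝 (lJ G)) := by
  have hc : CauchySeq fun D : Finset Pt => J D (cl D) G := by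
    refine Metric.cauchySeq_iff.2 fun ε hε => ?_
    obtain ⟨L, hL⟩ := x1_key hT hG (ε := ε / 3) (by positivity)
    obtain ⟨V, hV⟩ := eventually_atTop.1 (hL _ _ _ _ fam_free)
    refine ⟨V, fun a ha b hb => ?_⟩
    have h1 := abs_le.1 (hV a ha)
    have h2 := abs_le.1 (hV b hb)
    rw [Real.dist_eq, abs_lt]
    constructor <;> linarith [h1.1, h1.2, h2.1, h2.2]
  obtain ⟨a, ha⟩ := cauchySeq_tendsto_of_complete hc
  have e : lJ G = a := ha.limUnder_eq
  rw [e]
  refine Metric.tendsto_nhds.2 fun ε hε => ?_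
  obtain ⟨L, hL⟩ := x1_key hT hG (ε := ε / 3) (by positivity)
  have h1 := abs_le.1 (le_of_tendsto (ha.sub_const L).abs (hL _ _ _ _ fam_free))
  filter_upwards [hL _ _ _ _ h] with i hi
  have h2 := abs_le.1 hi
  rw [Real.dist_eq, abs_lt]
  constructor <;> linarith [h1.1, h1.2, h2.1, h2.2]

end Vale.Agent.P153L
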