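import Vale.Agent.P153L.X1

/-! Limits of expectations and of joint probabilities.
`tend_lex`: `f r = ∑ σ ∈ ext F tt, f σ * 1[r = σ on F]`, `ex_sum`.
`J_near`: `J_q`, `q_loc`, values in `[0, 1]`. `tend_lJ`: for `ε` take `S ⊆ sqr n`, `m` from `NoT`; along any family `J` is eventually within
`2 ε` of `lex (sqr m) (q ..)` (`dep_tarm`, `tarm_mono`); so along `fam_free` it is Cauchy (limit `lJ G`), and along any family it has the same limit.
`lex_mix`: write `f` as a sum over `ext F tt` of indicators, `fld_lP.mix2` for each with `ε / 2 ^ #F / 2`; for `g` with values in `[0, 1]` and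
an event `E`, `ex (1_E g) - lP E * ex g = ∑ σ, g σ * c σ` is bounded by the sum of the positive `c σ` (an event `E'`) and of the negative ones. -/

open Finset Filter Topology
open scoped Classical

noncomputable section

namespace Vale.Agent.P153L

open P152.GL

/-- The projection to the colourings that are true outside `F`. -/
def x2_pr (F : Finset Pt) (r : Col) : Col := fun x => if x ∈ F then r x else true

/-- Cylinders. -/
def x2_cy (F : Finset Pt) (σ : Col) : Set Col := {r | ∀ x ∈ F, r x = σ x}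

theorem x2_mem (F : Finset Pt) (r : Col) : x2_pr F r ∈ ext F tt :=
  mem_ext.2 fun _ hx => if_neg hx

theorem x2_iff {F : Finset Pt} {σ : Col} (hσ : σ ∈ ext F tt) (r : Col) :
    r ∈ x2_cy F σ ↔ x2_pr F r = σ := by
  constructor
  · intro h
    funext x
    by_cases hx : x ∈ F
    · exact (if_pos hx).trans (h x hx)
    · exact (if_neg hx).trans (mem_ext.1 hσ x hx).symm
  · rintro rfl x hx
    exact (if_pos hx).symm

theorem x2_dep (F : Finset Pt) (σ : Col) : Dep F (x2_cy F σ) :=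
  fun _ _ e h x hx => (e x hx).symm.trans (h x hx)

theorem x2_depS (F : Finset Pt) (S : Finset Col) : Dep F {r | x2_pr F r ∈ S} := by
  intro X Y e h
  have : x2_pr F Y = x2_pr F X := funext fun x => by
    unfold x2_pr
    split_ifs with hx
    exacts [(e x hx).symm, rfl]
  rwa [Set.mem_setOf_eq, this]

theorem x2_dec {F : Finset Pt} {f : Col → ℝ} (hf : DepF F f) (r : Col) :
    f r = ∑ σ ∈ ext F tt, f σ * (x2_cy F σ).indicator 1 r := by
  rw [sum_eq_single_of_mem (x2_pr F r) (x2_mem F r) fun σ hσ hne => by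
      rw [Set.indicator_of_notMem fun h => hne ((x2_iff hσ r).1 h).symm, mul_zero],
    Set.indicator_of_mem ((x2_iff (x2_mem F r) r).2 rfl), Pi.one_apply, mul_one]
  exact hf _ _ fun x hx => (if_pos hx).symm

theorem x2_add {F : Finset Pt} {E : Set Col} (hE : Loc E) {S : Finset Col} (hS : S ⊆ ext F tt) :
    lP (E ∩ {r | x2_pr F r ∈ S}) = ∑ τ ∈ S, lP (E ∩ x2_cy F τ) := by
  refine tendsto_nhds_unique (tend_lP (hE.inter ⟨F, x2_depS F S⟩)) ?_
  refine (tendsto_finsetSum S fun τ _ => tend_lP (hE.inter ⟨F, x2_dep F τ⟩)).congr fun D => ?_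
  unfold nu
  rw [← ex_sum]
  refine ex_congr fun r _ => ?_
  by_cases h : r ∈ E ∩ {r | x2_pr F r ∈ S}
  · rw [Set.indicator_of_mem h, sum_eq_single_of_mem (x2_pr F r) h.2 fun σ hσ hne =>
      Set.indicator_of_notMem (fun h' => hne ((x2_iff (hS hσ) r).1 h'.2).symm) _,
      Set.indicator_of_mem (Set.mem_inter h.1 ((x2_iff (x2_mem F r) r).2 rfl))]
  · rw [Set.indicator_of_notMem h]
    refine sum_eq_zero fun τ hτ => Set.indicator_of_notMem (fun h' => h ⟨h'.1, ?_⟩) _
    rw [Set.mem_setOf_eq, (x2_iff (hS hτ) r).1 h'.2]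
    exact hτ

theorem x2_sum {T : Finset Col} {c g : Col → ℝ} {δ : ℝ} (h0 : ∀ r, 0 ≤ g r) (h1 : ∀ r, g r ≤ 1)
    (h : ∀ S ⊆ T, |∑ τ ∈ S, c τ| ≤ δ) : |∑ τ ∈ T, g τ * c τ| ≤ δ := by
  rw [abs_le]
  constructor
  · refine (abs_le.1 (h _ (filter_subset (fun τ => c τ < 0) T))).1.trans ?_
    rw [sum_filter]
    refine sum_le_sum fun τ _ => ?_
    split_ifs with hc
    · nlinarith [h1 τ]
    · exact mul_nonneg (h0 τ) (not_lt.1 hc)
  · refine le_trans ?_ (abs_le.1 (h _ (filter_subset (fun τ => 0 < c τ) T))).2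
    rw [sum_filter]
    refine sum_le_sum fun τ _ => ?_
    split_ifs with hc
    · nlinarith [h1 τ]
    · exact mul_nonpos_of_nonneg_of_nonpos (h0 τ) (not_lt.1 hc)

theorem x2_prod {F F' : Finset Pt} {f g : Col → ℝ} (hf : DepF F f) (hg : DepF F' g) :
    lex (F ∪ F') (fun r => f r * g r) =
      ∑ σ ∈ ext F tt, f σ * ∑ τ ∈ ext F' tt, g τ * lP (x2_cy F σ ∩ x2_cy F' τ) := by
  have hd : DepF (↑(F ∪ F') : Set Pt) fun r => f r * g r := fun X Y e => by
    beta_reduce
    rw [hf X Y fun x hx => e x (mem_coe.2 (mem_union_left _ (mem_coe.1 hx))),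
      hg X Y fun x hx => e x (mem_coe.2 (mem_union_right _ (mem_coe.1 hx)))]
  refine tendsto_nhds_unique (tend_lex fam_free hd) ?_
  refine (tendsto_finsetSum _ fun σ _ => (tendsto_finsetSum _ fun τ _ =>
    (tend_lP (Loc.inter ⟨F, x2_dep F σ⟩ ⟨F', x2_dep F' τ⟩)).const_mul (g τ)).const_mul
      (f σ)).congr fun D => ?_
  unfold nu
  simp only [← ex_smul, ← ex_sum]
  refine ex_congr fun r _ => ?_
  rw [x2_dec hf r, x2_dec hg r, sum_mul]
  refine sum_congr rfl fun σ _ => ?_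
  rw [mul_assoc]
  congr 1
  rw [mul_sum]
  refine sum_congr rfl fun τ _ => ?_
  rw [Set.inter_indicator_one, Pi.mul_apply]
  ring

theorem lex_mix {F : Finset Pt} {f : Col → ℝ} (hf : DepF F f) (h0 : ∀ r, 0 ≤ f r) (h1 : ∀ r, f r ≤ 1) :
    ∀ ε > 0, ∃ F₁ : Finset Pt, F ⊆ F₁ ∧ ∀ (F' : Finset Pt) (g : Col → ℝ), DepF F' g → Disjoint F₁ F' →
      (∀ r, 0 ≤ g r) → (∀ r, g r ≤ 1) →
      |lex (F ∪ F') (fun r => f r * g r) - lex F f * lex F' g| ≤ ε := by
  intro ε hε
  have hc : (0 : ℝ) < (ext F tt).card := by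
    rw [card_ext]
    positivity
  choose K hK using fun σ : Col => fld_lP.mix2 (E := x2_cy F σ) ⟨F, x2_dep F σ⟩
    (ε / (ext F tt).card) (div_pos hε hc)
  refine ⟨F ∪ (ext F tt).biUnion K, subset_union_left, fun F' g hg hd g0 g1 => ?_⟩
  have e : lex (F ∪ F') (fun r => f r * g r) - lex F f * lex F' g =
      ∑ σ ∈ ext F tt, f σ * ∑ τ ∈ ext F' tt, g τ *
        (lP (x2_cy F σ ∩ x2_cy F' τ) - lP (x2_cy F σ) * lP (x2_cy F' τ)) := by
    rw [x2_prod hf hg, lex, lex, sum_mul, ← sum_sub_distrib]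
    refine sum_congr rfl fun σ _ => ?_
    rw [mul_assoc, ← mul_sub, mul_sum, ← sum_sub_distrib]
    congr 1
    refine sum_congr rfl fun τ _ => ?_
    unfold x2_cy
    ring
  rw [e]
  refine (abs_sum_le_sum_abs _ _).trans ((sum_le_card_nsmul _ _ (ε / (ext F tt).card)
    fun σ hσ => ?_).trans ?_)
  · rw [abs_mul, abs_of_nonneg (h0 σ)]
    refine (mul_le_of_le_one_left (abs_nonneg _) (h1 σ)).trans (x2_sum g0 g1 fun S hS => ?_)
    have k := hK σ F' _ (x2_depS F' S)
      (hd.mono_left ((subset_biUnion_of_mem K hσ).trans subset_union_right))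
    have k2 := x2_add (F := F') loc_univ hS
    simp only [Set.univ_inter] at k2
    rwa [x2_add ⟨F, x2_dep F σ⟩ hS, k2, mul_sum, ← sum_sub_distrib] at k
  · rw [nsmul_eq_mul, mul_div_cancel₀ _ hc.ne']

end Vale.Agent.P153L
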