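import Vale.Agent.P153L.L1
import Vale.Agent.P153L.FE
import Vale.Agent.P153L.Cnx
import Vale.Agent.P153L.CnxT

/-! The encoded field. `enc` is monotone, `enc (tr z r) = tr (z + z) (enc r)`, `enc ⁻¹' E` depends on `F.image lo ∪ F.image hi`.
Mixing: from `F` of `fld_lP.mix` take the finite set of all `z` with `lo z ∈ F` or `hi z ∈ F` (a `biUnion` of small boxes).
Finite energy: `K = hex 0 (2 * (n + 1) + 1)`, `ex_fe` with `hex 0 (n + 1)`, `enc_off`, `conn_*`, pass to the limit with `tend_lP`. -/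

open Finset Filter Topology
open scoped Classical

noncomputable section

namespace Vale.Agent.P153L

open P152.GL

theorem y1_dep {F : Finset Pt} {E : Set Col} (h : Dep F E) :
    Dep (F.image lo ∪ F.image hi) (enc ⁻¹' E) := by
  refine fun X Y e hX => h _ _ (fun z hz => ?_) hX
  unfold enc
  rw [e _ (mem_union_left _ (mem_image_of_mem lo hz)),
    e _ (mem_union_right _ (mem_image_of_mem hi hz))]

theorem loc_enc {E : Set Col} (h : Loc E) : Loc (enc ⁻¹' E) := by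
  obtain ⟨F, h⟩ := h
  exact ⟨_, y1_dep h⟩

theorem enc_mono : Monotone enc := by
  intro r r' h z
  rw [Bool.le_iff_imp]
  simp only [enc, Bool.and_eq_true]
  exact fun k => ⟨⟨k.1.1, Bool.le_iff_imp.1 (h _) k.1.2⟩, Bool.le_iff_imp.1 (h _) k.2⟩

theorem y1_tr (a b : ℤ) (r : Col) : tr (2 * a, 2 * b) (enc r) = enc (tr (a, b) r) := by
  funext x
  obtain ⟨c, d⟩ := x
  have e1 : lo (c + 2 * a, d + 2 * b) = lo (c, d) + (a, b) := by
    simp only [lo, Prod.mk_add_mk, Prod.mk.injEq]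
    omega
  have e2 : hi (c + 2 * a, d + 2 * b) = hi (c, d) + (a, b) := by
    simp only [hi, Prod.mk_add_mk, Prod.mk.injEq]
    omega
  have e3 : (c + 2 * a) % 2 = c % 2 := by omega
  have e4 : (d + 2 * b) % 2 = d % 2 := by omega
  simp only [tr, enc, Prod.mk_add_mk, e1, e2, e3, e4]

theorem fld_enc : Fld0 2 fun E => lP (enc ⁻¹' E) := by
  refine ⟨two_pos, fld_lP.univ, fun E h => fld_lP.nonneg _ (loc_enc h), fun E E' h h' hd => ?_,
    fun E z h h1 h2 => ?_, fun E h hu ε hε => ?_, fun E E' h h' hu hu' => ?_⟩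
  · exact fld_lP.add _ _ (loc_enc h) (loc_enc h') (hd.preimage enc)
  · obtain ⟨c, d⟩ := z
    obtain ⟨a, ha⟩ := h1
    obtain ⟨b, hb⟩ := h2
    have hc : c = 2 * a := by exact_mod_cast ha
    have hd : d = 2 * b := by exact_mod_cast hb
    have e : enc ⁻¹' (tr (c, d) ⁻¹' E) = tr (a, b) ⁻¹' (enc ⁻¹' E) := by
      ext r
      simp only [Set.mem_preimage, hc, hd, y1_tr]
    rw [e]
    exact fld_lP.inv _ _ (loc_enc h) (by simp) (by simp)
  · obtain ⟨F, hF⟩ := fld_lP.mix _ (loc_enc h) (hu.preimage enc_mono) ε hε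
    refine ⟨F.biUnion fun y => Icc (2 * y.1 - 1) (2 * y.1 + 1) ×ˢ Icc (2 * y.2 - 1) (2 * y.2 + 1),
      fun F' E' hE' hd => hF _ _ (y1_dep hE') (disjoint_left.2 fun y hy hy' => ?_)⟩
    rcases mem_union.1 hy' with k | k
    · obtain ⟨z, hz, e⟩ := mem_image.1 k
      refine disjoint_left.1 hd (mem_biUnion.2 ⟨y, hy, ?_⟩) hz
      rw [← e]
      simp only [lo, mem_product, mem_Icc]
      omega
    · obtain ⟨z, hz, e⟩ := mem_image.1 k
      refine disjoint_left.1 hd (mem_biUnion.2 ⟨y, hy, ?_⟩) hz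
      rw [← e]
      simp only [hi, mem_product, mem_Icc]
      omega
  · exact fld_lP.fkg _ _ (loc_enc h) (loc_enc h') (hu.preimage enc_mono) (hu'.preimage enc_mono)

theorem fe_enc (s : Bool) : FE (fun E => lP (enc ⁻¹' E)) s := by
  intro ε hε n
  obtain ⟨C, hC⟩ : ∃ C : ℝ, C = 2 ^ ((hex 0 (n + 1)).card + (cl (hex 0 (n + 1))).card) := ⟨_, rfl⟩
  have hC0 : 0 < C := by
    rw [hC]
    positivity
  refine ⟨hex 0 (2 * (n + 1) + 1), fun x hx => sqr_hex (n + 1) (a5l_sub (Nat.le_succ n) hx), C⁻¹,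
    inv_pos.2 hC0, fun F E hE hd => ?_⟩
  have hL : Loc E := ⟨F, hE⟩
  have hsub : enc ⁻¹' E ∩ {r | ∀ x ∈ hex 0 (n + 1), r x = s} ⊆
      enc ⁻¹' (E ∩ Conn (hex 0 (2 * (n + 1) + 1)) s) := by
    rintro r ⟨h1, h2⟩
    refine ⟨h1, ?_⟩
    cases s
    · exact conn_false h2
    · exact conn_true (Nat.le_add_left 1 n) h2
  have h1 : lP (enc ⁻¹' E) ≤ C * lP (enc ⁻¹' (E ∩ Conn (hex 0 (2 * (n + 1) + 1)) s)) := by
    refine le_of_tendsto_of_tendsto (tend_lP (loc_enc hL))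
      ((tend_lP (loc_enc (hL.inter (loc_conn _ s)))).const_mul C) ?_
    filter_upwards [eventually_ge_atTop (hex 0 (n + 1))] with D hD
    have h2 := ex_fe (N := cl D) hD tt s (E := enc ⁻¹' E) fun X Y e hX =>
      hE _ _ (fun z hz => enc_off e z (disjoint_left.1 hd hz)) hX
    rw [← hC] at h2
    exact h2.trans (mul_le_mul_of_nonneg_left (nu_mono hsub) hC0.le)
  rw [inv_mul_le_iff₀ hC0]
  linarith

end Vale.Agent.P153L
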