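import Vale.Agent.P153L.L1
import Vale.Agent.P153L.RI
import Vale.Agent.P152.A6Br

/-! The first spin has mean zero in the limit, and the zero boundary condition has the same limit.
`mean0`: `nonCoex` and `symB` (`arm_not`) give `NoPerc` for both colours; for `x ∈ sqr n`, `n ≤ m ≤ k`, `D = sqr k`:
`{x ∈ Wd} ⊆ snd ⁻¹' (Arm true n m ∪ Arm false n m)` (`arm_of_cn`), `meanI`, `J_fst`, let `k → ∞`.
`fam_zero`: for an upper set `E` depending on `F`, the function `∑ x ∈ F, 1[r x] - 1_E` and `1_E` are monotone; `holley` with `w_lat'`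
(`M = D`, `N` a square containing `cl D`, `ex_indep`) gives `0 ≤ nu⁺ E - nu⁰ E ≤ ∑ x ∈ F, (nu⁺ {r x} - nu⁰ {r x})`, and
`nu⁰ {r x} ≥ 1 / 2` by `meanI`, `nu⁺ {r x} → 1 / 2` by `mean0`. Then `loc_ind`. -/

open Finset Filter Topology
open scoped Classical

noncomputable section

namespace Vale.Agent.P153L

open P152.GL

theorem z2_hol {D : Finset Pt} (hD : Ray D) {f : Col → ℝ} (hf : Monotone f) :
    ex D D tt f ≤ ex D (cl D) tt f := by
  obtain ⟨n, hn⟩ := ex_sqr (cl D)
  exact (holley le_rfl (fun r hr r' hr' => w_lat' hD (ray_sqr n) (sub_cl.trans hn) (mem_ext.1 hr)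
    (mem_ext.1 hr')) hf).trans_eq (ex_indep hn true f)

theorem z2_half {D : Finset Pt} (hD : Ray D) (x : Pt) : 1 / 2 ≤ nu D D tt {r | r x = true} := by
  have h1 := meanI hD subset_rfl x
  have h2 : J D D {p | p.1 x = true} = nu D D tt {r | r x = true} := J_fst {r | r x = true}
  have h3 : J D D {p | p.1 x = false} = nu D D tt {r | r x = false} := J_fst {r | r x = false}
  have h4 : 0 ≤ J D D {p | x ∈ Wd D p} := div_nonneg (Nat.cast_nonneg _) (Nat.cast_nonneg _)
  have h5 := nu_add (D := D) (N := D) (ξ := tt) (E := {r | r x = true}) (E' := {r | r x = false})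
    (Set.disjoint_left.2 fun r a b => Bool.noConfusion (Eq.trans (Eq.symm a) b))
  have h6 : ({r | r x = true} ∪ {r | r x = false} : Set Col) = Set.univ :=
    Set.eq_univ_of_forall fun r => (Bool.eq_false_or_eq_true (r x))
  rw [h6, nu_univ] at h5
  linarith

theorem z2_ind {E : Set Col} (hu : IsUpperSet E) : Monotone (E.indicator (1 : Col → ℝ)) := by
  intro r r' h
  by_cases hr : r ∈ E
  · simp [hr, hu h hr]
  · rw [Set.indicator_of_notMem hr]
    exact Set.indicator_nonneg (fun _ _ => zero_le_one) _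

theorem z2_up (x : Pt) : IsUpperSet {r : Col | r x = true} := fun _ _ h hr =>
  Bool.eq_true_of_true_le (le_of_eq_of_le (Eq.symm hr) (h x))

theorem z2_mono {E : Set Col} {F : Finset Pt} (hE : Dep F E) : Monotone fun r : Col =>
    (∑ x ∈ F, Set.indicator {r : Col | r x = true} (1 : Col → ℝ) r) - E.indicator 1 r := by
  intro r r' h
  have h1 : ∀ x ∈ F, 0 ≤ Set.indicator {r : Col | r x = true} (1 : Col → ℝ) r' -
      Set.indicator {r : Col | r x = true} (1 : Col → ℝ) r := fun x _ =>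
    sub_nonneg.2 (z2_ind (z2_up x) h)
  have h2 := sum_nonneg h1
  by_cases hr : ∀ x ∈ F, r' x = r x
  · have h3 : E.indicator (1 : Col → ℝ) r' ≤ E.indicator 1 r := by
      by_cases h' : r' ∈ E
      · simp [h', hE r' r hr h']
      · rw [Set.indicator_of_notMem h']
        exact Set.indicator_nonneg (fun _ _ => zero_le_one) _
    rw [sum_sub_distrib] at h2
    simp only
    linarith
  · push Not at hr
    obtain ⟨x, hx, hne⟩ := hr
    have h3 := single_le_sum h1 hx
    have h4 : r x = false ∧ r' x = true := by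
      exact (by decide : ∀ a b : Bool, b ≠ a → a ≤ b → a = false ∧ b = true) _ _ hne (h x)
    have h5 : E.indicator (1 : Col → ℝ) r' ≤ 1 := Set.indicator_le_self' (fun _ _ => zero_le_one) _
    have h6 : 0 ≤ E.indicator (1 : Col → ℝ) r := Set.indicator_nonneg (fun _ _ => zero_le_one) _
    rw [sum_sub_distrib, Set.indicator_of_mem (show r' ∈ {r : Col | r x = true} from h4.2),
      Set.indicator_of_notMem (show r ∉ {r : Col | r x = true} by simp [h4.1])] at h3
    simp only [Pi.one_apply] at h3 ⊢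
    linarith

theorem z2_bd {D F : Finset Pt} (hD : Ray D) {E : Set Col} (hE : Dep F E) :
    nu D (cl D) tt E - ∑ x ∈ F, (nu D (cl D) tt {r | r x = true} - 1 / 2) ≤ nu D D tt E := by
  have h1 := z2_hol hD (z2_mono hE)
  rw [ex_sub, ex_sub, ex_sum, ex_sum] at h1
  have h2 : ∑ x ∈ F, (1 / 2 : ℝ) ≤ ∑ x ∈ F, nu D D tt {r | r x = true} :=
    sum_le_sum fun x _ => z2_half hD x
  rw [sum_sub_distrib]
  simp only [nu] at h2 ⊢
  linarith

theorem fam_zero (h0 : ∀ x, lP {r | r x = true} = 1 / 2) {ι : Type} {𝓕 : Filter ι}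
    {D : ι → Finset Pt} (hR : ∀ i, Ray (D i)) (hD : Tendsto D 𝓕 atTop) : Fam 𝓕 D D := by
  refine ⟨fun E hE => ?_, hD⟩
  refine loc_ind (Q := fun E => Tendsto (fun i => nu (D i) (D i) tt E) 𝓕 (𝓝 (lP E))) ?_ ?_ ?_ hE
  · rintro E ⟨F, hF⟩ hu
    have h1 := (tend_lP ⟨F, hF⟩).comp hD
    have h2 : Tendsto (fun i => ∑ x ∈ F, (nu (D i) (cl (D i)) tt {r | r x = true} - 1 / 2)) 𝓕
        (𝓝 (∑ _x ∈ F, (0 : ℝ))) := tendsto_finsetSum _ fun x _ => by
      have h3 := ((tend_lP (E := {r | r x = true}) ⟨{x}, fun X Y e hX =>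
        (e x (mem_singleton_self x)).symm.trans hX⟩).comp hD).sub_const (1 / 2)
      rwa [h0, sub_self] at h3
    have h4 := h1.sub h2
    rw [sum_const_zero, sub_zero] at h4
    exact tendsto_of_tendsto_of_tendsto_of_le_of_le h4 h1 (fun i => z2_bd (hR i) hF)
      fun i => z2_hol (hR i) (z2_ind hu)
  · intro E E' h1 h2 hd h3 h4
    simp only [nu_add hd, fld_lP.add E E' h1 h2 hd]
    exact h3.add h4
  · intro E E' h1 h2 hd h3 h4
    have := h3.sub h4
    simpa only [nu_add hd, fld_lP.add E E' h1 h2 hd, add_sub_cancel_left] using this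

end Vale.Agent.P153L
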